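import Vale.Agent.P159.Bdl.B9

/-!
P159, near-critical regime, second version: interfaces of the estimates uniform in the cell size.
-/

namespace Vale.Agent.P159.UJ.H664

open scoped BigOperators

/-- The expansion of the current of a cell, with an error whose mean in the big block is small
uniformly in the size of the cell. -/
def CellU (B : ℝ) : Prop := ∃ C : ℝ, 0 ≤ C ∧ ∀ b : ℝ, 0 < b → b ≤ B → ∀ l n : ℕ, 1 ≤ l →
  ∀ k ∈ cells n, ∀ (α : Ginf) (a : BI l → ℝ) (Y R : ℝ), 0 < Y → (l : ℝ) * Y ≤ 1 → 0 < R →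
    (∀ e, ((a e : ℝ) : T) = α (cor l k + bu e) - α (cor l k + bv e)) → (∀ e, |a e| ≤ Y) →
    (∀ e e', hh e = hh e' → |a e - a e'| ≤ R) →
    ∃ Er : Ginf → ℝ, Continuous Er ∧ (∀ x, 0 ≤ Er x) ∧
      Ev b (l * n) 0 Er ≤ C * ((l : ℝ) ^ 2 * R + (l : ℝ) ^ 3 * Y ^ 2) ∧
      ∀ h : BI l → ℝ, (h = hh ∨ h = vv) → ∀ x,
        |jc b l (cor l k) h (x + α) - jc b l (cor l k) h x -
            stiff l b * ∑ e, 1 / 2 * h e * a e| ≤
          2 * Y * (((l : ℝ) ^ 2 * stiff l b - qc b l (cor l k) hh x) +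
            ((l : ℝ) ^ 2 * stiff l b - qc b l (cor l k) vv x)) + Er x

/-- The estimate of the affinity of two vortex positions, uniformly in the size `l` of the cells. -/
def AffU (B t0 : ℝ) : Prop := ∃ C0 CU : ℝ, 1 ≤ C0 ∧ 1 ≤ CU ∧ ∀ b : ℝ, 0 < b → b ≤ B →
  ∀ l : ℕ, 1 ≤ l → t0 ≤ stiff l b → ∀ K M m : ℕ, 1 ≤ K → C0 ≤ Real.pi * K →
    1 ≤ 2 * Real.pi * t0 * K → CU ≤ (m : ℝ) → ∀ δ : ℝ,
    stiff l b - stiff (l * m * NN K M) b ≤ δ → ∀ i j i' j' : ℕ, i < M → j < M → i' < M →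
    j' < M → ∀ (h : BI l → ℝ) (ν : ℝ), (h = hh ∧ ν = |(j : ℝ) - j'| ∨ h = vv ∧
    ν = |(i : ℝ) - i'|) → 1 ≤ ν →
    Ev b (l * m * NN K M) (ang (l * m * NN K M) 0)
      (fun θ => Real.sqrt (Dn b l m K M i j θ) * Real.sqrt (Dn b l m K M i' j' θ)) ≤
    2 * Real.sqrt ((576 + 96 * C0) * (NN K M : ℝ) ^ 2 * δ + CU * (NN K M : ℝ) ^ 2 / m) +
    2 * Real.sqrt (2 * Real.exp b) * Real.exp (-(2 * Real.pi * t0 * K * ν) / 48)

end Vale.Agent.P159.UJ.H664
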