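import Vale.Agent.P159.T1.NC.H664.CurU
import Vale.Agent.P159.T1.NC.H664.UProps

/-!
The expansion of the current of a cell, uniformly in the size of the cell.
-/

set_option linter.all false

open MeasureTheory Filter Topology
open scoped BigOperators

namespace Vale.Agent.P159.UJ.H664

section Ex

variable {G : Type*} [AddCommGroup G] [TopologicalSpace G] [IsTopologicalAddGroup G]
  [CompactSpace G] [SecondCountableTopology G] [MeasurableSpace G] [BorelSpace G]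
  (μ : Measure G) [μ.IsAddHaarMeasure] [IsProbabilityMeasure μ]
  {κ : Type*} [Fintype κ] (J : κ → ℝ) (χ : κ → Chr G)

/-- the stiffness form in a small direction `r` -/
theorem QQ_uni (hJ : ∀ e, 0 ≤ J e) {t h r : κ → ℝ} {R ρ lam c : ℝ}
    (hh : ∀ e, |h e| ≤ 1) (hr : ∀ e, |r e| ≤ R) (hρ : 0 < ρ) (hlam : 1 ≤ lam)
    (hc : 0 ≤ c) (h1 : (∑ e, J e) * R ≤ c * (lam * ρ)) :
    |QQ μ J χ t h r| ≤ (c + 2) * (lam * ρ) *
        ex μ J χ t (fun x => Real.exp (|Jt J χ t r x| / ρ + |Jt J χ t h x| / lam) ^ 16) := by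
  have hlam0 : 0 < lam := by linarith only [hlam]
  have cX := cont_Jt J χ t r
  have cZ := cont_Jt J χ t h
  have cB := cont_Bt J χ t h r
  obtain ⟨X, hX⟩ : ∃ X : G → ℝ, X = Jt J χ t r := ⟨_, rfl⟩
  obtain ⟨Z, hZ⟩ : ∃ Z : G → ℝ, Z = Jt J χ t h := ⟨_, rfl⟩
  obtain ⟨β, hβ⟩ : ∃ β : G → ℝ, β = Bt J χ t h r := ⟨_, rfl⟩
  have hQQ : QQ μ J χ t h r = ex μ J χ t β - ex μ J χ t (fun x => Z x * X x) +
      ex μ J χ t Z * ex μ J χ t X := by
    rw [hZ, hX, hβ]; rfl
  obtain ⟨g, hg⟩ : ∃ g : G → ℝ, g = fun x => Real.exp (|X x| / ρ + |Z x| / lam) := ⟨_, rfl⟩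
  have hg16 : (fun x => Real.exp (|Jt J χ t r x| / ρ + |Jt J χ t h x| / lam) ^ 16) =
      fun x => g x ^ 16 := by rw [hg, hX, hZ]
  rw [hQQ, hg16]
  rw [← hX] at cX
  rw [← hZ] at cZ
  rw [← hβ] at cB
  have pβ : ∀ x, |β x| ≤ c * (lam * ρ) := fun x => by
    have := abs_Bt_le J χ hJ hh hr (t := t) x
    rw [one_mul] at this
    rw [hβ]
    exact this.trans h1
  have cg : Continuous g := by
    rw [hg]
    exact Real.continuous_exp.comp (((continuous_abs.comp cX).div_const _).add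
      ((continuous_abs.comp cZ).div_const _))
  have pu : ∀ x, 0 ≤ |X x| / ρ := fun x => by positivity
  have pv : ∀ x, 0 ≤ |Z x| / lam := fun x => by positivity
  have pg1 : ∀ x, 1 ≤ g x := fun x => by
    rw [hg]; exact Real.one_le_exp (by linarith only [pu x, pv x])
  have pX : ∀ x, |X x| ≤ ρ * g x := fun x => by
    have h3 : |X x| / ρ ≤ g x := by
      refine (le_exp_self _).trans ?_
      rw [hg]; exact Real.exp_le_exp.2 (by linarith only [pv x])
    rw [div_le_iff₀ hρ] at h3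
    linarith only [h3]
  have pZ : ∀ x, |Z x| ≤ lam * g x := fun x => by
    have h3 : |Z x| / lam ≤ g x := by
      refine (le_exp_self _).trans ?_
      rw [hg]; exact Real.exp_le_exp.2 (by linarith only [pu x])
    rw [div_le_iff₀ hlam0] at h3
    linarith only [h3]
  have pZX : ∀ x, |Z x * X x| ≤ lam * ρ * g x := fun x => by
    have h3 : |Z x| / lam ≤ Real.exp (|Z x| / lam) := le_exp_self _
    have h4 : |X x| / ρ ≤ Real.exp (|X x| / ρ) := le_exp_self _
    have h5 : (|Z x| / lam) * (|X x| / ρ) ≤ g x := by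
      refine (mul_le_mul h3 h4 (pu x) (Real.exp_pos _).le).trans (le_of_eq ?_)
      rw [← Real.exp_add, hg, add_comm]
    have h6 : |Z x * X x| = lam * ρ * ((|Z x| / lam) * (|X x| / ρ)) := by
      rw [abs_mul]; field_simp
    rw [h6]
    exact mul_le_mul_of_nonneg_left h5 (by positivity)
  obtain ⟨M, hM⟩ : ∃ M, M = ex μ J χ t g := ⟨_, rfl⟩
  obtain ⟨M16, hM16⟩ : ∃ M, M = ex μ J χ t (fun x => g x ^ 16) := ⟨_, rfl⟩
  rw [← hM16]
  have c1 : Continuous (fun _ : G => (1 : ℝ)) := continuous_const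
  have hM1 : 1 ≤ M := by
    have := ex_mono μ J χ (t := t) c1 cg pg1
    rw [ex_const] at this
    rw [hM]; exact this
  have hMM : M ^ 2 ≤ M16 := by
    rw [hM, hM16]
    refine (ex_sq_le μ J χ (t := t) cg).trans ?_
    exact ex_mono μ J χ (cg.pow 2) (cg.pow 16) fun x => pow_le_pow_right₀ (pg1 x) (by norm_num)
  have hM16' : M ≤ M16 := by nlinarith only [hM1, hMM]
  have h161 : 1 ≤ M16 := hM1.trans hM16'
  have b2 : |ex μ J χ t Z| ≤ lam * M := by
    have c2 : Continuous (fun x => lam * g x) := continuous_const.mul cg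
    refine (ex_abs_le' μ J χ (t := t) cZ c2 pZ).trans ?_
    rw [ex_const_mul, hM]
  have b3 : |ex μ J χ t X| ≤ ρ * M := by
    have c2 : Continuous (fun x => ρ * g x) := continuous_const.mul cg
    refine (ex_abs_le' μ J χ (t := t) cX c2 pX).trans ?_
    rw [ex_const_mul, hM]
  have b4 : |ex μ J χ t (fun x => Z x * X x)| ≤ lam * ρ * M := by
    have c2 : Continuous (fun x => lam * ρ * g x) := continuous_const.mul cg
    have c3 : Continuous (fun x => Z x * X x) := cZ.mul cX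
    refine (ex_abs_le' μ J χ (t := t) c3 c2 pZX).trans ?_
    rw [ex_const_mul, hM]
  have b9 : |ex μ J χ t β| ≤ c * (lam * ρ) := ex_abs_le μ J χ cB pβ
  have a1 := abs_add_le (ex μ J χ t β - ex μ J χ t (fun x => Z x * X x))
    (ex μ J χ t Z * ex μ J χ t X)
  have a2 := abs_sub (ex μ J χ t β) (ex μ J χ t (fun x => Z x * X x))
  have a3 : |ex μ J χ t Z * ex μ J χ t X| ≤ (lam * ρ) * M16 := by
    rw [abs_mul]
    calc |ex μ J χ t Z| * |ex μ J χ t X| ≤ (lam * M) * (ρ * M) :=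
          mul_le_mul b2 b3 (abs_nonneg _) (by positivity)
      _ = (lam * ρ) * M ^ 2 := by ring
      _ ≤ _ := mul_le_mul_of_nonneg_left hMM (by positivity)
  have a4 : lam * ρ * M ≤ lam * ρ * M16 := mul_le_mul_of_nonneg_left hM16' (by positivity)
  have a5 : c * (lam * ρ) * 1 ≤ c * (lam * ρ) * M16 :=
    mul_le_mul_of_nonneg_left h161 (by positivity)
  have e1 : (c + 2) * (lam * ρ) * M16 = c * (lam * ρ) * M16 + 2 * (lam * ρ * M16) := by ring
  rw [e1]
  linarith only [a1, a2, a3, a4, a5, b4, b9]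

end Ex

theorem exp_abs_le (x : ℝ) : Real.exp |x| ≤ Real.exp x + Real.exp (-x) := by
  rcases le_total 0 x with h | h
  · rw [abs_of_nonneg h]; linarith only [Real.exp_pos (-x)]
  · rw [abs_of_nonpos h]; linarith only [Real.exp_pos x]

theorem exp16_le {u v ρ lam : ℝ} (hρ : 0 < ρ) (hlam : 0 < lam) :
    Real.exp (|u| / ρ + |v| / lam) ^ 16 ≤
      Real.exp (32 / ρ * u) + Real.exp (-(32 / ρ) * u) +
        (Real.exp (32 / lam * v) + Real.exp (-(32 / lam) * v)) := by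
  have e1 : Real.exp (|u| / ρ + |v| / lam) ^ 16 =
      Real.exp (16 * (|u| / ρ)) * Real.exp (16 * (|v| / lam)) := by
    rw [← Real.exp_nat_mul, ← Real.exp_add]
    congr 1
    push_cast
    ring
  have e2 : ∀ w τ : ℝ, 0 < τ → Real.exp (16 * (|w| / τ)) ^ 2 = Real.exp |32 / τ * w| := by
    intro w τ hτ
    rw [← Real.exp_nat_mul, abs_mul, abs_of_pos (show 0 < 32 / τ by positivity)]
    congr 1
    push_cast
    ring
  have h1 := e2 u ρ hρ
  have h2 := e2 v lam hlam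
  have h3 := exp_abs_le (32 / ρ * u)
  have h4 := exp_abs_le (32 / lam * v)
  have e5 : -(32 / ρ) * u = -(32 / ρ * u) := by ring
  have e6 : -(32 / lam) * v = -(32 / lam * v) := by ring
  rw [e1, e5, e6]
  have p1 := Real.exp_pos (16 * (|u| / ρ))
  have p2 := Real.exp_pos (16 * (|v| / lam))
  nlinarith only [h1, h2, h3, h4, sq_nonneg (Real.exp (16 * (|u| / ρ)) -
    Real.exp (16 * (|v| / lam))), sq_nonneg (Real.exp (16 * (|u| / ρ))),
    sq_nonneg (Real.exp (16 * (|v| / lam)))]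

/-- exponential moments of the current of one cell -/
theorem Ev_expSB {b : ℝ} (hb : 0 ≤ b) {l n : ℕ} (hl : 1 ≤ l) {k : ℤ × ℤ} (hk : k ∈ cells n)
    (h : BI l → ℝ) (r : ℝ) :
    Ev b (l * n) 0 (fun z => Real.exp (r * SB b l (cor l k) h z)) ≤
      Real.exp (r ^ 2 / 2 * ∑ e : BI l, b / 2 * h e ^ 2) := by
  have hW : WB b (l * n) 0 0 = ∫ x, Real.exp (EB b (l * n) 0 (PB (l * n) 0 x)) ∂muInf := by
    unfold WB av
    simp only [zero_add]
  have hWpos := WB_pos b (l * n) 0 0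
  unfold Ev
  rw [div_le_iff₀ hWpos]
  have hc : Continuous (fun x => Real.exp (r * SB b l (cor l k) h x) *
      Real.exp (EB b (l * n) 0 x)) :=
    (Real.continuous_exp.comp (continuous_const.mul (SB_cont b l (cor l k) h))).mul
      (Real.continuous_exp.comp (EB_cont b (l * n) 0))
  rw [int_nu (l * n) 0 hc, hW]
  simp only [zero_add]
  have h1 := EB1.bound3 hb hl {k} (by simpa using hk) h r
  simp only [Finset.sum_singleton] at h1
  exact h1

/-- the function bounding the exponential of the currents of a cell -/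
noncomputable def Psi (b : ℝ) (l : ℕ) (k : ℤ × ℤ) (p q : ℝ) (a1 a2 : BI l → ℝ) (z : Ginf) : ℝ :=
  Real.exp (p * SB b l (cor l k) a1 z) + Real.exp (-p * SB b l (cor l k) a1 z) +
    (Real.exp (q * SB b l (cor l k) a2 z) + Real.exp (-q * SB b l (cor l k) a2 z))

theorem expSB_cont (b : ℝ) (l : ℕ) (k : ℤ × ℤ) (p : ℝ) (a1 : BI l → ℝ) :
    Continuous (fun z => Real.exp (p * SB b l (cor l k) a1 z)) :=
  Real.continuous_exp.comp (continuous_const.mul (SB_cont b l (cor l k) a1))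

theorem Psi_cont (b : ℝ) (l : ℕ) (k : ℤ × ℤ) (p q : ℝ) (a1 a2 : BI l → ℝ) :
    Continuous (Psi b l k p q a1 a2) :=
  ((expSB_cont b l k p a1).add (expSB_cont b l k (-p) a1)).add
    ((expSB_cont b l k q a2).add (expSB_cont b l k (-q) a2))

theorem Ev_Psi {b : ℝ} (hb : 0 ≤ b) {l n : ℕ} (hl : 1 ≤ l) {k : ℤ × ℤ} (hk : k ∈ cells n)
    (p q : ℝ) (a1 a2 : BI l → ℝ) {c : ℝ} (h1 : p ^ 2 / 2 * ∑ e : BI l, b / 2 * a1 e ^ 2 ≤ c)
    (h2 : q ^ 2 / 2 * ∑ e : BI l, b / 2 * a2 e ^ 2 ≤ c) :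
    Ev b (l * n) 0 (var_CE b l k (Psi b l k p q a1 a2)) ≤ 4 * Real.exp c := by
  rw [var_tower_one hl hk (Psi_cont b l k p q a1 a2)]
  have c1 := expSB_cont b l k p a1
  have c2 := expSB_cont b l k (-p) a1
  have c3 := expSB_cont b l k q a2
  have c4 := expSB_cont b l k (-q) a2
  have c12 : Continuous (fun z => Real.exp (p * SB b l (cor l k) a1 z) +
    Real.exp (-p * SB b l (cor l k) a1 z)) := c1.add c2
  have c34 : Continuous (fun z => Real.exp (q * SB b l (cor l k) a2 z) +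
    Real.exp (-q * SB b l (cor l k) a2 z)) := c3.add c4
  unfold Psi
  rw [Ev_add c12 c34, Ev_add c1 c2, Ev_add c3 c4]
  have e1 := Ev_expSB hb hl hk a1 p
  have e2 := Ev_expSB hb hl hk a1 (-p)
  have e3 := Ev_expSB hb hl hk a2 q
  have e4 := Ev_expSB hb hl hk a2 (-q)
  rw [neg_sq] at e2 e4
  have f1 := Real.exp_le_exp.2 h1
  have f2 := Real.exp_le_exp.2 h2
  linarith only [e1, e2, e3, e4, f1, f2]

/-- the conditional expectation of `Psi` in terms of real increments -/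
theorem CE_Psi {b : ℝ} {l : ℕ} {k : ℤ × ℤ} {x : Ginf} {t : BI l → ℝ}
    (ht : ∀ e, ((t e : ℝ) : T) = x (cor l k + bu e) - x (cor l k + bv e))
    {ρ lam : ℝ} (hρ : 0 < ρ) (hlam : 0 < lam) (a1 a2 : BI l → ℝ) :
    ex muInf (fun _ => b / 2) (chi0 l) t (fun x =>
      Real.exp (|Jt (fun _ => b / 2) (chi0 l) t a1 x| / ρ +
        |Jt (fun _ => b / 2) (chi0 l) t a2 x| / lam) ^ 16) ≤
      var_CE b l k (Psi b l k (32 / ρ) (32 / lam) a1 a2) x := by
  have c1 := cont_Jt (fun _ => b / 2) (chi0 l) t a1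
  have c2 := cont_Jt (fun _ => b / 2) (chi0 l) t a2
  have hE : ∀ r : ℝ, Continuous (fun x => Real.exp (r * Jt (fun _ => b / 2) (chi0 l) t a1 x)) :=
    fun r => Real.continuous_exp.comp (continuous_const.mul c1)
  have hE2 : ∀ r : ℝ, Continuous (fun x => Real.exp (r * Jt (fun _ => b / 2) (chi0 l) t a2 x)) :=
    fun r => Real.continuous_exp.comp (continuous_const.mul c2)
  have hΦ : Continuous (fun x => Real.exp (32 / ρ * Jt (fun _ => b / 2) (chi0 l) t a1 x) +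
      Real.exp (-(32 / ρ) * Jt (fun _ => b / 2) (chi0 l) t a1 x) +
      (Real.exp (32 / lam * Jt (fun _ => b / 2) (chi0 l) t a2 x) +
      Real.exp (-(32 / lam) * Jt (fun _ => b / 2) (chi0 l) t a2 x))) :=
    ((hE _).add (hE _)).add ((hE2 _).add (hE2 _))
  have h := CE_eq (b := b) (s := l) (c := cor l k) (θ := x) (t := t) ht
    (F := Psi b l k (32 / ρ) (32 / lam) a1 a2) hΦ (fun y => by
      unfold Psi
      rw [SB_eq ht, SB_eq ht])
  unfold var_CE
  rw [h]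
  refine ex_mono muInf _ _ ?_ hΦ fun x => exp16_le hρ hlam
  exact (Real.continuous_exp.comp (((continuous_abs.comp c1).div_const _).add
      ((continuous_abs.comp c2).div_const _))).pow 16

theorem sum_sq_le {b : ℝ} (hb : 0 ≤ b) {l : ℕ} {a : BI l → ℝ} {Y : ℝ} (ha : ∀ e, |a e| ≤ Y) :
    ∑ e : BI l, b / 2 * a e ^ 2 ≤ 2 * b * (l : ℝ) ^ 2 * Y ^ 2 := by
  have h1 : ∀ e : BI l, b / 2 * a e ^ 2 ≤ b / 2 * Y ^ 2 := fun e => by
    rw [← sq_abs]
    exact mul_le_mul_of_nonneg_left (pow_le_pow_left₀ (abs_nonneg _) (ha e) 2) (by positivity)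
  refine (Finset.sum_le_sum fun e _ => h1 e).trans (le_of_eq ?_)
  rw [Finset.sum_const, Finset.card_univ, nsmul_eq_mul]
  have : Fintype.card (BI l) = 4 * l ^ 2 := by
    unfold BI
    simp only [Fintype.card_prod, Fintype.card_fin, Fintype.card_bool]
    ring
  rw [this]
  push_cast
  ring

theorem sum_J (b : ℝ) (l : ℕ) : ∑ _e : BI l, b / 2 = 2 * b * (l : ℝ) ^ 2 := by
  rw [Finset.sum_const, Finset.card_univ, nsmul_eq_mul]
  have : Fintype.card (BI l) = 4 * l ^ 2 := by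
    unfold BI
    simp only [Fintype.card_prod, Fintype.card_fin, Fintype.card_bool]
    ring
  rw [this]
  push_cast
  ring

/-- **the current of a cell, uniformly in its size** -/
theorem cellU (B : ℝ) (hB : 0 < B) : CellU B := by
  obtain ⟨c, hc⟩ : ∃ c : ℝ, c = 6 * B := ⟨_, rfl⟩
  have hc0 : 0 ≤ c := by rw [hc]; positivity
  obtain ⟨K1, hK1⟩ : ∃ K1 : ℝ, K1 = 9 * ((1 + c) ^ 2 * Real.exp c) ^ 3 := ⟨_, rfl⟩
  have hK10 : 0 ≤ K1 := by rw [hK1]; positivity
  obtain ⟨K2, hK2⟩ : ∃ K2 : ℝ, K2 = c + 2 := ⟨_, rfl⟩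
  have hK20 : 0 ≤ K2 := by rw [hK2]; positivity
  obtain ⟨E, hE⟩ : ∃ E : ℝ, E = 4 * Real.exp (1024 * B) := ⟨_, rfl⟩
  have hE0 : 0 ≤ E := by rw [hE]; positivity
  refine ⟨(K1 + K2) * (2 * E), by positivity, ?_⟩
  intro b hb hbB l n hl k hk α a Y R hY hlY hR haα ha hRa
  have hJ : ∀ _ : BI l, 0 ≤ b / 2 := fun _ => by positivity
  have hlR : (1 : ℝ) ≤ l := by exact_mod_cast hl
  have hl0 : (0 : ℝ) < l := by linarith only [hlR]
  obtain ⟨xi1, xi2, r, hdec, h1, h2, hr, hs1, hs2, -⟩ := decomp hl ha hRa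
  obtain ⟨ρ, hρ⟩ : ∃ ρ : ℝ, ρ = l * Y := ⟨_, rfl⟩
  have hρ0 : 0 < ρ := by rw [hρ]; positivity
  obtain ⟨τ, hτ⟩ : ∃ τ : ℝ, τ = l * R := ⟨_, rfl⟩
  have hτ0 : 0 < τ := by rw [hτ]; positivity
  have hY1 : Y ≤ 1 := by nlinarith only [hlY, hlR, hY]
  have hρ1 : ρ ≤ 1 := by rw [hρ]; exact hlY
  obtain ⟨Er, hEr⟩ : ∃ Er : Ginf → ℝ, Er = fun x =>
      K1 * (l * ρ ^ 2) * (var_CE b l k (Psi b l k (32 / ρ) (32 / l) a hh) x +
        var_CE b l k (Psi b l k (32 / ρ) (32 / l) a vv) x) +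
      K2 * (l * τ) * (var_CE b l k (Psi b l k (32 / τ) (32 / l) r hh) x +
        var_CE b l k (Psi b l k (32 / τ) (32 / l) r vv) x) := ⟨_, rfl⟩
  have d1 := var_CE_cont (b := b) (l := l) k (Psi_cont b l k (32 / ρ) (32 / l) a hh)
  have d2 := var_CE_cont (b := b) (l := l) k (Psi_cont b l k (32 / ρ) (32 / l) a vv)
  have d3 := var_CE_cont (b := b) (l := l) k (Psi_cont b l k (32 / τ) (32 / l) r hh)
  have d4 := var_CE_cont (b := b) (l := l) k (Psi_cont b l k (32 / τ) (32 / l) r vv)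
  have d12 : Continuous (fun x => var_CE b l k (Psi b l k (32 / ρ) (32 / l) a hh) x +
        var_CE b l k (Psi b l k (32 / ρ) (32 / l) a vv) x) := d1.add d2
  have d34 : Continuous (fun x => var_CE b l k (Psi b l k (32 / τ) (32 / l) r hh) x +
        var_CE b l k (Psi b l k (32 / τ) (32 / l) r vv) x) := d3.add d4
  have d12' : Continuous (fun x => K1 * (l * ρ ^ 2) *
      (var_CE b l k (Psi b l k (32 / ρ) (32 / l) a hh) x +
        var_CE b l k (Psi b l k (32 / ρ) (32 / l) a vv) x)) := continuous_const.mul d12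
  have d34' : Continuous (fun x => K2 * (l * τ) *
      (var_CE b l k (Psi b l k (32 / τ) (32 / l) r hh) x +
        var_CE b l k (Psi b l k (32 / τ) (32 / l) r vv) x)) := continuous_const.mul d34
  have pCE : ∀ (p q : ℝ) (a1 a2 : BI l → ℝ) (x : Ginf),
      0 ≤ var_CE b l k (Psi b l k p q a1 a2) x := by
    intro p q a1 a2 x
    obtain ⟨t, ht⟩ := rep_exists (l := l) (cor l k) x
    unfold var_CE CE
    refine div_nonneg ?_ ?_
    · unfold av
      refine integral_nonneg fun y => mul_nonneg ?_ (Real.exp_pos _).le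
      unfold Psi
      positivity
    · unfold av
      exact integral_nonneg fun y => (Real.exp_pos _).le
  refine ⟨Er, by rw [hEr]; exact d12'.add d34', fun x => ?_, ?_, ?_⟩
  · rw [hEr]
    have q1 := pCE (32 / ρ) (32 / l) a hh x
    have q2 := pCE (32 / ρ) (32 / l) a vv x
    have q3 := pCE (32 / τ) (32 / l) r hh x
    have q4 := pCE (32 / τ) (32 / l) r vv x
    positivity
  · -- the mean of the error
    have hBb : 1024 * b ≤ 1024 * B := by linarith only [hbB]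
    have m1 : (32 / ρ) ^ 2 / 2 * ∑ e : BI l, b / 2 * a e ^ 2 ≤ 1024 * B := by
      have h3 := sum_sq_le hb.le ha
      have h4 : (32 / ρ) ^ 2 / 2 * (2 * b * (l : ℝ) ^ 2 * Y ^ 2) = 1024 * b := by
        rw [hρ]; field_simp; norm_num
      have h5 := mul_le_mul_of_nonneg_left h3 (show 0 ≤ (32 / ρ) ^ 2 / 2 by positivity)
      linarith only [h4, h5, hBb]
    have m2 : (32 / τ) ^ 2 / 2 * ∑ e : BI l, b / 2 * r e ^ 2 ≤ 1024 * B := by
      have h3 := sum_sq_le hb.le hr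
      have h4 : (32 / τ) ^ 2 / 2 * (2 * b * (l : ℝ) ^ 2 * R ^ 2) = 1024 * b := by
        rw [hτ]; field_simp; norm_num
      have h5 := mul_le_mul_of_nonneg_left h3 (show 0 ≤ (32 / τ) ^ 2 / 2 by positivity)
      linarith only [h4, h5, hBb]
    have m3 : (32 / (l : ℝ)) ^ 2 / 2 * ∑ e : BI l, b / 2 * hh e ^ 2 ≤ 1024 * B := by
      rw [sum_hh_sq]
      have h4 : (32 / (l : ℝ)) ^ 2 / 2 * (b * (l : ℝ) ^ 2) = 512 * b := by
        field_simp; norm_num
      linarith only [h4, hBb, hb]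
    have m4 : (32 / (l : ℝ)) ^ 2 / 2 * ∑ e : BI l, b / 2 * vv e ^ 2 ≤ 1024 * B := by
      rw [sum_vv_sq]
      have h4 : (32 / (l : ℝ)) ^ 2 / 2 * (b * (l : ℝ) ^ 2) = 512 * b := by
        field_simp; norm_num
      linarith only [h4, hBb, hb]
    have e1 := Ev_Psi hb.le hl hk (32 / ρ) (32 / (l : ℝ)) a hh m1 m3
    have e2 := Ev_Psi hb.le hl hk (32 / ρ) (32 / (l : ℝ)) a vv m1 m4
    have e3 := Ev_Psi hb.le hl hk (32 / τ) (32 / (l : ℝ)) r hh m2 m3
    have e4 := Ev_Psi hb.le hl hk (32 / τ) (32 / (l : ℝ)) r vv m2 m4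
    rw [← hE] at e1 e2 e3 e4
    rw [hEr, Ev_add d12' d34', Ev_const_mul, Ev_const_mul, Ev_add d1 d2, Ev_add d3 d4]
    have f1 := mul_le_mul_of_nonneg_left (add_le_add e1 e2) (show 0 ≤ K1 * (l * ρ ^ 2) by positivity)
    have f2 := mul_le_mul_of_nonneg_left (add_le_add e3 e4) (show 0 ≤ K2 * (l * τ) by positivity)
    refine (add_le_add f1 f2).trans ?_
    have g1 : (l : ℝ) * ρ ^ 2 = (l : ℝ) ^ 3 * Y ^ 2 := by rw [hρ]; ring
    have g2 : (l : ℝ) * τ = (l : ℝ) ^ 2 * R := by rw [hτ]; ring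
    rw [g1, g2]
    have g3 : 0 ≤ K1 * (2 * E) * ((l : ℝ) ^ 2 * R) := by positivity
    have g4 : 0 ≤ K2 * (2 * E) * ((l : ℝ) ^ 3 * Y ^ 2) := by positivity
    linarith only [g3, g4]
  · -- the expansion
    intro h hh' x
    obtain ⟨t, ht⟩ := rep_exists (l := l) (cor l k) x
    have hta : ∀ e, (((t + a) e : ℝ) : T) = (x + α) (cor l k + bu e) - (x + α) (cor l k + bv e) := by
      intro e
      rw [Pi.add_apply, AddCircle.coe_add, ht, haα, Pi.add_apply, Pi.add_apply]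
      abel
    rw [jc_eq hta, jc_eq ht, qc_eq ht, qc_eq ht]
    have hS := sum_J b l
    have hSY2 : 3 * (∑ _e : BI l, b / 2) * Y ^ 2 ≤ c * ρ ^ 2 := by
      rw [hS, hρ, hc]
      have : 3 * (2 * b * (l : ℝ) ^ 2) * Y ^ 2 = 6 * b * ((l : ℝ) * Y) ^ 2 := by ring
      rw [this]
      exact mul_le_mul_of_nonneg_right (by linarith only [hbB]) (by positivity)
    have hSY : (∑ _e : BI l, b / 2) * Y ≤ c * (l * ρ) := by
      rw [hS, hρ, hc]
      have : 2 * b * (l : ℝ) ^ 2 * Y = 2 * b * ((l : ℝ) * (l * Y)) := by ring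
      rw [this]
      exact mul_le_mul_of_nonneg_right (by linarith only [hbB, hB]) (by positivity)
    have hSR : (∑ _e : BI l, b / 2) * R ≤ c * (l * τ) := by
      rw [hS, hτ, hc]
      have : 2 * b * (l : ℝ) ^ 2 * R = 2 * b * ((l : ℝ) * (l * R)) := by ring
      rw [this]
      exact mul_le_mul_of_nonneg_right (by linarith only [hbB, hB]) (by positivity)
    -- the defects
    have hDh0 := QQ_le muInf (fun _ => b / 2) (chi0 l) pi_div2 hJ t hh
    have hDv0 := QQ_le muInf (fun _ => b / 2) (chi0 l) pi_div2 hJ t vv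
    have hDp := QQ_le muInf (fun _ => b / 2) (chi0 l) pi_div2 hJ t (hh + vv)
    have hDm := QQ_le muInf (fun _ => b / 2) (chi0 l) pi_div2 hJ t (hh + (-1 : ℝ) • vv)
    have bil : ∀ (s h k : BI l → ℝ), QQ muInf (fun _ => b / 2) (chi0 l) s (h + k) (h + k) =
        QQ muInf (fun _ => b / 2) (chi0 l) s h h + 2 * QQ muInf (fun _ => b / 2) (chi0 l) s h k +
          QQ muInf (fun _ => b / 2) (chi0 l) s k k := by
      intro s h k
      rw [QQ_add, QQ_symm muInf _ _ s (h + k) h, QQ_symm muInf _ _ s (h + k) k, QQ_add, QQ_add,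
        QQ_symm muInf _ _ s k h]
      ring
    have bil2 : ∀ s : BI l → ℝ, QQ muInf (fun _ => b / 2) (chi0 l) s (hh + (-1 : ℝ) • vv)
        (hh + (-1 : ℝ) • vv) = QQ muInf (fun _ => b / 2) (chi0 l) s hh hh -
          2 * QQ muInf (fun _ => b / 2) (chi0 l) s hh vv +
          QQ muInf (fun _ => b / 2) (chi0 l) s vv vv := by
      intro s
      rw [bil, QQ_smul2, QQ_smul]
      ring
    rw [bil, bil, Q0_hv] at hDp
    rw [bil2, bil2, Q0_hv] at hDm
    rw [Q0_h l b hl] at hDh0 hDp hDm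
    rw [Q0_v l b hl] at hDv0 hDp hDm
    obtain ⟨Qhh, hQhh⟩ : ∃ q, q = QQ muInf (fun _ => b / 2) (chi0 l) t hh hh := ⟨_, rfl⟩
    obtain ⟨Qvv, hQvv⟩ : ∃ q, q = QQ muInf (fun _ => b / 2) (chi0 l) t vv vv := ⟨_, rfl⟩
    obtain ⟨Qhv, hQhv⟩ : ∃ q, q = QQ muInf (fun _ => b / 2) (chi0 l) t hh vv := ⟨_, rfl⟩
    rw [← hQhh] at hDh0 hDp hDm ⊢
    rw [← hQvv] at hDv0 hDp hDm ⊢
    rw [← hQhv] at hDp hDm
    have hcross : |Qhv| ≤ (((l : ℝ) ^ 2 * stiff l b - Qhh) +
        ((l : ℝ) ^ 2 * stiff l b - Qvv)) / 2 := by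
      rw [abs_le]
      constructor <;> linarith only [hDm, hDp]
    -- the four estimates
    have v1 := CE_Psi (b := b) ht hρ0 hl0 a hh
    have v2 := CE_Psi (b := b) ht hρ0 hl0 a vv
    have v3 := CE_Psi (b := b) ht hτ0 hl0 r hh
    have v4 := CE_Psi (b := b) ht hτ0 hl0 r vv
    have q1 := pCE (32 / ρ) (32 / l) a hh x
    have q2 := pCE (32 / ρ) (32 / l) a vv x
    have q3 := pCE (32 / τ) (32 / l) r hh x
    have q4 := pCE (32 / τ) (32 / l) r vv x
    obtain ⟨V1, hV1⟩ : ∃ V, V = var_CE b l k (Psi b l k (32 / ρ) (32 / l) a hh) x := ⟨_, rfl⟩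
    obtain ⟨V2, hV2⟩ : ∃ V, V = var_CE b l k (Psi b l k (32 / ρ) (32 / l) a vv) x := ⟨_, rfl⟩
    obtain ⟨V3, hV3⟩ : ∃ V, V = var_CE b l k (Psi b l k (32 / τ) (32 / l) r hh) x := ⟨_, rfl⟩
    obtain ⟨V4, hV4⟩ : ∃ V, V = var_CE b l k (Psi b l k (32 / τ) (32 / l) r vv) x := ⟨_, rfl⟩
    have hErx : Er x = K1 * (l * ρ ^ 2) * (V1 + V2) + K2 * (l * τ) * (V3 + V4) := by
      rw [hEr, hV1, hV2, hV3, hV4]
    rw [hErx]
    rw [← hV1] at v1 q1
    rw [← hV2] at v2 q2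
    rw [← hV3] at v3 q3
    rw [← hV4] at v4 q4
    have w1 := (jm_uni muInf (fun _ => b / 2) (chi0 l) hJ (t := t) (a := a) (h := hh) (Y := Y)
      (ρ := ρ) (lam := l) (c := c) hY1 ha abs_hh_le hρ0 hρ1 hlR hc0 hSY2 hSY).trans
      (mul_le_mul_of_nonneg_left v1 (by positivity))
    have w2 := (jm_uni muInf (fun _ => b / 2) (chi0 l) hJ (t := t) (a := a) (h := vv) (Y := Y)
      (ρ := ρ) (lam := l) (c := c) hY1 ha abs_vv_le hρ0 hρ1 hlR hc0 hSY2 hSY).trans
      (mul_le_mul_of_nonneg_left v2 (by positivity))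
    have w3 := (QQ_uni muInf (fun _ => b / 2) (chi0 l) hJ (t := t) (r := r) (h := hh) (R := R)
      (ρ := τ) (lam := l) (c := c) abs_hh_le hr hτ0 hlR hc0 hSR).trans
      (mul_le_mul_of_nonneg_left v3 (by positivity))
    have w4 := (QQ_uni muInf (fun _ => b / 2) (chi0 l) hJ (t := t) (r := r) (h := vv) (R := R)
      (ρ := τ) (lam := l) (c := c) abs_vv_le hr hτ0 hlR hc0 hSR).trans
      (mul_le_mul_of_nonneg_left v4 (by positivity))
    rw [← hK1] at w1 w2
    rw [← hK2] at w3 w4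
    have f1 : QQ muInf (fun _ => b / 2) (chi0 l) t hh a = xi1 * Qhh + (xi2 * Qhv +
        QQ muInf (fun _ => b / 2) (chi0 l) t hh r) := by
      conv_lhs => rw [hdec]
      rw [QQ_add, QQ_add, QQ_smul, QQ_smul, ← hQhh, ← hQhv]
    have f2 : QQ muInf (fun _ => b / 2) (chi0 l) t vv a = xi2 * Qvv + (xi1 * Qhv +
        QQ muInf (fun _ => b / 2) (chi0 l) t vv r) := by
      conv_lhs => rw [hdec]
      rw [QQ_add, QQ_add, QQ_smul, QQ_smul, QQ_symm muInf _ _ t vv hh, ← hQvv, ← hQhv]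
      ring
    have p1 : 0 ≤ K1 * (l * ρ ^ 2) * V1 := by positivity
    have p2 : 0 ≤ K1 * (l * ρ ^ 2) * V2 := by positivity
    have p3 : 0 ≤ K2 * (l * τ) * V3 := by positivity
    have p4 : 0 ≤ K2 * (l * τ) * V4 := by positivity
    have g1 := curr_alg (st := stiff l b) (Qth := Qhh) (Qtv := Qhv)
      (Qtr := QQ muInf (fun _ => b / 2) (chi0 l) t hh r) (L2 := (l : ℝ) ^ 2) hY.le h1 h2
      (Dh := (l : ℝ) ^ 2 * stiff l b - Qhh) (Dv := (l : ℝ) ^ 2 * stiff l b - Qvv) rfl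
      (by linarith only [hDh0]) (by linarith only [hDv0]) hcross
      (R := 1) (CQ := K2 * (l * τ) * V3) (by rw [mul_one]; exact w3) hs1
    have g2 := curr_alg (st := stiff l b) (Qth := Qvv) (Qtv := Qhv)
      (Qtr := QQ muInf (fun _ => b / 2) (chi0 l) t vv r) (L2 := (l : ℝ) ^ 2) hY.le h2 h1
      (Dh := (l : ℝ) ^ 2 * stiff l b - Qvv) (Dv := (l : ℝ) ^ 2 * stiff l b - Qhh) rfl
      (by linarith only [hDv0]) (by linarith only [hDh0]) (by linarith only [hcross])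
      (R := 1) (CQ := K2 * (l * τ) * V4) (by rw [mul_one]; exact w4) hs2
    rw [← f1] at g1
    rw [← f2] at g2
    rcases hh' with rfl | rfl
    · have := abs_add_le (jm muInf (fun _ => b / 2) (chi0 l) (t + a) hh -
        jm muInf (fun _ => b / 2) (chi0 l) t hh - QQ muInf (fun _ => b / 2) (chi0 l) t hh a)
        (QQ muInf (fun _ => b / 2) (chi0 l) t hh a - stiff l b * ∑ e, 1 / 2 * hh e * a e)
      rw [sub_add_sub_cancel] at this
      linarith only [w1, g1, p2, p4, this]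
    · have := abs_add_le (jm muInf (fun _ => b / 2) (chi0 l) (t + a) vv -
        jm muInf (fun _ => b / 2) (chi0 l) t vv - QQ muInf (fun _ => b / 2) (chi0 l) t vv a)
        (QQ muInf (fun _ => b / 2) (chi0 l) t vv a - stiff l b * ∑ e, 1 / 2 * vv e * a e)
      rw [sub_add_sub_cancel] at this
      linarith only [w2, g2, p1, p3, this]

end Vale.Agent.P159.UJ.H664
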