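import Vale.Agent.P159.T1.NC.H664.GU
import Vale.Agent.P159.T1.NC.H831.GProps

/-!
P159, near-critical regime, second version: the energy of the vortex, uniformly in the cell size.
-/

namespace Vale.Agent.P159.UJ.H664

open Vale.Agent.P159.T1.NC.H831

theorem gLowU (B : ℝ) (hB : 0 < B) : GLowU B := by
  obtain ⟨C2, CG, hC2, hCG, hg⟩ := g_U B hB
  refine ⟨B * C2 / 2 + 1, by positivity, fun K M hK hM => ?_⟩
  refine ⟨max 4 ⌈CG * (NN K M : ℝ) ^ 2⌉₊, le_max_left _ _, ?_⟩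
  intro b hb hbB l m hl hm i j hi hj
  refine hg b hb hbB l K M hl hK m i j hi hj ?_
  have h1 : ⌈CG * (NN K M : ℝ) ^ 2⌉₊ ≤ m := (le_max_right _ _).trans hm
  exact (Nat.le_ceil _).trans (by exact_mod_cast h1)

end Vale.Agent.P159.UJ.H664
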