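import Vale.Agent.P159.Bdl.B9

/-!
Polynomial lower bound for the vortex ratio, uniform in the inverse temperature.
-/

set_option linter.all false

open MeasureTheory Filter Topology
open scoped BigOperators

namespace Vale.Agent.P159.UJ.H664

/-! ### sums over a row of half integers -/

/-- distance of the column `i` from the centre of a block of side `s` -/
noncomputable def xd (s i : ℕ) : ℝ := |(i : ℝ) - ctr s|

theorem xd_le {s i : ℕ} (h : i ≤ s / 2) : xd s i = ((s / 2 - i : ℕ) : ℝ) + 1 / 2 := by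
  unfold xd ctr
  rw [Nat.cast_sub h, abs_of_nonpos]
  · ring
  · have : (i : ℝ) ≤ ((s / 2 : ℕ) : ℝ) := by exact_mod_cast h
    linarith only [this]

theorem xd_gt {s i : ℕ} (h : s / 2 < i) : xd s i = ((i - s / 2 - 1 : ℕ) : ℝ) + 1 / 2 := by
  unfold xd ctr
  rw [Nat.sub_sub, Nat.cast_sub (by omega : s / 2 + 1 ≤ i), abs_of_nonneg]
  · push_cast; ring
  · have : ((s / 2 : ℕ) : ℝ) + 1 ≤ (i : ℝ) := by exact_mod_cast h
    linarith only [this]

theorem xd_ge (s i : ℕ) : 1 / 2 ≤ xd s i := by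
  rcases le_or_gt i (s / 2) with h | h
  · rw [xd_le h]
    have : (0 : ℝ) ≤ ((s / 2 - i : ℕ) : ℝ) := Nat.cast_nonneg _
    linarith only [this]
  · rw [xd_gt h]
    have : (0 : ℝ) ≤ ((i - s / 2 - 1 : ℕ) : ℝ) := Nat.cast_nonneg _
    linarith only [this]

theorem sum_xd {s : ℕ} {f : ℝ → ℝ} (hf : ∀ x, 0 ≤ f x) :
    ∑ i ∈ Finset.range (s + 1), f (xd s i) ≤
      2 * ∑ k ∈ Finset.range (s + 1), f ((k : ℝ) + 1 / 2) := by
  classical
  rw [← Finset.sum_filter_add_sum_filter_not (Finset.range (s + 1)) (fun i => i ≤ s / 2)]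
  have h1 : ∑ i ∈ (Finset.range (s + 1)).filter (fun i => i ≤ s / 2), f (xd s i) ≤
      ∑ k ∈ Finset.range (s + 1), f ((k : ℝ) + 1 / 2) := by
    have e1 : ∑ i ∈ (Finset.range (s + 1)).filter (fun i => i ≤ s / 2), f (xd s i) =
        ∑ k ∈ ((Finset.range (s + 1)).filter (fun i => i ≤ s / 2)).image (fun i => s / 2 - i),
          f ((k : ℝ) + 1 / 2) := by
      rw [Finset.sum_image]
      · refine Finset.sum_congr rfl fun i hi => ?_
        rw [xd_le (Finset.mem_filter.1 hi).2]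
      · intro a ha c hc hac
        have h1 := (Finset.mem_filter.1 ha).2
        have h2 := (Finset.mem_filter.1 hc).2
        simp only at hac
        omega
    rw [e1]
    refine Finset.sum_le_sum_of_subset_of_nonneg ?_ fun k _ _ => hf _
    intro k hk
    obtain ⟨i, _, rfl⟩ := Finset.mem_image.1 hk
    rw [Finset.mem_range]
    omega
  have h2 : ∑ i ∈ (Finset.range (s + 1)).filter (fun i => ¬ i ≤ s / 2), f (xd s i) ≤
      ∑ k ∈ Finset.range (s + 1), f ((k : ℝ) + 1 / 2) := by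
    have e1 : ∑ i ∈ (Finset.range (s + 1)).filter (fun i => ¬ i ≤ s / 2), f (xd s i) =
        ∑ k ∈ ((Finset.range (s + 1)).filter (fun i => ¬ i ≤ s / 2)).image
          (fun i => i - s / 2 - 1), f ((k : ℝ) + 1 / 2) := by
      rw [Finset.sum_image]
      · refine Finset.sum_congr rfl fun i hi => ?_
        rw [xd_gt (not_le.1 (Finset.mem_filter.1 hi).2)]
      · intro a ha c hc hac
        have h1 := (Finset.mem_filter.1 ha).2
        have h2 := (Finset.mem_filter.1 hc).2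
        simp only at hac
        omega
    rw [e1]
    refine Finset.sum_le_sum_of_subset_of_nonneg ?_ fun k _ _ => hf _
    intro k hk
    obtain ⟨i, hi, rfl⟩ := Finset.mem_image.1 hk
    have := Finset.mem_range.1 (Finset.mem_filter.1 hi).1
    rw [Finset.mem_range]
    omega
  linarith only [h1, h2]

/-- telescoping -/
theorem sum_sq_half {a : ℝ} (ha : 0 < a) (n : ℕ) :
    ∑ k ∈ Finset.range n, 1 / (a + (k : ℝ) + 1 / 2) ^ 2 ≤ 1 / a - 1 / (a + n) := by
  induction n with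
  | zero => simp
  | succ n ih =>
    rw [Finset.sum_range_succ]
    have h0 : (0 : ℝ) ≤ n := Nat.cast_nonneg n
    have h1 : 1 / (a + (n : ℝ) + 1 / 2) ^ 2 ≤ 1 / (a + n) - 1 / (a + (n + 1 : ℕ)) := by
      push_cast
      rw [div_sub_div _ _ (by positivity) (by positivity), div_le_div_iff₀ (by positivity)
        (by positivity)]
      nlinarith only [ha, h0]
    linarith only [ih, h1]

theorem sum_row {a : ℝ} (ha : 0 < a) (s : ℕ) :
    ∑ j ∈ Finset.range (s + 1), 1 / (a ^ 2 + xd s j ^ 2) ≤ 4 / a := by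
  have h1 := sum_xd (s := s) (f := fun x => 1 / (a ^ 2 + x ^ 2)) (fun x => by positivity)
  have h2 : ∑ k ∈ Finset.range (s + 1), 1 / (a ^ 2 + ((k : ℝ) + 1 / 2) ^ 2) ≤
      2 * ∑ k ∈ Finset.range (s + 1), 1 / (a + (k : ℝ) + 1 / 2) ^ 2 := by
    rw [Finset.mul_sum]
    refine Finset.sum_le_sum fun k _ => ?_
    have h0 : (0 : ℝ) ≤ k := Nat.cast_nonneg k
    rw [mul_one_div, div_le_div_iff₀ (by positivity) (by positivity)]
    nlinarith only [sq_nonneg (a - ((k : ℝ) + 1 / 2))]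
  have h3 := sum_sq_half ha (s + 1)
  have h4 : 0 ≤ 1 / (a + ((s + 1 : ℕ) : ℝ)) := by positivity
  have h5 : 4 / a = 4 * (1 / a) := by ring
  rw [h5]
  linarith only [h1, h2, h3, h4]

theorem sum_inv_xd (s : ℕ) :
    ∑ i ∈ Finset.range (s + 1), 1 / xd s i ≤ 4 * (1 + Real.log (s + 1)) := by
  have h1 := sum_xd (s := s) (f := fun x => |1 / x|) (fun x => abs_nonneg _)
  have e1 : ∀ i, |1 / xd s i| = 1 / xd s i := fun i =>
    abs_of_nonneg (by have := xd_ge s i; positivity)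
  have e2 : ∀ k : ℕ, |1 / ((k : ℝ) + 1 / 2)| ≤ 2 * ((k + 1 : ℕ) : ℝ)⁻¹ := by
    intro k
    have h0 : (0 : ℝ) ≤ k := Nat.cast_nonneg k
    rw [abs_of_nonneg (by positivity)]
    push_cast
    rw [← div_eq_mul_inv, div_le_div_iff₀ (by positivity) (by positivity)]
    linarith only [h0]
  simp only [e1] at h1
  refine h1.trans ?_
  have h2 : ∑ k ∈ Finset.range (s + 1), |1 / ((k : ℝ) + 1 / 2)| ≤
      2 * ∑ k ∈ Finset.range (s + 1), ((k + 1 : ℕ) : ℝ)⁻¹ := by
    rw [Finset.mul_sum]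
    exact Finset.sum_le_sum fun k _ => e2 k
  have h3 := harmonic_le_one_add_log (s + 1)
  have h4 : ((harmonic (s + 1) : ℚ) : ℝ) = ∑ k ∈ Finset.range (s + 1), ((k + 1 : ℕ) : ℝ)⁻¹ := by
    unfold harmonic
    push_cast
    rfl
  rw [h4] at h3
  push_cast at h2 h3 ⊢
  linarith only [h2, h3]

theorem sum_two (s : ℕ) : ∑ i ∈ Finset.range (s + 1), ∑ j ∈ Finset.range (s + 1),
    1 / (xd s i ^ 2 + xd s j ^ 2) ≤ 16 * (1 + Real.log (s + 1)) := by
  have h1 : ∀ i ∈ Finset.range (s + 1), ∑ j ∈ Finset.range (s + 1),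
      1 / (xd s i ^ 2 + xd s j ^ 2) ≤ 4 * (1 / xd s i) := by
    intro i _
    have := sum_row (a := xd s i) (by have := xd_ge s i; linarith only [this]) s
    have e : 4 / xd s i = 4 * (1 / xd s i) := by ring
    rw [← e]
    exact this
  have h2 := Finset.sum_le_sum h1
  rw [← Finset.mul_sum] at h2
  have h3 := sum_inv_xd s
  linarith only [h2, h3]

/-! ### the increments of the angle -/

theorem wf_zero (s : ℕ) (z : ℤ × ℤ) : wf s 0 z = zc z - cc s := by
  unfold wf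
  rw [mul_zero, sub_zero]

theorem wf_sq (s : ℕ) (z : ℤ × ℤ) :
    ‖wf s 0 z‖ ^ 2 = ((z.1 : ℝ) - ctr s) ^ 2 + ((z.2 : ℝ) - ctr s) ^ 2 := by
  rw [wf_zero, ← Complex.normSq_eq_norm_sq, Complex.normSq_apply]
  unfold zc cc
  simp only [Complex.sub_re, Complex.sub_im]
  ring

theorem half_sq (s : ℕ) (x : ℤ) : 1 / 4 ≤ ((x : ℝ) - ctr s) ^ 2 := by
  unfold ctr
  obtain ⟨q, hq⟩ : ∃ q : ℕ, q = s / 2 := ⟨_, rfl⟩
  rw [← hq]
  have h : (x : ℝ) - ((q : ℝ) + 1 / 2) = ((2 * (x - (q : ℤ)) - 1 : ℤ) : ℝ) / 2 := by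
    push_cast
    ring
  rw [h]
  have h1 : (1 : ℝ) ≤ ((2 * (x - (q : ℤ)) - 1 : ℤ) : ℝ) ^ 2 := by
    have h2 : (1 : ℤ) ≤ (2 * (x - (q : ℤ)) - 1) ^ 2 := by
      have h3 : (2 * (x - (q : ℤ)) - 1) ≠ 0 := by omega
      have h4 : 0 < (2 * (x - (q : ℤ)) - 1) ^ 2 := by positivity
      omega
    exact_mod_cast h2
  nlinarith only [h1]

theorem wf_ne0 (s : ℕ) (z : ℤ × ℤ) : wf s 0 z ≠ 0 := by
  intro h
  have h1 := wf_sq s z
  rw [h, norm_zero] at h1
  have h2 := half_sq s z.1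
  have h3 := sq_nonneg ((z.2 : ℝ) - ctr s)
  nlinarith only [h1, h2, h3]

theorem inc_sq_le {s : ℕ} {u v : ℤ × ℤ} (h : ‖wf s 0 u - wf s 0 v‖ = 1) :
    inc s 0 u v ^ 2 ≤ 40 / ‖wf s 0 v‖ ^ 2 := by
  have hv := norm_pos_iff.2 (wf_ne0 s v)
  obtain ⟨r, hr⟩ : ∃ r, r = ‖wf s 0 v‖ := ⟨_, rfl⟩
  rw [← hr] at hv ⊢
  unfold inc
  rcases le_or_gt 2 r with h2 | h2
  · obtain ⟨ζ, hζ⟩ : ∃ ζ, ζ = (wf s 0 u - wf s 0 v) / wf s 0 v := ⟨_, rfl⟩
    have e1 : wf s 0 u / wf s 0 v = 1 + ζ := by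
      rw [hζ, sub_div, div_self (wf_ne0 s v)]
      ring
    have e2 : ‖ζ‖ = 1 / r := by rw [hζ, norm_div, h, ← hr]
    have e3 : ‖ζ‖ ≤ 1 / 2 := by
      rw [e2]
      exact one_div_le_one_div_of_le (by norm_num) h2
    have h3 := arg_near' e3
    rw [e2] at h3
    rw [e1]
    have h4 : Complex.arg (1 + ζ) ^ 2 ≤ (3 * (1 / r)) ^ 2 := by
      rw [← sq_abs]
      exact pow_le_pow_left₀ (abs_nonneg _) h3 2
    have h5 : (3 * (1 / r)) ^ 2 = 9 / r ^ 2 := by ring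
    rw [h5] at h4
    refine h4.trans ?_
    exact div_le_div_of_nonneg_right (by norm_num) (by positivity)
  · have h3 : Complex.arg (wf s 0 u / wf s 0 v) ^ 2 ≤ 10 := by
      have h4 := Complex.abs_arg_le_pi (wf s 0 u / wf s 0 v)
      have h5 := Real.pi_lt_d2
      rw [← sq_abs]
      have h6 := abs_nonneg (Complex.arg (wf s 0 u / wf s 0 v))
      nlinarith only [h4, h5, h6]
    refine h3.trans ?_
    rw [le_div_iff₀ (by positivity)]
    nlinarith only [h2, hv]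

theorem zc_sub_norm {u v : ℤ × ℤ} (s : ℕ) (h : (u.1 = v.1 ∧ v.2 = u.2 + 1) ∨
    (v.1 = u.1 + 1 ∧ u.2 = v.2)) : ‖wf s 0 u - wf s 0 v‖ = 1 := by
  have h1 : ‖wf s 0 u - wf s 0 v‖ ^ 2 = 1 := by
    rw [wf_zero, wf_zero, ← Complex.normSq_eq_norm_sq, Complex.normSq_apply]
    unfold zc
    simp only [Complex.sub_re, Complex.sub_im]
    rcases h with ⟨h1, h2⟩ | ⟨h1, h2⟩
    · rw [h1, h2]; push_cast; ring
    · rw [h1, h2]; push_cast; ring
  have h2 := norm_nonneg (wf s 0 u - wf s 0 v)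
  nlinarith only [h1, h2]

/-- term of a bond, in terms of the half integers -/
theorem term_le {s : ℕ} (u v : ℤ × ℤ) (a c : ℕ) (hv : v = ((a : ℤ), (c : ℤ)))
    (h : (u.1 = v.1 ∧ v.2 = u.2 + 1) ∨ (v.1 = u.1 + 1 ∧ u.2 = v.2)) :
    inc s 0 u v ^ 2 ≤ 40 * (1 / (xd s a ^ 2 + xd s c ^ 2)) := by
  refine (inc_sq_le (zc_sub_norm s h)).trans (le_of_eq ?_)
  rw [wf_sq, hv]
  unfold xd
  rw [sq_abs, sq_abs, mul_one_div]
  simp

theorem energy_le (s : ℕ) : ∑ e : BI s, inc s 0 (bu e) (bv e) ^ 2 ≤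
    2560 * (1 + Real.log (s + 1)) := by
  rw [sum_BI]
  have hG : ∀ i j : ℕ, 0 ≤ 40 * (1 / (xd s i ^ 2 + xd s j ^ 2)) := fun i j => by
    have := xd_ge s i
    positivity
  have key : ∀ i j : Fin s,
      inc s 0 (bu (((i, j), (false, false)) : BI s)) (bv (((i, j), (false, false)) : BI s)) ^ 2 +
      inc s 0 (bu (((i, j), (false, true)) : BI s)) (bv (((i, j), (false, true)) : BI s)) ^ 2 +
      inc s 0 (bu (((i, j), (true, false)) : BI s)) (bv (((i, j), (true, false)) : BI s)) ^ 2 +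
      inc s 0 (bu (((i, j), (true, true)) : BI s)) (bv (((i, j), (true, true)) : BI s)) ^ 2 ≤
      40 * (1 / (xd s ((i : ℕ) + 1) ^ 2 + xd s (j : ℕ) ^ 2)) +
      40 * (1 / (xd s ((i : ℕ) + 1) ^ 2 + xd s ((j : ℕ) + 1) ^ 2)) +
      40 * (1 / (xd s (i : ℕ) ^ 2 + xd s ((j : ℕ) + 1) ^ 2)) +
      40 * (1 / (xd s ((i : ℕ) + 1) ^ 2 + xd s ((j : ℕ) + 1) ^ 2)) := by
    intro i j
    refine add_le_add (add_le_add (add_le_add ?_ ?_) ?_) ?_
    · exact term_le _ _ ((i : ℕ) + 1) (j : ℕ) (by simp [bu, bv]) (Or.inr (by simp [bu, bv]))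
    · exact term_le _ _ ((i : ℕ) + 1) ((j : ℕ) + 1) (by simp [bu, bv]) (Or.inr (by simp [bu, bv]))
    · exact term_le _ _ (i : ℕ) ((j : ℕ) + 1) (by simp [bu, bv]) (Or.inl (by simp [bu, bv]))
    · exact term_le _ _ ((i : ℕ) + 1) ((j : ℕ) + 1) (by simp [bu, bv]) (Or.inl (by simp [bu, bv]))
  refine (Finset.sum_le_sum fun i _ => Finset.sum_le_sum fun j _ => key i j).trans ?_
  have shift : ∀ (a c : ℕ), a ≤ 1 → c ≤ 1 → ∑ i : Fin s, ∑ j : Fin s,
      40 * (1 / (xd s ((i : ℕ) + a) ^ 2 + xd s ((j : ℕ) + c) ^ 2)) ≤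
      40 * (16 * (1 + Real.log (s + 1))) := by
    intro a c ha hc
    have h1 := sum_two s
    have h2 : ∀ (G : ℕ → ℝ) (a : ℕ), (∀ n, 0 ≤ G n) → a ≤ 1 → ∑ i : Fin s, G ((i : ℕ) + a) ≤
        ∑ i ∈ Finset.range (s + 1), G i := by
      intro G a hG ha
      rw [Finset.sum_range (fun i => G i)] at *
      rcases Nat.le_one_iff_eq_zero_or_eq_one.1 ha with rfl | rfl
      · rw [Fin.sum_univ_castSucc]
        simp only [add_zero, Fin.val_castSucc, Fin.val_last]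
        linarith only [hG s]
      · rw [Fin.sum_univ_succ]
        simp only [Fin.val_succ, Fin.val_zero]
        linarith only [hG 0]
    have h3 : ∑ i : Fin s, ∑ j : Fin s,
        40 * (1 / (xd s ((i : ℕ) + a) ^ 2 + xd s ((j : ℕ) + c) ^ 2)) ≤
        ∑ i ∈ Finset.range (s + 1), ∑ j ∈ Finset.range (s + 1),
          40 * (1 / (xd s i ^ 2 + xd s j ^ 2)) := by
      refine le_trans (Finset.sum_le_sum fun i _ => h2 (fun n =>
        40 * (1 / (xd s ((i : ℕ) + a) ^ 2 + xd s n ^ 2))) c (fun n => hG _ _) hc) ?_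
      exact h2 (fun m => ∑ j ∈ Finset.range (s + 1), 40 * (1 / (xd s m ^ 2 + xd s j ^ 2))) a
        (fun n => Finset.sum_nonneg fun j _ => hG _ _) ha
    refine h3.trans ?_
    simp only [← Finset.mul_sum]
    linarith only [h1]
  have a1 := shift 1 0 le_rfl (by norm_num)
  have a2 := shift 1 1 le_rfl le_rfl
  have a3 := shift 0 1 (by norm_num) le_rfl
  simp only [add_zero] at a1 a3
  simp only [Finset.sum_add_distrib]
  linarith only [a1, a2, a3]

/-! ### the vortex ratio -/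

theorem QQ_le_energy {b : ℝ} (hb : 0 ≤ b) (s : ℕ) (t : BI s → ℝ) :
    QQ muInf (fun _ => b / 2) (chi0 s) 0 t t ≤ b / 2 * ∑ e, t e ^ 2 := by
  unfold QQ
  rw [jm_zero, mul_zero, add_zero]
  have h1 : 0 ≤ ex muInf (fun _ => b / 2) (chi0 s) 0
      (fun x => Jt (fun _ => b / 2) (chi0 s) 0 t x * Jt (fun _ => b / 2) (chi0 s) 0 t x) := by
    have := ex_mono muInf (fun _ => b / 2) (chi0 s) (t := 0) (f := fun _ => (0 : ℝ))
      (g := fun x => Jt (fun _ => b / 2) (chi0 s) 0 t x * Jt (fun _ => b / 2) (chi0 s) 0 t x)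
      continuous_const ((cont_Jt _ _ _ _).mul (cont_Jt _ _ _ _)) (fun x => mul_self_nonneg _)
    rwa [ex_const] at this
  have h2 : ex muInf (fun _ => b / 2) (chi0 s) 0 (Bt (fun _ => b / 2) (chi0 s) 0 t t) ≤
      b / 2 * ∑ e, t e ^ 2 := by
    have := ex_mono muInf (fun _ => b / 2) (chi0 s) (t := 0)
      (f := Bt (fun _ => b / 2) (chi0 s) 0 t t) (g := fun _ => b / 2 * ∑ e, t e ^ 2)
      (cont_Bt _ _ _ _ _) continuous_const (fun x => by
        unfold Bt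
        rw [Finset.mul_sum]
        refine Finset.sum_le_sum fun e _ => ?_
        have h3 := (abs_le.1 (abs_Ct (chi0 s) 0 e x)).2
        have h4 : 0 ≤ b / 2 * (t e * t e) := mul_nonneg (by positivity) (mul_self_nonneg _)
        calc b / 2 * (t e * t e) * Ct (chi0 s) 0 e x ≤ b / 2 * (t e * t e) * 1 :=
              mul_le_mul_of_nonneg_left h3 h4
          _ = _ := by ring)
    rwa [ex_const] at this
  linarith only [h1, h2]

theorem yy_ge {b : ℝ} (hb : 0 ≤ b) (s : ℕ) :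
    Real.exp (-(640 * b * (1 + Real.log (s + 1)))) ≤ yy b s := by
  have ht : ∀ e : BI s, ((inc s 0 (bu e) (bv e) : ℝ) : T) =
      ang s 0 ((0 : ℤ × ℤ) + bu e) - ang s 0 ((0 : ℤ × ℤ) + bv e) := by
    intro e
    rw [zero_add, zero_add]
    unfold inc ang
    exact Complex.arg_div_coe_angle (wf_ne0 s _) (wf_ne0 s _)
  have h0 : ∀ e : BI s, (((0 : BI s → ℝ) e : ℝ) : T) = (0 : Ginf) ((0 : ℤ × ℤ) + bu e) -
      (0 : Ginf) ((0 : ℤ × ℤ) + bv e) := by
    intro e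
    simp
  unfold yy
  rw [WB_eq ht, WB_eq h0]
  refine le_trans ?_ (lowerZ muInf (fun _ => b / 2) (chi0 s) pi_div2 (fun _ => by positivity) _)
  rw [Real.exp_le_exp]
  have h1 := QQ_le_energy hb s (fun e => inc s 0 (bu e) (bv e))
  have h2 := mul_le_mul_of_nonneg_left (energy_le s) (by positivity : 0 ≤ b / 2)
  linarith only [h1, h2]

/-- polynomial lower bound for the vortex ratio -/
theorem yy_low (B : ℝ) (hB : 0 < B) : ∃ (c : ℝ) (p : ℕ), 0 < c ∧ ∀ b : ℝ, 0 < b → b ≤ B →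
    ∀ s : ℕ, 1 ≤ s → c / (s : ℝ) ^ p ≤ yy b s := by
  obtain ⟨p, hp⟩ := exists_nat_ge (640 * B)
  refine ⟨Real.exp (-(640 * B * (1 + Real.log 2))), p, Real.exp_pos _, ?_⟩
  intro b hb hbB s hs
  refine le_trans ?_ (yy_ge hb.le s)
  have hsR : (1 : ℝ) ≤ s := by exact_mod_cast hs
  have hs0 : (0 : ℝ) < s := by linarith only [hsR]
  have hlog : 0 ≤ Real.log s := Real.log_nonneg hsR
  have hlog2 : 0 ≤ Real.log 2 := Real.log_nonneg (by norm_num)
  have e1 : (s : ℝ) ^ p = Real.exp (p * Real.log s) := by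
    rw [mul_comm, Real.exp_mul, Real.exp_log hs0]
    norm_cast
  rw [e1, ← Real.exp_sub, Real.exp_le_exp]
  have h1 : Real.log ((s : ℝ) + 1) ≤ Real.log 2 + Real.log s := by
    rw [← Real.log_mul (by norm_num) hs0.ne']
    exact Real.log_le_log (by linarith only [hs0]) (by linarith only [hsR])
  have h2 : 640 * b * (1 + Real.log ((s : ℝ) + 1)) ≤ 640 * B * (1 + (Real.log 2 + Real.log s)) := by
    refine mul_le_mul (by linarith only [hbB]) (by linarith only [h1]) ?_ (by positivity)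
    have : 0 ≤ Real.log ((s : ℝ) + 1) := Real.log_nonneg (by linarith only [hsR])
    linarith only [this]
  have h3 : 640 * B * Real.log s ≤ p * Real.log s := mul_le_mul_of_nonneg_right hp hlog
  linarith only [h2, h3]

end Vale.Agent.P159.UJ.H664
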