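import Vale.Agent.P159.Bdl.B9

/-!
The estimates of one cell (Bdl.B5, Bdl.B7) with explicit constants.
-/

set_option linter.all false

open MeasureTheory Filter Topology
open scoped BigOperators

namespace Vale.Agent.P159.UJ.H664



/-- total coupling of the bonds of a cell -/
noncomputable def Sb (b : ℝ) (l : ℕ) : ℝ := ∑ _e : BI l, b / 2

/-- constant of the expansion of the current of a cell -/
noncomputable def cC (b : ℝ) (l : ℕ) : ℝ := K4 (Sb b l) + (Sb b l + 2 * Sb b l ^ 2)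

/-- admissible size of the increments -/
noncomputable def cY (b : ℝ) (l : ℕ) : ℝ := 1 / (2 + 6 * Sb b l + 2 * c4 (Sb b l))

/-- the expansion of the current of a cell with constants `C`, `Y0` -/
def CellP (b : ℝ) (l : ℕ) (C Y0 : ℝ) : Prop :=
    ∀ (c : ℤ × ℤ) (x α : Ginf) (a : BI l → ℝ) (Y R : ℝ), 0 ≤ Y → Y ≤ Y0 → 0 ≤ R →
      (∀ e, ((a e : ℝ) : T) = α (c + bu e) - α (c + bv e)) → (∀ e, |a e| ≤ Y) →
      (∀ e e', hh e = hh e' → |a e - a e'| ≤ R) →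
      |jc b l c hh (x + α) - jc b l c hh x - stiff l b * ∑ e, 1 / 2 * hh e * a e| ≤
        2 * Y * (((l : ℝ) ^ 2 * stiff l b - qc b l c hh x) +
          ((l : ℝ) ^ 2 * stiff l b - qc b l c vv x)) + C * (R + Y ^ 2) ∧
      |jc b l c vv (x + α) - jc b l c vv x - stiff l b * ∑ e, 1 / 2 * vv e * a e| ≤
        2 * Y * (((l : ℝ) ^ 2 * stiff l b - qc b l c hh x) +
          ((l : ℝ) ^ 2 * stiff l b - qc b l c vv x)) + C * (R + Y ^ 2)

theorem cell_q {b : ℝ} (hb : 0 < b) {l : ℕ} (hl : 1 ≤ l) : CellP b l (cC b l) (cY b l) := by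
  have hJ : ∀ _ : BI l, 0 ≤ b / 2 := fun _ => by positivity
  obtain ⟨S, hS⟩ : ∃ S, S = ∑ _e : BI l, b / 2 := ⟨_, rfl⟩
  have hS0 : 0 ≤ S := by rw [hS]; exact Finset.sum_nonneg fun e _ => hJ e
  have hc4 : 0 ≤ c4 S := by unfold c4; positivity
  have hK4 : 0 ≤ K4 S := by unfold K4; positivity
  intro c x α a Y R hY hYY hR haα ha hRa
  have eC : cC b l = K4 S + (S + 2 * S ^ 2) := by rw [cC, Sb, ← hS]
  have eY : cY b l = 1 / (2 + 6 * S + 2 * c4 S) := by rw [cY, Sb, ← hS]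
  rw [eC]
  rw [eY] at hYY
  rw [le_div_iff₀ (by positivity)] at hYY
  have n1 := mul_nonneg hY hS0
  have n2 := mul_nonneg hY hc4
  have hY1 : Y ≤ 1 := by nlinarith only [hYY, n1, n2]
  have hSY : 6 * S * Y ≤ 1 := by nlinarith only [hY, hYY, n2]
  have hsm : S * Y + c4 S * Y ^ 2 ≤ 1 / 2 := by
    have : Y ^ 2 ≤ Y := by nlinarith only [hS0, hc4, hY, hYY]
    nlinarith only [hYY, n1, this, mul_le_mul_of_nonneg_left this hc4]
  obtain ⟨t, ht⟩ := rep_exists (l := l) c x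
  have hta : ∀ e, (((t + a) e : ℝ) : T) = (x + α) (c + bu e) - (x + α) (c + bv e) := by
    intro e
    rw [Pi.add_apply, AddCircle.coe_add, ht, haα, Pi.add_apply, Pi.add_apply]
    abel
  rw [jc_eq hta, jc_eq ht, jc_eq hta, jc_eq ht, qc_eq ht, qc_eq ht]
  have x1 := jm_expand muInf (fun _ => b / 2) (chi0 l) hJ (t := t) (a := a) (h := hh) hY hY1
    (by rw [← hS]; exact hSY) (by rw [← hS]; exact hsm) ha abs_hh_le
  have x2 := jm_expand muInf (fun _ => b / 2) (chi0 l) hJ (t := t) (a := a) (h := vv) hY hY1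
    (by rw [← hS]; exact hSY) (by rw [← hS]; exact hsm) ha abs_vv_le
  rw [← hS] at x1 x2
  obtain ⟨xi1, xi2, r, hdec, h1, h2, hr, hs1, hs2, -⟩ := decomp hl ha hRa
  -- the defects
  have hDh0 := QQ_le muInf (fun _ => b / 2) (chi0 l) pi_div2 hJ t hh
  have hDv0 := QQ_le muInf (fun _ => b / 2) (chi0 l) pi_div2 hJ t vv
  have hDp := QQ_le muInf (fun _ => b / 2) (chi0 l) pi_div2 hJ t (hh + vv)
  have hDm := QQ_le muInf (fun _ => b / 2) (chi0 l) pi_div2 hJ t (hh + (-1 : ℝ) • vv)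
  have bil : ∀ (s h k : BI l → ℝ), QQ muInf (fun _ => b / 2) (chi0 l) s (h + k) (h + k) =
      QQ muInf (fun _ => b / 2) (chi0 l) s h h + 2 * QQ muInf (fun _ => b / 2) (chi0 l) s h k +
        QQ muInf (fun _ => b / 2) (chi0 l) s k k := by
    intro s h k
    rw [QQ_add, QQ_symm muInf _ _ s (h + k) h, QQ_symm muInf _ _ s (h + k) k, QQ_add, QQ_add,
      QQ_symm muInf _ _ s k h]
    ring
  have bil2 : ∀ s : BI l → ℝ, QQ muInf (fun _ => b / 2) (chi0 l) s (hh + (-1 : ℝ) • vv)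
      (hh + (-1 : ℝ) • vv) = QQ muInf (fun _ => b / 2) (chi0 l) s hh hh -
        2 * QQ muInf (fun _ => b / 2) (chi0 l) s hh vv +
        QQ muInf (fun _ => b / 2) (chi0 l) s vv vv := by
    intro s
    rw [bil, QQ_smul2, QQ_smul]
    ring
  rw [bil, bil, Q0_hv] at hDp
  rw [bil2, bil2, Q0_hv] at hDm
  rw [Q0_h l b hl] at hDh0 hDp hDm
  rw [Q0_v l b hl] at hDv0 hDp hDm
  obtain ⟨Qhh, hQhh⟩ : ∃ q, q = QQ muInf (fun _ => b / 2) (chi0 l) t hh hh := ⟨_, rfl⟩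
  obtain ⟨Qvv, hQvv⟩ : ∃ q, q = QQ muInf (fun _ => b / 2) (chi0 l) t vv vv := ⟨_, rfl⟩
  obtain ⟨Qhv, hQhv⟩ : ∃ q, q = QQ muInf (fun _ => b / 2) (chi0 l) t hh vv := ⟨_, rfl⟩
  rw [← hQhh] at hDh0 hDp hDm ⊢
  rw [← hQvv] at hDv0 hDp hDm ⊢
  rw [← hQhv] at hDp hDm
  have hcross : |Qhv| ≤ (((l : ℝ) ^ 2 * stiff l b - Qhh) +
      ((l : ℝ) ^ 2 * stiff l b - Qvv)) / 2 := by
    rw [abs_le]
    constructor <;> linarith only [hDm, hDp]
  have r1 : |QQ muInf (fun _ => b / 2) (chi0 l) t hh r| ≤ (S + 2 * S ^ 2) * R := by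
    have := abs_QQ_le muInf (fun _ => b / 2) (chi0 l) hJ (t := t) (a := hh) (a' := r) (Y := 1)
      (Y' := R) abs_hh_le hr zero_le_one
    rw [← hS, one_mul] at this
    exact this
  have r2 : |QQ muInf (fun _ => b / 2) (chi0 l) t vv r| ≤ (S + 2 * S ^ 2) * R := by
    have := abs_QQ_le muInf (fun _ => b / 2) (chi0 l) hJ (t := t) (a := vv) (a' := r) (Y := 1)
      (Y' := R) abs_vv_le hr zero_le_one
    rw [← hS, one_mul] at this
    exact this
  have f1 : QQ muInf (fun _ => b / 2) (chi0 l) t hh a = xi1 * Qhh + (xi2 * Qhv +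
      QQ muInf (fun _ => b / 2) (chi0 l) t hh r) := by
    conv_lhs => rw [hdec]
    rw [QQ_add, QQ_add, QQ_smul, QQ_smul, ← hQhh, ← hQhv]
  have f2 : QQ muInf (fun _ => b / 2) (chi0 l) t vv a = xi2 * Qvv + (xi1 * Qhv +
      QQ muInf (fun _ => b / 2) (chi0 l) t vv r) := by
    conv_lhs => rw [hdec]
    rw [QQ_add, QQ_add, QQ_smul, QQ_smul, QQ_symm muInf _ _ t vv hh, ← hQvv, ← hQhv]
    ring
  have g1 := curr_alg (st := stiff l b) (Qth := Qhh) (Qtv := Qhv)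
    (Qtr := QQ muInf (fun _ => b / 2) (chi0 l) t hh r) (L2 := (l : ℝ) ^ 2) hY h1 h2
    (Dh := (l : ℝ) ^ 2 * stiff l b - Qhh) (Dv := (l : ℝ) ^ 2 * stiff l b - Qvv) rfl
    (by linarith only [hDh0]) (by linarith only [hDv0]) hcross r1 hs1
  have g2 := curr_alg (st := stiff l b) (Qth := Qvv) (Qtv := Qhv)
    (Qtr := QQ muInf (fun _ => b / 2) (chi0 l) t vv r) (L2 := (l : ℝ) ^ 2) hY h2 h1
    (Dh := (l : ℝ) ^ 2 * stiff l b - Qvv) (Dv := (l : ℝ) ^ 2 * stiff l b - Qhh) rfl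
    (by linarith only [hDv0]) (by linarith only [hDh0]) (by linarith only [hcross]) r2 hs2
  rw [← f1] at g1
  rw [← f2] at g2
  have hX : 0 ≤ K4 S * R := mul_nonneg hK4 hR
  have hX' : 0 ≤ (S + 2 * S ^ 2) * Y ^ 2 := by positivity
  have hXX : (K4 S + (S + 2 * S ^ 2)) * (R + Y ^ 2) = K4 S * R + K4 S * Y ^ 2 +
      (S + 2 * S ^ 2) * R + (S + 2 * S ^ 2) * Y ^ 2 := by ring
  rw [hXX]
  constructor
  · have := abs_add_le (jm muInf (fun _ => b / 2) (chi0 l) (t + a) hh -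
      jm muInf (fun _ => b / 2) (chi0 l) t hh - QQ muInf (fun _ => b / 2) (chi0 l) t hh a)
      (QQ muInf (fun _ => b / 2) (chi0 l) t hh a - stiff l b * ∑ e, 1 / 2 * hh e * a e)
    rw [sub_add_sub_cancel] at this
    linarith only [x1, g1, hX, hX', this]
  · have := abs_add_le (jm muInf (fun _ => b / 2) (chi0 l) (t + a) vv -
      jm muInf (fun _ => b / 2) (chi0 l) t vv - QQ muInf (fun _ => b / 2) (chi0 l) t vv a)
      (QQ muInf (fun _ => b / 2) (chi0 l) t vv a - stiff l b * ∑ e, 1 / 2 * vv e * a e)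
    rw [sub_add_sub_cancel] at this
    linarith only [x2, g2, hX, hX', this]

theorem weight_q {b : ℝ} (hb : 0 < b) {l : ℕ} (hl : 1 ≤ l) :
    ∀ (c : ℤ × ℤ) (α : Ginf) (a : BI l → ℝ) (Y R : ℝ), 0 ≤ Y → 0 ≤ R →
      (∀ e, ((a e : ℝ) : T) = α (c + bu e) - α (c + bv e)) → (∀ e, |a e| ≤ Y) →
      (∀ e e', hh e = hh e' → |a e - a e'| ≤ R) →
      Real.exp (-(stiff l b / 4 * ∑ e, a e ^ 2) - 2 * (Sb b l + 2 * Sb b l ^ 2) *
        (Y * R + R ^ 2)) ≤ WB b l c α / WB b l c 0 := by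
  have hJ : ∀ _ : BI l, 0 ≤ b / 2 := fun _ => by positivity
  obtain ⟨S, hS⟩ : ∃ S, S = ∑ _e : BI l, b / 2 := ⟨_, rfl⟩
  have hS0 : 0 ≤ S := by rw [hS]; exact Finset.sum_nonneg fun e _ => hJ e
  intro c α a Y R hY hR haα ha hRa
  rw [show Sb b l = S by rw [Sb, ← hS]]
  have h0 : ∀ e : BI l, (((0 : BI l → ℝ) e : ℝ) : T) = (0 : Ginf) (c + bu e) -
      (0 : Ginf) (c + bv e) := by
    intro e
    simp
  rw [WB_eq haα, WB_eq h0]
  refine le_trans ?_ (lowerZ muInf (fun _ => b / 2) (chi0 l) pi_div2 hJ a)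
  rw [Real.exp_le_exp]
  obtain ⟨xi1, xi2, r, hdec, h1, h2, hr, hs1, hs2, hsq⟩ := decomp hl ha hRa
  have hst := stiff_nonneg' hb.le hl
  have r1 : |QQ muInf (fun _ => b / 2) (chi0 l) 0 hh r| ≤ (S + 2 * S ^ 2) * R := by
    have := abs_QQ_le muInf (fun _ => b / 2) (chi0 l) hJ (t := 0) (a := hh) (a' := r) (Y := 1)
      (Y' := R) abs_hh_le hr zero_le_one
    rw [← hS, one_mul] at this
    exact this
  have r2 : |QQ muInf (fun _ => b / 2) (chi0 l) 0 vv r| ≤ (S + 2 * S ^ 2) * R := by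
    have := abs_QQ_le muInf (fun _ => b / 2) (chi0 l) hJ (t := 0) (a := vv) (a' := r) (Y := 1)
      (Y' := R) abs_vv_le hr zero_le_one
    rw [← hS, one_mul] at this
    exact this
  have r3 : |QQ muInf (fun _ => b / 2) (chi0 l) 0 r r| ≤ (S + 2 * S ^ 2) * (R * R) := by
    have := abs_QQ_le muInf (fun _ => b / 2) (chi0 l) hJ (t := 0) (a := r) (a' := r) (Y := R)
      (Y' := R) hr hr hR
    rw [← hS] at this
    exact this
  have bil : ∀ (h k : BI l → ℝ), QQ muInf (fun _ => b / 2) (chi0 l) 0 (h + k) (h + k) =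
      QQ muInf (fun _ => b / 2) (chi0 l) 0 h h + 2 * QQ muInf (fun _ => b / 2) (chi0 l) 0 h k +
        QQ muInf (fun _ => b / 2) (chi0 l) 0 k k := by
    intro h k
    rw [QQ_add, QQ_symm muInf _ _ 0 (h + k) h, QQ_symm muInf _ _ 0 (h + k) k, QQ_add, QQ_add,
      QQ_symm muInf _ _ 0 k h]
    ring
  have hQ : QQ muInf (fun _ => b / 2) (chi0 l) 0 a a = (l : ℝ) ^ 2 * stiff l b *
      (xi1 ^ 2 + xi2 ^ 2) + 2 * xi1 * QQ muInf (fun _ => b / 2) (chi0 l) 0 hh r +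
      2 * xi2 * QQ muInf (fun _ => b / 2) (chi0 l) 0 vv r +
      QQ muInf (fun _ => b / 2) (chi0 l) 0 r r := by
    conv_lhs => rw [hdec]
    rw [bil, bil, QQ_smul2, QQ_smul2, QQ_add, QQ_smul, QQ_symm muInf _ _ 0 (xi1 • hh) vv,
      QQ_smul, QQ_symm muInf _ _ 0 (xi1 • hh) r, QQ_smul, QQ_symm muInf _ _ 0 (xi2 • vv) r,
      QQ_smul, QQ_symm muInf _ _ 0 vv hh, Q0_hv, Q0_h l b hl, Q0_v l b hl,
      QQ_symm muInf _ _ 0 r hh, QQ_symm muInf _ _ 0 r vv]
    ring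
  rw [hQ]
  have t1 : xi1 * QQ muInf (fun _ => b / 2) (chi0 l) 0 hh r ≤ Y * ((S + 2 * S ^ 2) * R) := by
    refine (le_abs_self _).trans ?_
    rw [abs_mul]
    exact mul_le_mul h1 r1 (abs_nonneg _) hY
  have t2 : xi2 * QQ muInf (fun _ => b / 2) (chi0 l) 0 vv r ≤ Y * ((S + 2 * S ^ 2) * R) := by
    refine (le_abs_self _).trans ?_
    rw [abs_mul]
    exact mul_le_mul h2 r2 (abs_nonneg _) hY
  have t3 := (le_abs_self _).trans r3
  have t4 := mul_le_mul_of_nonneg_left hsq hst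
  have t5 : 0 ≤ (S + 2 * S ^ 2) * (R * R) := by positivity
  nlinarith only [t1, t2, t3, t4, t5]

theorem tail_q {b : ℝ} (hb : 0 < b) {l : ℕ} (hl : 1 ≤ l) {C Y0 : ℝ} (hC : 0 ≤ C) (hY0 : 0 < Y0)
    (hcell : CellP b l C Y0) :
    ∀ (n : ℕ), 1 ≤ n → ∀ (S : Finset (ℤ × ℤ)), S ⊆ cells n → ∀ (α : Ginf)
      (a : ℤ × ℤ → BI l → ℝ) (Y R : ℝ), 0 ≤ Y → Y ≤ Y0 → 0 ≤ R →
      (∀ k ∈ cells n \ S, ∀ e, ((a k e : ℝ) : T) = α (cor l k + bu e) - α (cor l k + bv e)) →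
      (∀ k ∈ cells n \ S, ∀ e, |a k e| ≤ Y) →
      (∀ k ∈ cells n \ S, ∀ e e', hh e = hh e' → |a k e - a k e'| ≤ R) →
      ∀ (h : BI l → ℝ), (h = hh ∨ h = vv) → ∀ d r : ℝ, 0 < d → 0 ≤ r →
      Ev b (l * n) 0 (fun x => psi d (∑ k ∈ cells n \ S, jc b l (cor l k) h (x + α) -
        stiff l b * ∑ k ∈ cells n \ S, ∑ e, 1 / 2 * h e * a k e)) ≤
      36 / d ^ 2 * (((l * n : ℕ) : ℝ) ^ 2 * (stiff l b - stiff (l * n) b)) +
      2 * (Real.exp (-(r * d / 6)) * Real.exp (r ^ 2 / 2 * (S.card * (b * (l : ℝ) ^ 2)))) +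
      6 / d * (4 * Y * (((l * n : ℕ) : ℝ) ^ 2 * (stiff l b - stiff (l * n) b)) +
        (n : ℝ) ^ 2 * (C * (R + Y ^ 2))) := by
  intro n hn S hS α a Y R hY hYY hR ha haY haR h hh' d r hd hr
  obtain ⟨δ, hδ⟩ : ∃ δ, δ = ((l * n : ℕ) : ℝ) ^ 2 * (stiff l b - stiff (l * n) b) := ⟨_, rfl⟩
  rw [← hδ]
  set j : ℤ × ℤ → Ginf → ℝ := fun k => jc b l (cor l k) h with hj
  have cj : ∀ k, Continuous (j k) := fun k => jc_cont b l (cor l k) h
  set Dh : ℤ × ℤ → Ginf → ℝ := fun k x => (l : ℝ) ^ 2 * stiff l b - qc b l (cor l k) hh x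
    with hDh
  set Dv : ℤ × ℤ → Ginf → ℝ := fun k x => (l : ℝ) ^ 2 * stiff l b - qc b l (cor l k) vv x
    with hDv
  have cDh : ∀ k, Continuous (Dh k) := fun k => continuous_const.sub (qc_cont b l _ _)
  have cDv : ∀ k, Continuous (Dv k) := fun k => continuous_const.sub (qc_cont b l _ _)
  have pDh : ∀ k x, 0 ≤ Dh k x := fun k x => by
    have := (qc_le hb.le hl (cor l k) x).1
    simp only [hDh]; linarith
  have pDv : ∀ k x, 0 ≤ Dv k x := fun k x => by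
    have := (qc_le hb.le hl (cor l k) x).2
    simp only [hDv]; linarith
  -- second moment of the total current
  have v1 := var_h hb.le hl hn
  have v2 := var_v hb.le hl hn
  rw [← hδ] at v1 v2
  have n1 : 0 ≤ ∑ k ∈ cells n, Ev b (l * n) 0 (Dh k) :=
    Finset.sum_nonneg fun k _ => Ev_nonneg (pDh k)
  have n2 : 0 ≤ ∑ k ∈ cells n, Ev b (l * n) 0 (Dv k) :=
    Finset.sum_nonneg fun k _ => Ev_nonneg (pDv k)
  have n3 : 0 ≤ Ev b (l * n) 0 (fun θ => (∑ k ∈ cells n, jc b l (cor l k) hh θ) ^ 2) :=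
    Ev_nonneg fun _ => sq_nonneg _
  have n4 : 0 ≤ Ev b (l * n) 0 (fun θ => (∑ k ∈ cells n, jc b l (cor l k) vv θ) ^ 2) :=
    Ev_nonneg fun _ => sq_nonneg _
  have w1 : ∑ k ∈ cells n, Ev b (l * n) 0 (Dh k) ≤ δ := by
    have : ∑ k ∈ cells n, Ev b (l * n) 0 (Dh k) = ∑ k ∈ cells n, Ev b (l * n) 0
      (fun θ => (l : ℝ) ^ 2 * stiff l b - qc b l (cor l k) hh θ) := rfl
    rw [this]; linarith
  have w2 : ∑ k ∈ cells n, Ev b (l * n) 0 (Dv k) ≤ δ := by
    have : ∑ k ∈ cells n, Ev b (l * n) 0 (Dv k) = ∑ k ∈ cells n, Ev b (l * n) 0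
      (fun θ => (l : ℝ) ^ 2 * stiff l b - qc b l (cor l k) vv θ) := rfl
    rw [this]; linarith
  have w3 : Ev b (l * n) 0 (fun x => (∑ k ∈ cells n, j k x) ^ 2) ≤ δ := by
    rcases hh' with rfl | rfl
    · have : Ev b (l * n) 0 (fun x => (∑ k ∈ cells n, j k x) ^ 2) =
        Ev b (l * n) 0 (fun θ => (∑ k ∈ cells n, jc b l (cor l k) hh θ) ^ 2) := rfl
      rw [this]
      have e1 : ∑ k ∈ cells n, Ev b (l * n) 0 (Dh k) = ∑ k ∈ cells n, Ev b (l * n) 0
        (fun θ => (l : ℝ) ^ 2 * stiff l b - qc b l (cor l k) hh θ) := rfl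
      rw [e1] at n1
      linarith
    · have : Ev b (l * n) 0 (fun x => (∑ k ∈ cells n, j k x) ^ 2) =
        Ev b (l * n) 0 (fun θ => (∑ k ∈ cells n, jc b l (cor l k) vv θ) ^ 2) := rfl
      rw [this]
      have e1 : ∑ k ∈ cells n, Ev b (l * n) 0 (Dv k) = ∑ k ∈ cells n, Ev b (l * n) 0
        (fun θ => (l : ℝ) ^ 2 * stiff l b - qc b l (cor l k) vv θ) := rfl
      rw [e1] at n2
      linarith
  -- cell expansion
  have hX : ∀ k ∈ cells n \ S, ∀ x, |j k (x + α) - j k x -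
      stiff l b * ∑ e, 1 / 2 * h e * a k e| ≤ 2 * Y * (Dh k x + Dv k x) + C * (R + Y ^ 2) := by
    intro k hk x
    have := hcell (cor l k) x α (a k) Y R hY hYY hR (ha k hk) (haY k hk) (haR k hk)
    rcases hh' with rfl | rfl
    · exact this.1
    · exact this.2
  -- the third term
  set E3 : Ginf → ℝ := fun x => ∑ k ∈ cells n, (2 * Y * (Dh k x + Dv k x) + C * (R + Y ^ 2))
    with hE3
  have cE3 : Continuous E3 := continuous_finsetSum _ fun k _ =>
    (continuous_const.mul ((cDh k).add (cDv k))).add continuous_const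
  have hsplit : ∀ x, ∑ k ∈ cells n \ S, j k (x + α) -
      stiff l b * ∑ k ∈ cells n \ S, ∑ e, 1 / 2 * h e * a k e =
      ∑ k ∈ cells n, j k x + (-∑ k ∈ S, j k x) +
        ∑ k ∈ cells n \ S, (j k (x + α) - j k x - stiff l b * ∑ e, 1 / 2 * h e * a k e) := by
    intro x
    rw [Finset.sum_sub_distrib, Finset.sum_sub_distrib, ← Finset.mul_sum]
    have := Finset.sum_sdiff (f := fun k => j k x) hS
    linarith only [this]
  have h3 : ∀ x, |∑ k ∈ cells n \ S, (j k (x + α) - j k x -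
      stiff l b * ∑ e, 1 / 2 * h e * a k e)| ≤ E3 x := by
    intro x
    refine (Finset.abs_sum_le_sum_abs _ _).trans ?_
    refine (Finset.sum_le_sum fun k hk => hX k hk x).trans ?_
    simp only [hE3]
    refine Finset.sum_le_sum_of_subset_of_nonneg Finset.sdiff_subset fun k _ _ => ?_
    have := pDh k x
    have := pDv k x
    positivity
  have hpt : ∀ x, psi d (∑ k ∈ cells n \ S, jc b l (cor l k) h (x + α) -
        stiff l b * ∑ k ∈ cells n \ S, ∑ e, 1 / 2 * h e * a k e) ≤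
      (36 / d ^ 2) * (∑ k ∈ cells n, j k x) ^ 2 +
      (Real.exp (-(r * d / 6)) * Real.exp (-r * ∑ k ∈ S, j k x) +
      Real.exp (-(r * d / 6)) * Real.exp (r * ∑ k ∈ S, j k x)) + (6 / d) * E3 x := by
    intro x
    have := psi_bound (d := d) (X1 := ∑ k ∈ cells n, j k x) (X2 := -∑ k ∈ S, j k x)
      (X3 := ∑ k ∈ cells n \ S, (j k (x + α) - j k x - stiff l b * ∑ e, 1 / 2 * h e * a k e))
      (r := r) hd hr
    rw [← hsplit] at this
    refine this.trans ?_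
    have e1 : r * -∑ k ∈ S, j k x = -r * ∑ k ∈ S, j k x := by ring
    have e2 : -r * -∑ k ∈ S, j k x = r * ∑ k ∈ S, j k x := by ring
    rw [e1, e2]
    have h6 : 0 ≤ 6 / d := by positivity
    have := mul_le_mul_of_nonneg_left (h3 x) h6
    linarith only [this]
  have cA : Continuous (fun x : Ginf => (36 / d ^ 2) * (∑ k ∈ cells n, j k x) ^ 2) :=
    continuous_const.mul ((continuous_finsetSum _ fun k _ => cj k).pow 2)
  have cS : Continuous (fun x : Ginf => ∑ k ∈ S, j k x) := continuous_finsetSum _ fun k _ => cj k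
  have cB1 : Continuous (fun x : Ginf => Real.exp (-(r * d / 6)) *
      Real.exp (-r * ∑ k ∈ S, j k x)) :=
    continuous_const.mul (Real.continuous_exp.comp (continuous_const.mul cS))
  have cB2 : Continuous (fun x : Ginf => Real.exp (-(r * d / 6)) *
      Real.exp (r * ∑ k ∈ S, j k x)) :=
    continuous_const.mul (Real.continuous_exp.comp (continuous_const.mul cS))
  have cB : Continuous (fun x : Ginf => Real.exp (-(r * d / 6)) *
      Real.exp (-r * ∑ k ∈ S, j k x) + Real.exp (-(r * d / 6)) *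
      Real.exp (r * ∑ k ∈ S, j k x)) := cB1.add cB2
  have cC : Continuous (fun x : Ginf => (6 / d) * E3 x) := continuous_const.mul cE3
  have cAB : Continuous (fun x : Ginf => (36 / d ^ 2) * (∑ k ∈ cells n, j k x) ^ 2 +
      (Real.exp (-(r * d / 6)) * Real.exp (-r * ∑ k ∈ S, j k x) +
      Real.exp (-(r * d / 6)) * Real.exp (r * ∑ k ∈ S, j k x))) := cA.add cB
  have cL : Continuous (fun x : Ginf => psi d (∑ k ∈ cells n \ S, jc b l (cor l k) h (x + α) -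
        stiff l b * ∑ k ∈ cells n \ S, ∑ e, 1 / 2 * h e * a k e)) := by
    refine (psi_cont d).comp (Continuous.sub ?_ continuous_const)
    exact continuous_finsetSum _ fun k _ =>
      (jc_cont b l (cor l k) h).comp (continuous_id.add continuous_const)
  have cABC : Continuous (fun x : Ginf => (36 / d ^ 2) * (∑ k ∈ cells n, j k x) ^ 2 +
      (Real.exp (-(r * d / 6)) * Real.exp (-r * ∑ k ∈ S, j k x) +
      Real.exp (-(r * d / 6)) * Real.exp (r * ∑ k ∈ S, j k x)) + (6 / d) * E3 x) := cAB.add cC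
  refine (Ev_mono cL cABC hpt).trans ?_
  rw [Ev_add cAB cC, Ev_add cA cB, Ev_add cB1 cB2, Ev_const_mul, Ev_const_mul, Ev_const_mul,
    Ev_const_mul]
  -- exponential moments
  have hsum : ∑ _k ∈ S, ∑ e : BI l, b / 2 * h e ^ 2 = S.card * (b * (l : ℝ) ^ 2) := by
    have : ∑ e : BI l, b / 2 * h e ^ 2 = b * (l : ℝ) ^ 2 := by
      rcases hh' with rfl | rfl
      · exact sum_hh_sq b l
      · exact sum_vv_sq b l
    rw [this, Finset.sum_const, nsmul_eq_mul]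
  have x1 := exp_bound hb.le hl S hS h (-r)
  have x2 := exp_bound hb.le hl S hS h r
  rw [hsum] at x1 x2
  have e0 : (-r) ^ 2 = r ^ 2 := by ring
  rw [e0] at x1
  have hE3b : Ev b (l * n) 0 E3 ≤ 4 * Y * δ + (n : ℝ) ^ 2 * (C * (R + Y ^ 2)) := by
    have f1 : Ev b (l * n) 0 E3 = ∑ k ∈ cells n, Ev b (l * n) 0 (fun x =>
        2 * Y * (Dh k x + Dv k x) + C * (R + Y ^ 2)) :=
      Ev_sum _ _ fun k _ => (continuous_const.mul ((cDh k).add (cDv k))).add continuous_const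
    have f2 : ∀ k, Ev b (l * n) 0 (fun x => 2 * Y * (Dh k x + Dv k x) + C * (R + Y ^ 2)) =
        2 * Y * (Ev b (l * n) 0 (Dh k) + Ev b (l * n) 0 (Dv k)) + C * (R + Y ^ 2) := by
      intro k
      have c1 : Continuous (fun x => Dh k x + Dv k x) := (cDh k).add (cDv k)
      have c2 : Continuous (fun x => 2 * Y * (Dh k x + Dv k x)) := continuous_const.mul c1
      rw [Ev_add c2 continuous_const, Ev_const_mul, Ev_add (cDh k) (cDv k), Ev_zero_const]
    rw [f1]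
    simp_rw [f2]
    rw [Finset.sum_add_distrib, ← Finset.mul_sum, Finset.sum_add_distrib, Finset.sum_const,
      nsmul_eq_mul]
    have hcard : ((cells n).card : ℝ) = (n : ℝ) ^ 2 := by
      unfold cells
      rw [Finset.card_product, Int.card_Ico]
      simp
      ring
    rw [hcard]
    have := mul_le_mul_of_nonneg_left (add_le_add w1 w2) (by positivity : 0 ≤ 2 * Y)
    linarith only [this]
  have g1 := mul_le_mul_of_nonneg_left w3 (by positivity : 0 ≤ 36 / d ^ 2)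
  have g2 := mul_le_mul_of_nonneg_left x1 (Real.exp_pos (-(r * d / 6))).le
  have g3 := mul_le_mul_of_nonneg_left x2 (Real.exp_pos (-(r * d / 6))).le
  have g4 := mul_le_mul_of_nonneg_left hE3b (by positivity : 0 ≤ 6 / d)
  linarith

theorem one_q {b : ℝ} (hb : 0 < b) {C0 s1 : ℝ} (hC0 : 1 ≤ C0)
    (hinc : ∀ l m K M i j : ℕ, 1 ≤ l → 1 ≤ K → i < M →
    j < M → s1 ≤ ((l * m : ℕ) : ℝ) → ∀ k ∈ outer m K M i j, ∀ e : BI l,
      |ainc l m K M i j k e| ≤ C0 / ((l * m : ℕ) : ℝ) ∧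
      ∀ e' : BI l, hh e = hh e' → |ainc l m K M i j k e - ainc l m K M i j k e'| ≤
        C0 * l / ((l * m : ℕ) : ℝ) ^ 2) {l : ℕ} (hl : 1 ≤ l)
    {C Y0 : ℝ} (hC : 0 ≤ C) (hY0 : 0 < Y0) (hcell : CellP b l C Y0) :
    ∀ K M m : ℕ, 1 ≤ K → 1 ≤ m →
      max s1 (max 4 (C0 / Y0)) ≤ ((l * m : ℕ) : ℝ) → ∀ δ : ℝ, stiff l b - stiff (l * (m * NN K M)) b ≤ δ →
      ∀ S ⊆ cells (m * NN K M), ((S.card : ℕ) : ℝ) ≤ 2 * (m : ℝ) ^ 2 →
      ∀ i j : ℕ, i < M → j < M → core m K M i j ⊆ S → ∀ (h : BI l → ℝ), (h = hh ∨ h = vv) →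
      ∀ ν : ℝ, 1 ≤ ν →
      Real.sqrt (Ev b (l * (m * NN K M)) 0 (fun x => psi (K * ((l * m : ℕ) : ℝ) * ν / 4)
        (TT b l h (cells (m * NN K M) \ S) (x + alp l m K M i j) -
          stiff l b * ∑ k ∈ cells (m * NN K M) \ S, ∑ e, 1 / 2 * h e *
            ainc l m K M i j k e))) ≤
      Real.sqrt ((576 + 96 * C0) * (NN K M : ℝ) ^ 2 * δ +
        24 * (NN K M : ℝ) ^ 2 * (C * (C0 * l + C0 ^ 2)) / ((l * m : ℕ) : ℝ)) +
      Real.sqrt (2 * Real.exp b) * Real.exp (-(K * ν) / 48) := by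
  have htail := tail_q hb hl hC hY0 hcell
  intro K M m hK hm1 hSl δ hδ1 S hSsub hcard i j hi hj hcS h hh' ν hν1
  obtain ⟨s, hs⟩ : ∃ s : ℝ, s = ((l * m : ℕ) : ℝ) := ⟨_, rfl⟩
  rw [← hs] at hSl ⊢
  have hs1' : s1 ≤ s := (le_max_left _ _).trans hSl
  have hs4 : 4 ≤ s := ((le_max_left _ _).trans (le_max_right _ _)).trans hSl
  have hs5 : C0 / Y0 ≤ s := ((le_max_right _ _).trans (le_max_right _ _)).trans hSl
  have hs0 : 0 < s := by linarith only [hs4]
  have hs4n : 4 ≤ l * m := by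
    rw [hs] at hs4
    exact_mod_cast hs4
  have hC00 : 0 < C0 := by linarith only [hC0]
  have hNN : 1 ≤ NN K M := by unfold NN; omega
  have hlR : (1 : ℝ) ≤ l := by exact_mod_cast hl
  have hKR : (1 : ℝ) ≤ K := by exact_mod_cast hK
  have hd : 0 < K * s * ν / 4 := by positivity
  have hYY : C0 / s ≤ Y0 := by
    rw [div_le_iff₀ hY0] at hs5
    rw [div_le_iff₀ hs0]
    linarith only [hs5]
  have hn1 : 1 ≤ m * NN K M := Nat.mul_pos hm1 hNN
  have hδ0 : 0 ≤ stiff l b - stiff (l * (m * NN K M)) b := by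
    linarith only [stiff_mono hb.le hl hn1]
  have hXc : ∀ k ∈ cells (m * NN K M) \ S, k ∉ core m K M i j := fun k hk hk' =>
    (Finset.mem_sdiff.1 hk).2 (hcS hk')
  have hXou : ∀ k ∈ cells (m * NN K M) \ S, k ∈ outer m K M i j := fun k hk =>
    Finset.mem_sdiff.2 ⟨(Finset.mem_sdiff.1 hk).1, hXc k hk⟩
  have h1 := htail (m * NN K M) hn1 S hSsub (alp l m K M i j) (ainc l m K M i j)
    (C0 / s) (C0 * l / s ^ 2) (by positivity) hYY (by positivity)
    (fun k hk e => ainc_coe hl (by omega) hK hi hj (hXc k hk) e)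
    (fun k hk e => by
      have := (hinc l m K M i j hl hK hi hj (by rw [← hs]; exact hs1') k (hXou k hk) e).1
      rw [← hs] at this
      exact this)
    (fun k hk e e' hee => by
      have := (hinc l m K M i j hl hK hi hj (by rw [← hs]; exact hs1') k (hXou k hk) e).2
        e' hee
      rw [← hs] at this
      exact this)
    h hh' (K * s * ν / 4) (1 / s) hd (by positivity)
  have h2 := tail_numeric (s := s) (N := (NN K M : ℝ)) (K := (K : ℝ)) (ν := ν) (C0 := C0)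
    (C := C) (l := (l : ℝ)) (m := (m : ℝ)) (n := ((m * NN K M : ℕ) : ℝ))
    (L := ((l * (m * NN K M) : ℕ) : ℝ)) (δ := stiff l b - stiff (l * (m * NN K M)) b)
    (b := b) (card := (S.card : ℝ)) hs0 hKR hν1 hC00.le hC hlR
    (by positivity) (by rw [hs]; push_cast; ring) (by push_cast; ring) (by push_cast; ring)
    hδ0 hb.le hcard
  have h3 := h1.trans h2
  have h4 : Ev b (l * (m * NN K M)) 0 (fun x => psi (K * s * ν / 4)
      (TT b l h (cells (m * NN K M) \ S) (x + alp l m K M i j) -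
        stiff l b * ∑ k ∈ cells (m * NN K M) \ S, ∑ e, 1 / 2 * h e *
          ainc l m K M i j k e)) ≤
      ((576 + 96 * C0) * (NN K M : ℝ) ^ 2 * δ +
      24 * (NN K M : ℝ) ^ 2 * (C * (C0 * l + C0 ^ 2)) / s) +
      2 * Real.exp b * Real.exp (-(K * ν) / 24) := by
    refine h3.trans ?_
    have : (576 + 96 * C0) * (NN K M : ℝ) ^ 2 * (stiff l b - stiff (l * (m * NN K M)) b) ≤
        (576 + 96 * C0) * (NN K M : ℝ) ^ 2 * δ :=
      mul_le_mul_of_nonneg_left hδ1 (by positivity)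
    linarith only [this]
  refine (Real.sqrt_le_sqrt h4).trans ?_
  have hδ' : 0 ≤ δ := hδ0.trans hδ1
  refine (sqrt_add_le' (by positivity) (by positivity)).trans ?_
  refine add_le_add le_rfl (le_of_eq ?_)
  rw [Real.sqrt_mul (by positivity)]
  congr 1
  have e1 : Real.exp (-(K * ν) / 24) = Real.exp (-(K * ν) / 48) ^ 2 := by
    rw [← Real.exp_nat_mul]
    congr 1
    push_cast
    ring
  rw [e1, Real.sqrt_sq (Real.exp_pos _).le]

theorem aff_q :
    ∃ C0 S0 : ℝ, 1 ≤ C0 ∧ 4 ≤ S0 ∧ ∀ b : ℝ, 0 < b → ∀ l : ℕ, 1 ≤ l →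
      1 / (2 * Real.pi) ≤ stiff l b → ∀ C Y0 : ℝ, 0 ≤ C → 0 < Y0 → CellP b l C Y0 →
      ∀ K M m : ℕ, 1 ≤ K → C0 ≤ Real.pi * K → max S0 (C0 / Y0) ≤ ((l * m : ℕ) : ℝ) → ∀ δ : ℝ,
      stiff l b - stiff (l * m * NN K M) b ≤ δ → ∀ i j i' j' : ℕ, i < M → j < M → i' < M →
      j' < M → ∀ (h : BI l → ℝ) (ν : ℝ), (h = hh ∧ ν = |(j : ℝ) - j'| ∨ h = vv ∧
      ν = |(i : ℝ) - i'|) → 1 ≤ ν →
      Ev b (l * m * NN K M) (ang (l * m * NN K M) 0)
        (fun θ => Real.sqrt (Dn b l m K M i j θ) * Real.sqrt (Dn b l m K M i' j' θ)) ≤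
      2 * Real.sqrt ((576 + 96 * C0) * (NN K M : ℝ) ^ 2 * δ +
        24 * (NN K M : ℝ) ^ 2 * (C * (C0 * l + C0 ^ 2)) / ((l * m : ℕ) : ℝ)) +
      2 * Real.sqrt (2 * Real.exp b) * Real.exp (-(K * ν) / 48) := by
  obtain ⟨C1, s1, hC1, hs1, hinc⟩ := geo_inc
  obtain ⟨C2, s2, hC2, hs2, hrh⟩ := geo_rows_h
  obtain ⟨C3, s3, hC3, hs3, hrv⟩ := geo_rows_v
  obtain ⟨C0, hC0⟩ : ∃ C0, C0 = C1 + C2 + C3 := ⟨_, rfl⟩
  have hC01 : 1 ≤ C0 := by linarith
  refine ⟨C0, max (max s1 4) (max s2 s3), hC01, (le_max_right _ _).trans (le_max_left _ _), ?_⟩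
  intro b hb l hl hst C Y0 hC hY0 hcell
  have hinc' : ∀ l m K M i j : ℕ, 1 ≤ l → 1 ≤ K → i < M →
    j < M → s1 ≤ ((l * m : ℕ) : ℝ) → ∀ k ∈ outer m K M i j, ∀ e : BI l,
      |ainc l m K M i j k e| ≤ C0 / ((l * m : ℕ) : ℝ) ∧
      ∀ e' : BI l, hh e = hh e' → |ainc l m K M i j k e - ainc l m K M i j k e'| ≤
        C0 * l / ((l * m : ℕ) : ℝ) ^ 2 := by
    intro l m K M i j hl hK hi hj hs k hk e
    obtain ⟨a1, a2⟩ := hinc l m K M i j hl hK hi hj hs k hk e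
    refine ⟨a1.trans (div_le_div_of_nonneg_right (by linarith only [hC2, hC3, hC0]) (by positivity)), ?_⟩
    intro e' hee
    refine (a2 e' hee).trans (div_le_div_of_nonneg_right ?_ (by positivity))
    exact mul_le_mul_of_nonneg_right (by linarith) (by positivity)
  have htail := one_q hb hC01 hinc' hl hC hY0 hcell
  intro K M m hK hKC hSl δ hδ i j i' j' hi hj hi' hj' h ν hν hν1
  have hSa := (le_max_left _ _).trans hSl
  have hSb := (le_max_right _ _).trans hSl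
  have hs2' : s2 ≤ ((l * m : ℕ) : ℝ) :=
    ((le_max_left _ _).trans (le_max_right _ _)).trans hSa
  have hs3' : s3 ≤ ((l * m : ℕ) : ℝ) :=
    ((le_max_right _ _).trans (le_max_right _ _)).trans hSa
  have hSl4 : (4 : ℝ) ≤ ((l * m : ℕ) : ℝ) := ((le_max_right _ _).trans (le_max_left _ _)).trans hSa
  have hSl1 : s1 ≤ ((l * m : ℕ) : ℝ) := ((le_max_left _ _).trans (le_max_left _ _)).trans hSa
  have hSl' : max s1 (max 4 (C0 / Y0)) ≤ ((l * m : ℕ) : ℝ) := max_le hSl1 (max_le hSl4 hSb)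
  have hs0 : (0 : ℝ) < ((l * m : ℕ) : ℝ) := by linarith
  have hs4n : 4 ≤ l * m := by
    have : (4 : ℝ) ≤ ((l * m : ℕ) : ℝ) := hSl4
    exact_mod_cast this
  have hm1 : 1 ≤ m := by
    rcases Nat.eq_zero_or_pos m with h0 | h0
    · rw [h0, mul_zero] at hs4n; omega
    · exact h0
  have hLn : l * m * NN K M = l * (m * NN K M) := Nat.mul_assoc _ _ _
  have hSsub : core m K M i j ∪ core m K M i' j' ⊆ cells (m * NN K M) :=
    Finset.union_subset (core_sub hK hi hj) (core_sub hK hi' hj')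
  have hcard : (((core m K M i j ∪ core m K M i' j').card : ℕ) : ℝ) ≤ 2 * (m : ℝ) ^ 2 := by
    have h1 : (core m K M i j ∪ core m K M i' j').card ≤ m ^ 2 + m ^ 2 := by
      refine (Finset.card_union_le _ _).trans ?_
      rw [core_card, core_card]
    have h2 : (((core m K M i j ∪ core m K M i' j').card : ℕ) : ℝ) ≤
      ((m ^ 2 + m ^ 2 : ℕ) : ℝ) := by exact_mod_cast h1
    refine h2.trans (le_of_eq ?_)
    push_cast
    ring
  have hh'' : h = hh ∨ h = vv := by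
    rcases hν with ⟨h1, _⟩ | ⟨h1, _⟩
    · exact Or.inl h1
    · exact Or.inr h1
  have hrow : 2 * Real.pi * K * ((l * m : ℕ) : ℝ) * ν - C0 * ((l * m : ℕ) : ℝ) ≤
      |∑ k ∈ cells (m * NN K M) \ (core m K M i j ∪ core m K M i' j'), ∑ e, 1 / 2 * h e *
      (ainc l m K M i j k e - ainc l m K M i' j' k e)| := by
    rcases hν with ⟨hh', hν'⟩ | ⟨hh', hν'⟩
    · rw [hh', hν']
      refine le_trans ?_ (hrh l m K M i j i' j' hl hK hi hj hi' hj' hs2')
      have : C2 * ((l * m : ℕ) : ℝ) ≤ C0 * ((l * m : ℕ) : ℝ) :=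
        mul_le_mul_of_nonneg_right (by linarith only [hC1, hC3, hC0]) hs0.le
      linarith only [this]
    · rw [hh', hν']
      refine le_trans ?_ (hrv l m K M i j i' j' hl hK hi hj hi' hj' hs3')
      have : C3 * ((l * m : ℕ) : ℝ) ≤ C0 * ((l * m : ℕ) : ℝ) :=
        mul_le_mul_of_nonneg_right (by linarith only [hC1, hC2, hC0]) hs0.le
      linarith only [this]
  have hd2 := mean_diff hst (Nat.cast_nonneg K) hs0 hν1 hKC
    (mean_sub (stiff l b) (cells (m * NN K M) \ (core m K M i j ∪ core m K M i' j')) h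
      (ainc l m K M i j) (ainc l m K M i' j')) hrow
  have hd : 0 < (K : ℝ) * ((l * m : ℕ) : ℝ) * ν / 4 := by
    have : (0 : ℝ) < K := by exact_mod_cast hK
    positivity
  refine (affinity (b := b)
    (X := cells (m * NN K M) \ (core m K M i j ∪ core m K M i' j'))
    hl hs4n hK hi hj hi' hj' h hd hd2
    (fun k hk hk' => (Finset.mem_sdiff.1 hk).2 (Finset.mem_union_left _ hk'))
    (fun k hk hk' => (Finset.mem_sdiff.1 hk).2 (Finset.mem_union_right _ hk'))).trans ?_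
  rw [hLn] at hδ
  have a1 := htail K M m hK hm1 hSl' δ hδ _ hSsub hcard i j hi hj Finset.subset_union_left
    h hh'' ν hν1
  have a2 := htail K M m hK hm1 hSl' δ hδ _ hSsub hcard i' j' hi' hj' Finset.subset_union_right
    h hh'' ν hν1
  rw [← hLn] at a1 a2
  linarith only [a1, a2]

end Vale.Agent.P159.UJ.H664
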