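import Vale.Agent.P159.Bdl.B9

/-!
Expansion of the mean current of a cell with an error controlled by exponential moments of the
currents, uniformly in the size of the cell.
-/

set_option linter.all false

open MeasureTheory Filter Topology
open scoped BigOperators

namespace Vale.Agent.P159.UJ.H664

/-! ### real inequalities -/

theorem exp_sub_one_abs (x : ℝ) : |Real.exp x - 1| ≤ |x| * Real.exp |x| := by
  have h1 : Real.exp x - 1 ≤ x * Real.exp x := by
    have h := Real.add_one_le_exp (-x)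
    have h2 : Real.exp x * Real.exp (-x) = 1 := by rw [← Real.exp_add, add_neg_cancel, Real.exp_zero]
    have h3 := mul_le_mul_of_nonneg_left h (Real.exp_pos x).le
    rw [h2] at h3
    linarith only [h3]
  have h2 := Real.add_one_le_exp x
  have h3 : 1 ≤ Real.exp |x| := Real.one_le_exp (abs_nonneg x)
  rcases le_total 0 x with h | h
  · rw [abs_of_nonneg h] at h3 ⊢
    rw [abs_of_nonneg (by linarith only [h2, h])]
    exact h1
  · have h4 : Real.exp x ≤ 1 := Real.exp_le_one_iff.2 h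
    rw [abs_of_nonpos h] at h3
    rw [abs_of_nonpos (by linarith only [h4]), abs_of_nonpos h]
    have h5 : 0 ≤ (-x) * (Real.exp (-x) - 1) :=
      mul_nonneg (by linarith only [h]) (by linarith only [h3])
    linarith only [h2, h5]

theorem exp_sub_id_abs (x : ℝ) : |Real.exp x - 1 - x| ≤ x ^ 2 * Real.exp |x| := by
  have h0 := Real.add_one_le_exp x
  rw [abs_of_nonneg (by linarith only [h0])]
  have h1 : Real.exp x - 1 ≤ x * Real.exp x := by
    have h := Real.add_one_le_exp (-x)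
    have h2 : Real.exp x * Real.exp (-x) = 1 := by rw [← Real.exp_add, add_neg_cancel, Real.exp_zero]
    have h3 := mul_le_mul_of_nonneg_left h (Real.exp_pos x).le
    rw [h2] at h3
    linarith only [h3]
  have h2 : Real.exp x - 1 - x ≤ x * (Real.exp x - 1) := by linarith only [h1]
  refine h2.trans ?_
  refine (le_abs_self _).trans ?_
  rw [abs_mul, ← sq_abs x, pow_two, mul_assoc]
  exact mul_le_mul_of_nonneg_left (exp_sub_one_abs x) (abs_nonneg x)

theorem le_exp_self (x : ℝ) : x ≤ Real.exp x := by linarith only [Real.add_one_le_exp x]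

/-! ### expectations -/

section Ex

variable {G : Type*} [AddCommGroup G] [TopologicalSpace G] [IsTopologicalAddGroup G]
  [CompactSpace G] [SecondCountableTopology G] [MeasurableSpace G] [BorelSpace G]
  (μ : Measure G) [μ.IsAddHaarMeasure] [IsProbabilityMeasure μ]
  {κ : Type*} [Fintype κ] (J : κ → ℝ) (χ : κ → Chr G)

theorem ex_abs_le' {t : κ → ℝ} {f g : G → ℝ} (hf : Continuous f) (hg : Continuous g)
    (h : ∀ x, |f x| ≤ g x) : |ex μ J χ t f| ≤ ex μ J χ t g := by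
  rw [abs_le]
  constructor
  · have h1 := ex_mono μ J χ (t := t) (f := fun x => - g x) (g := f) hg.neg hf
      fun x => (abs_le.1 (h x)).1
    rwa [ex_neg] at h1
  · exact ex_mono μ J χ hf hg fun x => (abs_le.1 (h x)).2

theorem ex_sq_le {t : κ → ℝ} {f : G → ℝ} (hf : Continuous f) :
    ex μ J χ t f ^ 2 ≤ ex μ J χ t (fun x => f x ^ 2) := by
  obtain ⟨m, hm⟩ : ∃ m, m = ex μ J χ t f := ⟨_, rfl⟩
  have c1 : Continuous (fun x => (2 * m) * f x) := continuous_const.mul hf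
  have c2 : Continuous (fun _ : G => m ^ 2) := continuous_const
  have c3 : Continuous (fun x => (2 * m) * f x - m ^ 2) := c1.sub c2
  have h1 := ex_mono μ J χ (t := t) (f := fun x => (2 * m) * f x - m ^ 2)
    (g := fun x => f x ^ 2) c3 (hf.pow 2)
    fun x => by nlinarith only [sq_nonneg (f x - m)]
  rw [ex_sub μ J χ c1 c2, ex_const_mul, ex_const, ← hm] at h1
  rw [← hm]
  linarith only [h1]

/-- fourth power of the expectation of a power -/
theorem ex_pow_four {t : κ → ℝ} {f : G → ℝ} (hf : Continuous f) (h0 : ∀ x, 0 ≤ f x) :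
    ex μ J χ t f ^ 4 ≤ ex μ J χ t (fun x => f x ^ 4) := by
  have h1 := ex_sq_le μ J χ (t := t) hf
  have h2 := ex_sq_le μ J χ (t := t) (hf.pow 2)
  have h3 : 0 ≤ ex μ J χ t f ^ 2 := sq_nonneg _
  have h4 := pow_le_pow_left₀ h3 h1 2
  have e1 : (fun x => (f x ^ 2) ^ 2) = fun x => f x ^ 4 := by ext x; ring
  rw [← e1]
  calc ex μ J χ t f ^ 4 = (ex μ J χ t f ^ 2) ^ 2 := by ring
    _ ≤ _ := h4
    _ ≤ _ := h2

theorem ex_eq_ratio (t a h : κ → ℝ) : jm μ J χ (t + a) h = ex μ J χ t (fun x => Jt J χ (t + a) h x *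
      Real.exp (Ht J χ (t + a) x - Ht J χ t x)) /
      ex μ J χ t (fun x => Real.exp (Ht J χ (t + a) x - Ht J χ t x)) := by
  rw [← Zr_ratio]
  unfold jm ex
  have hz := (Zr_pos μ J χ t).ne'
  have hz' := (Zr_pos μ J χ (t + a)).ne'
  rw [div_div_div_cancel_right₀ hz]
  congr 2
  ext x
  rw [mul_assoc, ← Real.exp_add]
  congr 2
  ring

/-- The expansion of the mean current. `ρ` is the size of the current in the direction `a`, `lam`
the size of the current in the direction `h`. -/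
theorem jm_uni (hJ : ∀ e, 0 ≤ J e) {t a h : κ → ℝ} {Y ρ lam c : ℝ} (hY1 : Y ≤ 1)
    (ha : ∀ e, |a e| ≤ Y) (hh : ∀ e, |h e| ≤ 1) (hρ : 0 < ρ) (hρ1 : ρ ≤ 1) (hlam : 1 ≤ lam)
    (hc : 0 ≤ c) (h2 : 3 * (∑ e, J e) * Y ^ 2 ≤ c * ρ ^ 2) (h1 : (∑ e, J e) * Y ≤ c * (lam * ρ)) :
    |jm μ J χ (t + a) h - jm μ J χ t h - QQ μ J χ t h a| ≤
      9 * ((1 + c) ^ 2 * Real.exp c) ^ 3 * (lam * ρ ^ 2) *
        ex μ J χ t (fun x => Real.exp (|Jt J χ t a x| / ρ + |Jt J χ t h x| / lam) ^ 16) := by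
  obtain ⟨k, hk⟩ : ∃ k, k = (1 + c) ^ 2 * Real.exp c := ⟨_, rfl⟩
  rw [← hk]
  have hec : 1 ≤ Real.exp c := Real.one_le_exp hc
  have hec0 : 0 < Real.exp c := Real.exp_pos c
  have hk1 : 1 ≤ k := by
    rw [hk]
    have : 1 ≤ (1 + c) ^ 2 := by nlinarith only [hc]
    nlinarith only [this, hec]
  have hkc : c ≤ k := by
    rw [hk]
    have h3 : c ≤ (1 + c) ^ 2 := by nlinarith only [hc]
    nlinarith only [h3, hec, hc]
  have hkec : Real.exp c ≤ k := by
    rw [hk]
    have h3 : 1 ≤ (1 + c) ^ 2 := by nlinarith only [hc]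
    nlinarith only [h3, hec0]
  have hkec1 : (1 + c) * Real.exp c ≤ k := by
    rw [hk]
    have h3 : 1 + c ≤ (1 + c) ^ 2 := by nlinarith only [hc]
    nlinarith only [h3, hec0]
  have hk0 : 0 ≤ k := by linarith only [hk1]
  have hlam0 : 0 < lam := by linarith only [hlam]
  -- continuity
  have cX := cont_Jt J χ t a
  have cZ := cont_Jt J χ t h
  have cZ' := cont_Jt J χ (t + a) h
  have cB := cont_Bt J χ t h a
  have cW : Continuous (fun x => Real.exp (Ht J χ (t + a) x - Ht J χ t x)) :=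
    Real.continuous_exp.comp ((cont_Ht J χ _).sub (cont_Ht J χ _))
  obtain ⟨X, hX⟩ : ∃ X : G → ℝ, X = Jt J χ t a := ⟨_, rfl⟩
  obtain ⟨Z, hZ⟩ : ∃ Z : G → ℝ, Z = Jt J χ t h := ⟨_, rfl⟩
  obtain ⟨Z', hZ'⟩ : ∃ Z' : G → ℝ, Z' = Jt J χ (t + a) h := ⟨_, rfl⟩
  obtain ⟨β, hβ⟩ : ∃ β : G → ℝ, β = Bt J χ t h a := ⟨_, rfl⟩
  obtain ⟨W, hW⟩ : ∃ W : G → ℝ, W = fun x => Real.exp (Ht J χ (t + a) x - Ht J χ t x) := ⟨_, rfl⟩
  obtain ⟨D, hD⟩ : ∃ D : G → ℝ, D = fun x => Ht J χ (t + a) x - Ht J χ t x := ⟨_, rfl⟩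
  have cD : Continuous D := by rw [hD]; exact (cont_Ht J χ _).sub (cont_Ht J χ _)
  have hWD : ∀ x, W x = Real.exp (D x) := fun x => by rw [hW, hD]
  have hjm' : jm μ J χ (t + a) h = ex μ J χ t (fun x => Z' x * W x) / ex μ J χ t W := by
    rw [ex_eq_ratio, hZ', hW]
  have hjm : jm μ J χ t h = ex μ J χ t Z := by rw [hZ]; rfl
  have hQQ : QQ μ J χ t h a = ex μ J χ t β - ex μ J χ t (fun x => Z x * X x) +
      ex μ J χ t Z * ex μ J χ t X := by
    rw [hZ, hX, hβ]; rfl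
  have hg16 : (fun x => Real.exp (|Jt J χ t a x| / ρ + |Jt J χ t h x| / lam) ^ 16) =
      fun x => Real.exp (|X x| / ρ + |Z x| / lam) ^ 16 := by rw [hX, hZ]
  rw [hjm', hjm, hQQ, hg16]
  rw [← hX] at cX
  rw [← hZ] at cZ
  rw [← hZ'] at cZ'
  rw [← hβ] at cB
  rw [← hW] at cW
  -- pointwise bounds
  have pD : ∀ x, |D x + X x| ≤ c * ρ ^ 2 := fun x => by
    have := Ht_taylor1 J χ hJ hY1 ha (t := t) x
    rw [hD, hX]
    exact this.trans h2
  have pR : ∀ x, |Z' x - Z x - β x| ≤ c * ρ ^ 2 := fun x => by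
    have := Jt_taylor1 J χ hJ hY1 ha hh (t := t) x
    rw [hZ', hZ, hβ]
    exact this.trans h2
  have pβ : ∀ x, |β x| ≤ c * (lam * ρ) := fun x => by
    have := abs_Bt_le J χ hJ hh ha (t := t) x
    rw [one_mul] at this
    rw [hβ]
    exact this.trans h1
  obtain ⟨g, hg⟩ : ∃ g : G → ℝ, g = fun x => Real.exp (|X x| / ρ + |Z x| / lam) := ⟨_, rfl⟩
  have hg16' : (fun x => Real.exp (|X x| / ρ + |Z x| / lam) ^ 16) = fun x => g x ^ 16 := by rw [hg]
  rw [hg16']
  have cg : Continuous g := by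
    rw [hg]
    exact Real.continuous_exp.comp (((continuous_abs.comp cX).div_const _).add
      ((continuous_abs.comp cZ).div_const _))
  have pu : ∀ x, 0 ≤ |X x| / ρ := fun x => by positivity
  have pv : ∀ x, 0 ≤ |Z x| / lam := fun x => by positivity
  have pg1 : ∀ x, 1 ≤ g x := fun x => by
    rw [hg]; exact Real.one_le_exp (by linarith only [pu x, pv x])
  have pg0 : ∀ x, 0 ≤ g x := fun x => by linarith only [pg1 x]
  have peu : ∀ x, Real.exp (|X x| / ρ) ≤ g x := fun x => by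
    rw [hg]; exact Real.exp_le_exp.2 (by linarith only [pv x])
  have pX : ∀ x, |X x| ≤ ρ * g x := fun x => by
    have h3 : |X x| / ρ ≤ g x := (le_exp_self _).trans (peu x)
    rw [div_le_iff₀ hρ] at h3
    linarith only [h3]
  have pZ : ∀ x, |Z x| ≤ lam * g x := fun x => by
    have h3 : |Z x| / lam ≤ g x := by
      refine (le_exp_self _).trans ?_
      rw [hg]; exact Real.exp_le_exp.2 (by linarith only [pu x])
    rw [div_le_iff₀ hlam0] at h3
    linarith only [h3]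
  have pZX : ∀ x, |Z x * X x| ≤ lam * ρ * g x := fun x => by
    have h3 : |Z x| / lam ≤ Real.exp (|Z x| / lam) := le_exp_self _
    have h4 : |X x| / ρ ≤ Real.exp (|X x| / ρ) := le_exp_self _
    have h5 : (|Z x| / lam) * (|X x| / ρ) ≤ g x := by
      refine (mul_le_mul h3 h4 (pu x) (Real.exp_pos _).le).trans (le_of_eq ?_)
      rw [← Real.exp_add, hg, add_comm]
    have h6 : |Z x * X x| = lam * ρ * ((|Z x| / lam) * (|X x| / ρ)) := by
      rw [abs_mul]; field_simp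
    rw [h6]
    exact mul_le_mul_of_nonneg_left h5 (by positivity)
  have hρ2 : ρ ^ 2 ≤ ρ := by nlinarith only [hρ, hρ1]
  have pDu : ∀ x, |D x| ≤ ρ * (|X x| / ρ + c) := fun x => by
    have h3 : |D x| ≤ |D x + X x| + |X x| := by
      have := abs_sub (D x + X x) (X x)
      rwa [add_sub_cancel_right] at this
    have h4 : ρ * (|X x| / ρ) = |X x| := by field_simp
    have h5 := mul_le_mul_of_nonneg_left hρ2 hc
    have := pD x
    rw [mul_add, h4]
    linarith only [h3, h5, this]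
  have pD1 : ∀ x, |D x| ≤ |X x| / ρ + c := fun x => by
    refine (pDu x).trans ?_
    exact mul_le_of_le_one_left (by linarith only [pu x, hc]) hρ1
  have peD : ∀ x, Real.exp |D x| ≤ Real.exp c * Real.exp (|X x| / ρ) := fun x => by
    rw [← Real.exp_add]
    exact Real.exp_le_exp.2 (by linarith only [pD1 x])
  have peD' : ∀ x, Real.exp |D x| ≤ k * g x := fun x =>
    (peD x).trans (mul_le_mul hkec (peu x) (Real.exp_pos _).le hk0)
  have pW : ∀ x, W x ≤ k * g x := fun x => by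
    rw [hWD]
    exact (Real.exp_le_exp.2 (le_abs_self _)).trans (peD' x)
  have pW0 : ∀ x, 0 ≤ W x := fun x => by rw [hWD]; exact (Real.exp_pos _).le
  have puc : ∀ x, |X x| / ρ + c ≤ (1 + c) * Real.exp (|X x| / ρ) := fun x => by
    have h3 := Real.add_one_le_exp (|X x| / ρ)
    have h4 : 1 ≤ Real.exp (|X x| / ρ) := Real.one_le_exp (pu x)
    nlinarith only [h3, h4, hc, pu x]
  have pW1 : ∀ x, |W x - 1| ≤ ρ * k * g x ^ 2 := fun x => by
    rw [hWD]
    refine (exp_sub_one_abs (D x)).trans ?_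
    have h3 : |D x| ≤ ρ * ((1 + c) * Real.exp (|X x| / ρ)) :=
      (pDu x).trans (mul_le_mul_of_nonneg_left (puc x) hρ.le)
    have h4 : |D x| * Real.exp |D x| ≤ (ρ * ((1 + c) * Real.exp (|X x| / ρ))) *
        (Real.exp c * Real.exp (|X x| / ρ)) :=
      mul_le_mul h3 (peD x) (Real.exp_pos _).le (by positivity)
    have h5 : (ρ * ((1 + c) * Real.exp (|X x| / ρ))) * (Real.exp c * Real.exp (|X x| / ρ)) =
        ρ * ((1 + c) * Real.exp c) * Real.exp (|X x| / ρ) ^ 2 := by ring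
    rw [h5] at h4
    refine h4.trans ?_
    have h6 : Real.exp (|X x| / ρ) ^ 2 ≤ g x ^ 2 := pow_le_pow_left₀ (Real.exp_pos _).le (peu x) 2
    exact mul_le_mul (mul_le_mul_of_nonneg_left hkec1 hρ.le) h6 (by positivity) (by positivity)
  obtain ⟨R2, hR2⟩ : ∃ R2 : G → ℝ, R2 = fun x => W x - 1 + X x := ⟨_, rfl⟩
  have cR2 : Continuous R2 := by rw [hR2]; exact (cW.sub continuous_const).add cX
  have pR2 : ∀ x, |R2 x| ≤ 2 * k * ρ ^ 2 * g x ^ 3 := fun x => by
    have e0 : R2 x = (Real.exp (D x) - 1 - D x) + (D x + X x) := by rw [hR2]; simp only [hWD]; ring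
    rw [e0]
    refine (abs_add_le _ _).trans ?_
    have h3 : |D x| ≤ ρ * ((1 + c) * Real.exp (|X x| / ρ)) :=
      (pDu x).trans (mul_le_mul_of_nonneg_left (puc x) hρ.le)
    have h4 : D x ^ 2 ≤ (ρ * ((1 + c) * Real.exp (|X x| / ρ))) ^ 2 := by
      rw [← sq_abs]; exact pow_le_pow_left₀ (abs_nonneg _) h3 2
    have h5 : D x ^ 2 * Real.exp |D x| ≤ (ρ * ((1 + c) * Real.exp (|X x| / ρ))) ^ 2 *
        (Real.exp c * Real.exp (|X x| / ρ)) :=
      mul_le_mul h4 (peD x) (Real.exp_pos _).le (by positivity)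
    have h6 : (ρ * ((1 + c) * Real.exp (|X x| / ρ))) ^ 2 * (Real.exp c * Real.exp (|X x| / ρ)) =
        k * ρ ^ 2 * Real.exp (|X x| / ρ) ^ 3 := by rw [hk]; ring
    have h7 : Real.exp (|X x| / ρ) ^ 3 ≤ g x ^ 3 := pow_le_pow_left₀ (Real.exp_pos _).le (peu x) 3
    have h8 : k * ρ ^ 2 * Real.exp (|X x| / ρ) ^ 3 ≤ k * ρ ^ 2 * g x ^ 3 :=
      mul_le_mul_of_nonneg_left h7 (by positivity)
    have h9 : (1 : ℝ) ≤ g x ^ 3 := one_le_pow₀ (pg1 x)
    have h10 : c * ρ ^ 2 ≤ k * ρ ^ 2 * g x ^ 3 := by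
      have : c * ρ ^ 2 ≤ k * ρ ^ 2 := mul_le_mul_of_nonneg_right hkc (by positivity)
      have h11 : k * ρ ^ 2 * 1 ≤ k * ρ ^ 2 * g x ^ 3 := mul_le_mul_of_nonneg_left h9 (by positivity)
      linarith only [this, h11]
    have h12 := exp_sub_id_abs (D x)
    have h13 := pD x
    rw [h6] at h5
    linarith only [h5, h8, h10, h12, h13]
  -- expectations
  obtain ⟨M, hM⟩ : ∃ M, M = ex μ J χ t (fun x => g x ^ 4) := ⟨_, rfl⟩
  have cg4 : Continuous (fun x => g x ^ 4) := cg.pow 4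
  have hgM : ∀ j : ℕ, j ≤ 4 → ex μ J χ t (fun x => g x ^ j) ≤ M := fun j hj => by
    rw [hM]
    exact ex_mono μ J χ (cg.pow j) cg4 fun x => pow_le_pow_right₀ (pg1 x) hj
  have hM1 : 1 ≤ M := by
    have := hgM 0 (by norm_num)
    simp only [pow_zero] at this
    rwa [ex_const] at this
  have hM0 : 0 ≤ M := by linarith only [hM1]
  have bound : ∀ (f : G → ℝ), Continuous f → ∀ (C : ℝ) (j : ℕ), 0 ≤ C → j ≤ 4 →
      (∀ x, |f x| ≤ C * g x ^ j) → |ex μ J χ t f| ≤ C * M := by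
    intro f hf C j hC hj hb
    have c1 : Continuous (fun x => C * g x ^ j) := continuous_const.mul (cg.pow j)
    refine (ex_abs_le' μ J χ (t := t) hf c1 hb).trans ?_
    rw [ex_const_mul]
    exact mul_le_mul_of_nonneg_left (hgM j hj) hC
  obtain ⟨m1, hm1⟩ : ∃ m1, m1 = ex μ J χ t W := ⟨_, rfl⟩
  obtain ⟨z, hz⟩ : ∃ z, z = ex μ J χ t Z := ⟨_, rfl⟩
  obtain ⟨xa, hxa⟩ : ∃ xa, xa = ex μ J χ t X := ⟨_, rfl⟩
  obtain ⟨zx, hzx⟩ : ∃ zx, zx = ex μ J χ t (fun x => Z x * X x) := ⟨_, rfl⟩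
  obtain ⟨eβ, heβ⟩ : ∃ eβ, eβ = ex μ J χ t β := ⟨_, rfl⟩
  obtain ⟨r2, hr2⟩ : ∃ r2, r2 = ex μ J χ t R2 := ⟨_, rfl⟩
  obtain ⟨zr, hzr⟩ : ∃ zr, zr = ex μ J χ t (fun x => Z x * R2 x) := ⟨_, rfl⟩
  obtain ⟨rw1, hrw1⟩ : ∃ rw1, rw1 = ex μ J χ t (fun x => (Z' x - Z x - β x) * W x) := ⟨_, rfl⟩
  obtain ⟨bw, hbw⟩ : ∃ bw, bw = ex μ J χ t (fun x => β x * (W x - 1)) := ⟨_, rfl⟩
  have c1c : Continuous (fun _ : G => (1 : ℝ)) := continuous_const
  have cW1 : Continuous (fun x => W x - 1) := cW.sub c1c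
  have cZX : Continuous (fun x => Z x * X x) := cZ.mul cX
  have cZR : Continuous (fun x => Z x * R2 x) := cZ.mul cR2
  have cBW : Continuous (fun x => β x * (W x - 1)) := cB.mul cW1
  have cRW : Continuous (fun x => (Z' x - Z x - β x) * W x) := ((cZ'.sub cZ).sub cB).mul cW
  -- formula for m1
  have em1 : m1 = 1 - xa + r2 := by
    have h3 : ex μ J χ t R2 = ex μ J χ t W - 1 + ex μ J χ t X := by
      rw [hR2, ex_add μ J χ cW1 cX, ex_sub μ J χ cW c1c, ex_const]
    rw [hr2, h3, hm1, hxa]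
    ring
  have e1m : ex μ J χ t (fun x => W x - 1) = m1 - 1 := by
    rw [ex_sub μ J χ cW c1c, ex_const, hm1]
  -- formula for the numerator
  have eN : ex μ J χ t (fun x => Z' x * W x) = z - zx + zr + (eβ + bw) + rw1 := by
    have h3 : (fun x => Z' x * W x) = fun x => ((Z x - Z x * X x) + Z x * R2 x +
        (β x + β x * (W x - 1))) + (Z' x - Z x - β x) * W x := by
      ext x
      rw [hR2]
      ring
    have c1 : Continuous (fun x => Z x * X x) := cZ.mul cX
    have c2 : Continuous (fun x => Z x - Z x * X x) := cZ.sub c1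
    have c3 : Continuous (fun x => Z x * R2 x) := cZ.mul cR2
    have c4 : Continuous (fun x => (Z x - Z x * X x) + Z x * R2 x) := c2.add c3
    have c5 : Continuous (fun x => β x * (W x - 1)) := cB.mul cW1
    have c6 : Continuous (fun x => β x + β x * (W x - 1)) := cB.add c5
    have c7 : Continuous (fun x => ((Z x - Z x * X x) + Z x * R2 x) +
        (β x + β x * (W x - 1))) := c4.add c6
    rw [h3, ex_add μ J χ c7 cRW, ex_add μ J χ c4 c6, ex_add μ J χ c2 c3, ex_sub μ J χ cZ c1,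
      ex_add μ J χ cB c5, ← hz, ← hzx, ← hzr, ← heβ, ← hbw, ← hrw1]
  -- lower bound of m1
  have hm1pos : 0 < m1 := by
    rw [hm1]
    have h3 := ex_jensen μ J χ (t := t) cD
    have h4 : (fun x => Real.exp (D x)) = W := by ext x; rw [hWD]
    rw [h4] at h3
    exact (Real.exp_pos _).trans_le h3
  have hinv : 1 / m1 ≤ k * M := by
    have h3 := ex_jensen μ J χ (t := t) cD
    have h4 : (fun x => Real.exp (D x)) = W := by ext x; rw [hWD]
    rw [h4, ← hm1] at h3
    have caD : Continuous (fun x => |D x|) := continuous_abs.comp cD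
    have h5 : |ex μ J χ t D| ≤ ex μ J χ t (fun x => |D x|) :=
      ex_abs_le' μ J χ cD caD fun x => le_rfl
    have h6 : 1 / m1 ≤ Real.exp (- ex μ J χ t D) := by
      rw [Real.exp_neg, ← one_div]
      exact one_div_le_one_div_of_le (Real.exp_pos _) h3
    have h7 : - ex μ J χ t D ≤ ex μ J χ t (fun x => |D x|) := (neg_le_abs _).trans h5
    have h8 := ex_jensen μ J χ (t := t) caD
    have h9 : ex μ J χ t (fun x => Real.exp |D x|) ≤ k * M := by
      have c1 : Continuous (fun x => Real.exp |D x|) :=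
        Real.continuous_exp.comp (continuous_abs.comp cD)
      have c2 : Continuous (fun x => k * g x) := continuous_const.mul cg
      have h10 := ex_mono μ J χ (t := t) c1 c2 peD'
      refine h10.trans ?_
      rw [ex_const_mul]
      refine mul_le_mul_of_nonneg_left ?_ hk0
      have := hgM 1 (by norm_num)
      simp only [pow_one] at this
      exact this
    exact h6.trans ((Real.exp_le_exp.2 h7).trans (h8.trans h9))
  -- bounds of the terms
  have b1 : |m1 - 1| ≤ ρ * k * M := by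
    rw [← e1m]
    exact bound _ cW1 (ρ * k) 2 (by positivity) (by norm_num) pW1
  have b2 : |z| ≤ lam * M := by
    rw [hz]
    exact bound _ cZ lam 1 hlam0.le (by norm_num) fun x => by rw [pow_one]; exact pZ x
  have b3 : |xa| ≤ ρ * M := by
    rw [hxa]
    exact bound _ cX ρ 1 hρ.le (by norm_num) fun x => by rw [pow_one]; exact pX x
  have b4 : |zx| ≤ lam * ρ * M := by
    rw [hzx]
    exact bound _ cZX (lam * ρ) 1 (by positivity) (by norm_num)
      fun x => by rw [pow_one]; exact pZX x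
  have b5 : |r2| ≤ 2 * k * ρ ^ 2 * M := by
    rw [hr2]
    exact bound _ cR2 (2 * k * ρ ^ 2) 3 (by positivity) (by norm_num) pR2
  have b6 : |zr| ≤ lam * (2 * k * ρ ^ 2) * M := by
    rw [hzr]
    refine bound _ cZR (lam * (2 * k * ρ ^ 2)) 4 (by positivity) (by norm_num) fun x => ?_
    rw [abs_mul]
    refine (mul_le_mul (pZ x) (pR2 x) (abs_nonneg _) (by have := pg0 x; positivity)).trans
      (le_of_eq ?_)
    ring
  have b7 : |rw1| ≤ c * ρ ^ 2 * k * M := by
    rw [hrw1]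
    refine bound _ cRW (c * ρ ^ 2 * k) 1 (by positivity) (by norm_num) fun x => ?_
    rw [abs_mul, abs_of_nonneg (pW0 x), pow_one]
    refine (mul_le_mul (pR x) (pW x) (pW0 x) (by positivity)).trans (le_of_eq ?_)
    ring
  have b8 : |bw| ≤ c * (lam * ρ) * (ρ * k) * M := by
    rw [hbw]
    refine bound _ cBW (c * (lam * ρ) * (ρ * k)) 2 (by positivity) (by norm_num) fun x => ?_
    rw [abs_mul]
    refine (mul_le_mul (pβ x) (pW1 x) (abs_nonneg _) (by positivity)).trans (le_of_eq ?_)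
    ring
  have b9 : |eβ| ≤ c * (lam * ρ) := by
    rw [heβ]
    exact ex_abs_le μ J χ cB pβ
  rw [eN, ← hm1, ← hz, ← heβ, ← hzx, ← hxa]
  -- the identity
  have hid : (z - zx + zr + (eβ + bw) + rw1) / m1 - z - (eβ - zx + z * xa) =
      ((1 - m1) * (z * xa - zx) + (zr - z * r2) + rw1 + (bw + (1 - m1) * eβ)) * (1 / m1) := by
    have hne : m1 ≠ 0 := hm1pos.ne'
    have h3 : r2 = m1 - 1 + xa := by linarith only [em1]
    rw [h3]
    field_simp
    ring
  rw [hid, abs_mul, abs_of_pos (show 0 < 1 / m1 by positivity)]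
  -- total
  have hlr : 0 ≤ lam * ρ ^ 2 := by positivity
  have t1 : |(1 - m1) * (z * xa - zx)| ≤ 2 * k * (lam * ρ ^ 2) * M ^ 3 := by
    rw [abs_mul, abs_sub_comm]
    have h3 : |z * xa - zx| ≤ 2 * (lam * ρ) * M ^ 2 := by
      refine (abs_sub _ _).trans ?_
      have h4 : |z * xa| ≤ (lam * M) * (ρ * M) := by
        rw [abs_mul]; exact mul_le_mul b2 b3 (abs_nonneg _) (by positivity)
      have h5 : lam * ρ * M ≤ lam * ρ * M ^ 2 := by
        have : M ≤ M ^ 2 := by nlinarith only [hM1]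
        exact mul_le_mul_of_nonneg_left this (by positivity)
      have h6 : (lam * M) * (ρ * M) = lam * ρ * M ^ 2 := by ring
      rw [h6] at h4
      linarith only [h4, h5, b4]
    refine (mul_le_mul b1 h3 (abs_nonneg _) (by positivity)).trans (le_of_eq ?_)
    ring
  have hM23 : M ^ 2 ≤ M ^ 3 := pow_le_pow_right₀ hM1 (by norm_num)
  have hM13 : M ≤ M ^ 3 := by
    calc M = M ^ 1 := (pow_one M).symm
      _ ≤ M ^ 3 := pow_le_pow_right₀ hM1 (by norm_num)
  have t2 : |zr - z * r2| ≤ 4 * k * (lam * ρ ^ 2) * M ^ 3 := by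
    refine (abs_sub _ _).trans ?_
    have h4 : |z * r2| ≤ (lam * M) * (2 * k * ρ ^ 2 * M) := by
      rw [abs_mul]; exact mul_le_mul b2 b5 (abs_nonneg _) (by positivity)
    have h5 : lam * (2 * k * ρ ^ 2) * M ≤ lam * (2 * k * ρ ^ 2) * M ^ 3 :=
      mul_le_mul_of_nonneg_left hM13 (by positivity)
    have h6 : (lam * M) * (2 * k * ρ ^ 2 * M) = lam * (2 * k * ρ ^ 2) * M ^ 2 := by ring
    have h7 : lam * (2 * k * ρ ^ 2) * M ^ 2 ≤ lam * (2 * k * ρ ^ 2) * M ^ 3 :=
      mul_le_mul_of_nonneg_left hM23 (by positivity)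
    rw [h6] at h4
    have h8 : 4 * k * (lam * ρ ^ 2) * M ^ 3 = lam * (2 * k * ρ ^ 2) * M ^ 3 +
      lam * (2 * k * ρ ^ 2) * M ^ 3 := by ring
    rw [h8]
    linarith only [h4, h5, h7, b6]
  have hkk : k ≤ k ^ 2 := by nlinarith only [hk1]
  have t3 : |rw1| ≤ k ^ 2 * (lam * ρ ^ 2) * M ^ 3 := by
    refine b7.trans ?_
    have h3 : c * ρ ^ 2 * k ≤ k ^ 2 * (lam * ρ ^ 2) := by
      have h4 : c * k ≤ k * k := mul_le_mul_of_nonneg_right hkc hk0
      have h5 : ρ ^ 2 ≤ lam * ρ ^ 2 := le_mul_of_one_le_left (by positivity) hlam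
      calc c * ρ ^ 2 * k = (c * k) * ρ ^ 2 := by ring
        _ ≤ (k * k) * (lam * ρ ^ 2) := mul_le_mul h4 h5 (by positivity) (by positivity)
        _ = _ := by ring
    exact mul_le_mul h3 hM13 hM0 (by positivity)
  have t4 : |bw + (1 - m1) * eβ| ≤ 2 * k ^ 2 * (lam * ρ ^ 2) * M ^ 3 := by
    refine (abs_add_le _ _).trans ?_
    have h3 : |(1 - m1) * eβ| ≤ (ρ * k * M) * (c * (lam * ρ)) := by
      rw [abs_mul, abs_sub_comm]
      exact mul_le_mul b1 b9 (abs_nonneg _) (by positivity)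
    have h4 : c * (lam * ρ) * (ρ * k) * M ≤ k ^ 2 * (lam * ρ ^ 2) * M ^ 3 := by
      have h5 : c * k ≤ k * k := mul_le_mul_of_nonneg_right hkc hk0
      calc c * (lam * ρ) * (ρ * k) * M = (c * k) * (lam * ρ ^ 2) * M := by ring
        _ ≤ (k * k) * (lam * ρ ^ 2) * M ^ 3 :=
          mul_le_mul (mul_le_mul_of_nonneg_right h5 hlr) hM13 hM0 (by positivity)
        _ = _ := by ring
    have h6 : (ρ * k * M) * (c * (lam * ρ)) = c * (lam * ρ) * (ρ * k) * M := by ring
    rw [h6] at h3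
    linarith only [h3, h4, b8]
  have tot : |(1 - m1) * (z * xa - zx) + (zr - z * r2) + rw1 + (bw + (1 - m1) * eβ)| ≤
      9 * k ^ 2 * (lam * ρ ^ 2) * M ^ 3 := by
    have a1 := abs_add_le ((1 - m1) * (z * xa - zx) + (zr - z * r2) + rw1) (bw + (1 - m1) * eβ)
    have a2 := abs_add_le ((1 - m1) * (z * xa - zx) + (zr - z * r2)) rw1
    have a3 := abs_add_le ((1 - m1) * (z * xa - zx)) (zr - z * r2)
    have h3 : k * (lam * ρ ^ 2) * M ^ 3 ≤ k ^ 2 * (lam * ρ ^ 2) * M ^ 3 :=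
      mul_le_mul_of_nonneg_right (mul_le_mul_of_nonneg_right hkk hlr) (by positivity)
    have h4 : 9 * k ^ 2 * (lam * ρ ^ 2) * M ^ 3 = 9 * (k ^ 2 * (lam * ρ ^ 2) * M ^ 3) := by ring
    have h5 : 2 * k * (lam * ρ ^ 2) * M ^ 3 = 2 * (k * (lam * ρ ^ 2) * M ^ 3) := by ring
    have h6 : 4 * k * (lam * ρ ^ 2) * M ^ 3 = 4 * (k * (lam * ρ ^ 2) * M ^ 3) := by ring
    have h7 : 2 * k ^ 2 * (lam * ρ ^ 2) * M ^ 3 = 2 * (k ^ 2 * (lam * ρ ^ 2) * M ^ 3) := by ring
    rw [h4]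
    rw [h5] at t1
    rw [h6] at t2
    rw [h7] at t4
    linarith only [a1, a2, a3, t1, t2, t3, t4, h3]
  have hM4 : M ^ 4 ≤ ex μ J χ t (fun x => g x ^ 16) := by
    rw [hM]
    refine (ex_pow_four μ J χ (t := t) cg4 fun x => by have := pg0 x; positivity).trans ?_
    have e1 : (fun x => (g x ^ 4) ^ 4) = fun x => g x ^ 16 := by ext x; ring
    rw [e1]
  calc |(1 - m1) * (z * xa - zx) + (zr - z * r2) + rw1 + (bw + (1 - m1) * eβ)| * (1 / m1)
      ≤ (9 * k ^ 2 * (lam * ρ ^ 2) * M ^ 3) * (k * M) :=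
        mul_le_mul tot hinv (by positivity) (by positivity)
    _ = 9 * k ^ 3 * (lam * ρ ^ 2) * M ^ 4 := by ring
    _ ≤ _ := mul_le_mul_of_nonneg_left hM4 (by positivity)

end Ex

end Vale.Agent.P159.UJ.H664
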