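import Vale.Agent.P159.T1.NC.H664.Cell

/-!
One step of the recursion for the vortex ratio (Bdl.B9, `step`) with constants uniform in the
inverse temperature and polynomial in the side of the cell.
-/

set_option linter.all false

open MeasureTheory Filter Topology
open scoped BigOperators

namespace Vale.Agent.P159.UJ.H664

theorem Sb_eq (b : ℝ) (l : ℕ) : Sb b l = 2 * b * (l : ℝ) ^ 2 := by
  unfold Sb
  rw [Finset.sum_const, Finset.card_univ, nsmul_eq_mul]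
  have : Fintype.card (BI l) = 4 * l ^ 2 := by
    unfold BI
    simp only [Fintype.card_prod, Fintype.card_fin, Fintype.card_bool]
    ring
  rw [this]
  push_cast
  ring

theorem Sb_nonneg {b : ℝ} (hb : 0 ≤ b) (l : ℕ) : 0 ≤ Sb b l := by
  rw [Sb_eq]; positivity

theorem c4_nonneg {S : ℝ} (hS : 0 ≤ S) : 0 ≤ c4 S := by unfold c4; positivity

theorem c4_mono {S S' : ℝ} (hS : 0 ≤ S) (h : S ≤ S') : c4 S ≤ c4 S' := by
  have hS' : 0 ≤ S' := hS.trans h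
  unfold c4; gcongr

theorem K4_nonneg {S : ℝ} (hS : 0 ≤ S) : 0 ≤ K4 S := by
  have := c4_nonneg hS
  unfold K4; positivity

theorem K4_mono {S S' : ℝ} (hS : 0 ≤ S) (h : S ≤ S') : K4 S ≤ K4 S' := by
  have h1 := c4_nonneg hS
  have h2 := c4_mono hS h
  have hS' : 0 ≤ S' := hS.trans h
  unfold K4
  have h3 : 0 ≤ c4 S' := h1.trans h2
  gcongr

theorem cC_nonneg {b : ℝ} (hb : 0 ≤ b) (l : ℕ) : 0 ≤ cC b l := by
  have h1 := Sb_nonneg hb l
  have h2 := K4_nonneg h1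
  unfold cC; positivity

theorem cY_pos {b : ℝ} (hb : 0 ≤ b) (l : ℕ) : 0 < cY b l := by
  have h1 := Sb_nonneg hb l
  have h2 := c4_nonneg h1
  unfold cY; positivity

/-- energy of the vortex -/
theorem g_q : ∃ C2 C1 s0 : ℝ, 1 ≤ C2 ∧ 1 ≤ C1 ∧ ∀ b : ℝ, 0 < b → ∀ l K M : ℕ, 1 ≤ l → 1 ≤ K →
    ∀ m i j : ℕ, i < M → j < M → max s0 (2 * (NN K M : ℝ) ^ 2 *
      (2 * (Sb b l + 2 * Sb b l ^ 2)) * C1 ^ 2) ≤ ((l * m : ℕ) : ℝ) →
      Real.exp (-(Real.pi * stiff l b * Real.log (NN K M)) - (b * C2 / 2 + 1)) * yy b (l * m) ≤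
      (∏ k ∈ outer m K M i j, WB b l (cor l k) (alp l m K M i j) / WB b l (cor l k) 0) *
      (WB b (l * m) (cnr l m K M i j) (alp l m K M i j) / WB b (l * m) (cnr l m K M i j) 0) := by
  obtain ⟨C1, s1, hC1, hs1, hinc⟩ := geo_inc
  obtain ⟨C2, s2, hC2, hs2, hen⟩ := geo_energy
  refine ⟨C2, C1, max (max s1 s2) 1, hC2, hC1, fun b hb l K M hl hK m i j hi hj hs' => ?_⟩
  obtain ⟨C, hCdef⟩ : ∃ C : ℝ, C = 2 * (Sb b l + 2 * Sb b l ^ 2) := ⟨_, rfl⟩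
  have hSb0 : 0 ≤ Sb b l := by unfold Sb; positivity
  have hC : 0 ≤ C := by rw [hCdef]; positivity
  have hcell := weight_q hb hl
  rw [← hCdef] at hcell hs'
  have hs : max (max s1 s2) (max 1 (2 * (NN K M : ℝ) ^ 2 * C * C1 ^ 2)) ≤
      ((l * m : ℕ) : ℝ) :=
    max_le ((le_max_left _ _).trans ((le_max_left _ _).trans hs'))
      (max_le ((le_max_right _ _).trans ((le_max_left _ _).trans hs'))
        ((le_max_right _ _).trans hs'))
  have hsa : s1 ≤ ((l * m : ℕ) : ℝ) := (le_max_left _ _).trans ((le_max_left _ _).trans hs)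
  have hsb : s2 ≤ ((l * m : ℕ) : ℝ) := (le_max_right _ _).trans ((le_max_left _ _).trans hs)
  have hsc : 1 ≤ ((l * m : ℕ) : ℝ) := (le_max_left _ _).trans ((le_max_right _ _).trans hs)
  have hsd : 2 * (NN K M : ℝ) ^ 2 * C * C1 ^ 2 ≤ ((l * m : ℕ) : ℝ) :=
    (le_max_right _ _).trans ((le_max_right _ _).trans hs)
  have hs2' : 2 ≤ l * m := by
    have : (2 : ℝ) ≤ ((l * m : ℕ) : ℝ) := hs1.trans hsa
    exact_mod_cast this
  rw [h3_core hs2' hK hi hj]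
  refine mul_le_mul_of_nonneg_right ?_ (yy_nonneg b _)
  obtain ⟨s, hsdef⟩ : ∃ s : ℝ, s = ((l * m : ℕ) : ℝ) := ⟨_, rfl⟩
  rw [← hsdef] at hsa hsb hsc hsd
  have hs0 : 0 < s := by linarith only [hs2, hsb]
  have hl0 : (0 : ℝ) < l := by exact_mod_cast (by omega : 0 < l)
  have ht0 := h3_stiff_nonneg hb hl
  have htb := h3_stiff_le hb hl
  obtain ⟨t, ht⟩ : ∃ t : ℝ, t = stiff l b := ⟨_, rfl⟩
  rw [← ht] at ht0 htb ⊢
  have hfac : ∀ k ∈ outer m K M i j,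
      Real.exp (-(t / 4 * ∑ e, ainc l m K M i j k e ^ 2) -
        C * (C1 / s * (C1 * l / s ^ 2) + (C1 * l / s ^ 2) ^ 2)) ≤
      WB b l (cor l k) (alp l m K M i j) / WB b l (cor l k) 0 := by
    intro k hk
    have hI := hinc l m K M i j hl hK hi hj (by rw [← hsdef]; exact hsa) k hk
    rw [← hsdef] at hI
    rw [ht]
    exact hcell (cor l k) (alp l m K M i j) (ainc l m K M i j k) (C1 / s) (C1 * l / s ^ 2)
      (by positivity) (by positivity) (fun e => h3_coe hs2' hK hi hj hk e)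
      (fun e => (hI e).1) (fun e e' he => (hI e).2 e' he)
  have hprod : ∏ k ∈ outer m K M i j, Real.exp (-(t / 4 * ∑ e, ainc l m K M i j k e ^ 2) -
        C * (C1 / s * (C1 * l / s ^ 2) + (C1 * l / s ^ 2) ^ 2)) ≤
      ∏ k ∈ outer m K M i j, WB b l (cor l k) (alp l m K M i j) / WB b l (cor l k) 0 :=
    Finset.prod_le_prod (fun k _ => (Real.exp_pos _).le) hfac
  refine le_trans ?_ hprod
  rw [← Real.exp_sum, Real.exp_le_exp, Finset.sum_sub_distrib, Finset.sum_neg_distrib,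
    ← Finset.mul_sum, Finset.sum_const, nsmul_eq_mul]
  have hE := hen l m K M i j hl hK hi hj (by rw [← hsdef]; exact hsb)
  have hE2 : t / 4 * ∑ k ∈ outer m K M i j, ∑ e, ainc l m K M i j k e ^ 2 ≤
      Real.pi * t * Real.log (NN K M) + b * C2 / 2 := by
    have h1 : t / 4 * ∑ k ∈ outer m K M i j, ∑ e, ainc l m K M i j k e ^ 2 =
        t / 2 * (1 / 2 * ∑ k ∈ outer m K M i j, ∑ e, ainc l m K M i j k e ^ 2) := by ring
    rw [h1]
    have h2 : t / 2 * (1 / 2 * ∑ k ∈ outer m K M i j, ∑ e, ainc l m K M i j k e ^ 2) ≤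
        t / 2 * (2 * Real.pi * Real.log (NN K M) + C2) :=
      mul_le_mul_of_nonneg_left hE (by linarith only [ht0])
    have h3 : t / 2 * C2 ≤ b / 2 * C2 := mul_le_mul_of_nonneg_right (by linarith only [htb]) (by linarith only [hC2])
    nlinarith only [h2, h3]
  have hcard : ((outer m K M i j).card : ℝ) *
      (C * (C1 / s * (C1 * l / s ^ 2) + (C1 * l / s ^ 2) ^ 2)) ≤ 1 := by
    have h1 := h3_card (m := m) (K := K) (M := M) (i := i) (j := j)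
    have hnn : 0 ≤ C * (C1 / s * (C1 * l / s ^ 2) + (C1 * l / s ^ 2) ^ 2) := by (clear * - hC hC1 hsc hl; positivity)
    refine (mul_le_mul_of_nonneg_right h1 hnn).trans ?_
    obtain ⟨N, hN⟩ : ∃ N : ℝ, N = ((NN K M : ℕ) : ℝ) := ⟨_, rfl⟩
    rw [← hN] at hsd ⊢
    have hm : (m : ℝ) = s / l := by
      rw [hsdef]
      push_cast
      (clear * - hl; field_simp)
    have h2 : ((m : ℝ) * N) ^ 2 * (C * (C1 / s * (C1 * l / s ^ 2) + (C1 * l / s ^ 2) ^ 2)) =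
        N ^ 2 * C * C1 ^ 2 * (1 / (l * s) + 1 / s ^ 2) := by
      rw [hm]
      (clear * - hl hsc hC1; field_simp)
    rw [h2]
    have hl1 : (1 : ℝ) ≤ l := by exact_mod_cast hl
    have h3 : 1 / ((l : ℝ) * s) ≤ 1 / s := by
      apply one_div_le_one_div_of_le hs0
      nlinarith only [hsdef, hl1]
    have h4 : 1 / s ^ 2 ≤ 1 / s := by
      apply one_div_le_one_div_of_le hs0
      nlinarith only [hsc]
    have h5 : 0 ≤ N ^ 2 * C * C1 ^ 2 := by (clear * - hC hC1; positivity)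
    calc N ^ 2 * C * C1 ^ 2 * (1 / (l * s) + 1 / s ^ 2)
        ≤ N ^ 2 * C * C1 ^ 2 * (1 / s + 1 / s) :=
          mul_le_mul_of_nonneg_left (add_le_add h3 h4) h5
      _ = (2 * N ^ 2 * C * C1 ^ 2) / s := by ring
      _ ≤ 1 := by
          rw [div_le_one hs0]
          exact hsd
  linarith only [hE2, hcard]

/-- polynomial bound for the constants of a cell -/
theorem c4_scale {β X : ℝ} (hβ : 0 ≤ β) (hX : 1 ≤ X) : c4 (β * X) ≤ c4 β * X ^ 3 := by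
  have hX0 : 0 ≤ X := by linarith only [hX]
  have h2 : X ≤ X ^ 2 := by nlinarith only [hX]
  have h3 : X ^ 2 ≤ X ^ 3 := by nlinarith only [hX, h2, sq_nonneg X]
  have h13 : X ≤ X ^ 3 := h2.trans h3
  have a1 : 3 * (β * X) ≤ 3 * β * X ^ 3 := by
    have := mul_le_mul_of_nonneg_left h13 (by positivity : 0 ≤ 3 * β)
    linarith only [this]
  have a2 : 16 * (β * X) ^ 2 + 3 * (β * X) ≤ (16 * β ^ 2 + 3 * β) * X ^ 2 := by
    have := mul_le_mul_of_nonneg_left h2 (by positivity : 0 ≤ 3 * β)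
    nlinarith only [this]
  have a3 : 1 + β * X ≤ (1 + β) * X := by nlinarith only [hX, hβ]
  have a4 : (16 * (β * X) ^ 2 + 3 * (β * X)) * (1 + β * X) ≤
      ((16 * β ^ 2 + 3 * β) * X ^ 2) * ((1 + β) * X) :=
    mul_le_mul a2 a3 (by positivity) (by positivity)
  have a5 : 4 * (β * X) ^ 2 ≤ 4 * β ^ 2 * X ^ 3 := by
    have := mul_le_mul_of_nonneg_left h3 (by positivity : 0 ≤ 4 * β ^ 2)
    nlinarith only [this]
  unfold c4
  have e : (3 * β + 2 * (16 * β ^ 2 + 3 * β) * (1 + β) + 4 * β ^ 2) * X ^ 3 =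
      3 * β * X ^ 3 + 2 * (((16 * β ^ 2 + 3 * β) * X ^ 2) * ((1 + β) * X)) + 4 * β ^ 2 * X ^ 3 := by
    ring
  rw [e]
  linarith only [a1, a4, a5]

theorem K4_scale {β X : ℝ} (hβ : 0 ≤ β) (hX : 1 ≤ X) : K4 (β * X) ≤ K4 β * X ^ 5 := by
  have hX0 : 0 ≤ X := by linarith only [hX]
  have hc := c4_scale hβ hX
  have hc0 := c4_nonneg hβ
  have hc1 : 0 ≤ c4 (β * X) := c4_nonneg (by positivity)
  have h35 : X ^ 3 ≤ X ^ 5 := pow_le_pow_right₀ hX (by norm_num)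
  have h1 : (β * X) + (β * X) ^ 2 ≤ (β + β ^ 2) * X ^ 2 := by
    have : X ≤ X ^ 2 := by nlinarith only [hX]
    have := mul_le_mul_of_nonneg_left this hβ
    nlinarith only [this]
  have a1 : c4 (β * X) ≤ c4 β * X ^ 5 := hc.trans (mul_le_mul_of_nonneg_left h35 hc0)
  have a2 : (β * X) * ((β * X) + (β * X) ^ 2) ≤ β * (β + β ^ 2) * X ^ 5 := by
    calc (β * X) * ((β * X) + (β * X) ^ 2) ≤ (β * X) * ((β + β ^ 2) * X ^ 2) :=
          mul_le_mul_of_nonneg_left h1 (by positivity)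
      _ = β * (β + β ^ 2) * X ^ 3 := by ring
      _ ≤ _ := mul_le_mul_of_nonneg_left h35 (by positivity)
  have a3 : (β * X) ^ 3 ≤ β ^ 3 * X ^ 5 := by
    rw [mul_pow]
    exact mul_le_mul_of_nonneg_left h35 (by positivity)
  have a4 : c4 (β * X) * (2 * (β * X) + 2 * (β * X) ^ 2) ≤ c4 β * (2 * β + 2 * β ^ 2) * X ^ 5 := by
    calc c4 (β * X) * (2 * (β * X) + 2 * (β * X) ^ 2)
        ≤ (c4 β * X ^ 3) * (2 * ((β + β ^ 2) * X ^ 2)) :=
          mul_le_mul hc (by linarith only [h1]) (by positivity) (by positivity)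
      _ = _ := by ring
  unfold K4
  have e : 2 * (c4 β + β * (β + β ^ 2) + β ^ 3 + c4 β * (2 * β + 2 * β ^ 2)) * X ^ 5 =
      2 * (c4 β * X ^ 5 + β * (β + β ^ 2) * X ^ 5 + β ^ 3 * X ^ 5 +
        c4 β * (2 * β + 2 * β ^ 2) * X ^ 5) := by ring
  rw [e]
  linarith only [a1, a2, a3, a4]

theorem poly_const {B : ℝ} (hB : 0 < B) : ∃ A1 : ℝ, 1 ≤ A1 ∧ ∀ b : ℝ, 0 < b → b ≤ B →
    ∀ l : ℕ, 1 ≤ l → cC b l ≤ A1 * (l : ℝ) ^ 10 ∧ 1 / cY b l ≤ A1 * (l : ℝ) ^ 10 ∧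
      2 * (Sb b l + 2 * Sb b l ^ 2) ≤ A1 * (l : ℝ) ^ 10 := by
  obtain ⟨β, hβdef⟩ : ∃ β : ℝ, β = 2 * B := ⟨_, rfl⟩
  have hβ : 0 ≤ β := by rw [hβdef]; positivity
  have k0 := K4_nonneg hβ
  have c0 := c4_nonneg hβ
  refine ⟨1 + (K4 β + (β + 2 * β ^ 2)) + (2 + 6 * β + 2 * c4 β) + 2 * (β + 2 * β ^ 2), by
    have h1 : 0 ≤ β + 2 * β ^ 2 := by positivity
    linarith only [h1, k0, c0, hβ], ?_⟩
  intro b hb hbB l hl
  have hlR : (1 : ℝ) ≤ l := by exact_mod_cast hl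
  obtain ⟨X, hX⟩ : ∃ X : ℝ, X = (l : ℝ) ^ 2 := ⟨_, rfl⟩
  have hX1 : 1 ≤ X := by rw [hX]; exact one_le_pow₀ hlR
  have hX0 : 0 ≤ X := by linarith only [hX1]
  have e10 : (l : ℝ) ^ 10 = X ^ 5 := by rw [hX]; ring
  have hS : Sb b l ≤ β * X := by
    rw [Sb_eq, hX, hβdef]
    exact mul_le_mul_of_nonneg_right (by linarith only [hbB]) (by positivity)
  have hS0 := Sb_nonneg hb.le l
  have h5 : (1 : ℝ) ≤ X ^ 5 := one_le_pow₀ hX1
  have h15 : X ≤ X ^ 5 := by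
    calc X = X ^ 1 := (pow_one X).symm
      _ ≤ X ^ 5 := pow_le_pow_right₀ hX1 (by norm_num)
  have h25 : X ^ 2 ≤ X ^ 5 := pow_le_pow_right₀ hX1 (by norm_num)
  have h35 : X ^ 3 ≤ X ^ 5 := pow_le_pow_right₀ hX1 (by norm_num)
  have s1 : Sb b l + 2 * Sb b l ^ 2 ≤ (β + 2 * β ^ 2) * X ^ 5 := by
    have f1 : Sb b l ^ 2 ≤ (β * X) ^ 2 := pow_le_pow_left₀ hS0 hS 2
    have f2 := mul_le_mul_of_nonneg_left h15 hβ
    have f3 := mul_le_mul_of_nonneg_left h25 (by positivity : 0 ≤ 2 * β ^ 2)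
    nlinarith only [f1, f2, f3, hS]
  have s2 : K4 (Sb b l) ≤ K4 β * X ^ 5 := (K4_mono hS0 hS).trans (K4_scale hβ hX1)
  have s3 : c4 (Sb b l) ≤ c4 β * X ^ 5 :=
    ((c4_mono hS0 hS).trans (c4_scale hβ hX1)).trans (mul_le_mul_of_nonneg_left h35 c0)
  have p0 : 0 ≤ (β + 2 * β ^ 2) * X ^ 5 := by positivity
  have p1 : 0 ≤ K4 β * X ^ 5 := by positivity
  have p2 : 0 ≤ (2 + 6 * β + 2 * c4 β) * X ^ 5 := by positivity
  have p3 : 0 ≤ X ^ 5 := by positivity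
  have e : (1 + (K4 β + (β + 2 * β ^ 2)) + (2 + 6 * β + 2 * c4 β) + 2 * (β + 2 * β ^ 2)) * X ^ 5 =
      X ^ 5 + (K4 β * X ^ 5 + (β + 2 * β ^ 2) * X ^ 5) + (2 + 6 * β + 2 * c4 β) * X ^ 5 +
        2 * ((β + 2 * β ^ 2) * X ^ 5) := by ring
  rw [e10, e]
  refine ⟨?_, ?_, ?_⟩
  · unfold cC
    linarith only [s1, s2, p0, p1, p2, p3]
  · have e2 : 1 / cY b l = 2 + 6 * Sb b l + 2 * c4 (Sb b l) := by
      unfold cY
      rw [one_div_one_div]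
    rw [e2]
    have f2 := mul_le_mul_of_nonneg_left h15 hβ
    have e3 : (2 + 6 * β + 2 * c4 β) * X ^ 5 = 2 * X ^ 5 + 6 * (β * X ^ 5) + 2 * (c4 β * X ^ 5) := by
      ring
    rw [e3] at p2 ⊢
    linarith only [s3, p0, p1, p3, f2, hS, h5]
  · linarith only [s1, p0, p1, p2, p3]

/-- one step of the recursion, quantitative -/
theorem stepQ (B : ℝ) (hB : 0 < B) : ∃ (C1 : ℝ) (K : ℕ), 0 ≤ C1 ∧ 1 ≤ K ∧ ∀ M : ℕ, 1 ≤ M →
    ∃ (δ0 A : ℝ), 0 < δ0 ∧ 1 ≤ A ∧ ∀ b : ℝ, 0 < b → b ≤ B → ∀ l m : ℕ, 1 ≤ l →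
      1 / (2 * Real.pi) ≤ stiff l b → A * (l : ℝ) ^ 11 ≤ ((l * m : ℕ) : ℝ) →
      stiff l b - stiff (l * m * NN K M) b ≤ δ0 →
      (M : ℝ) ^ 2 / 2 * (Real.exp (-(Real.pi * stiff l b * Real.log (NN K M)) - C1) *
        yy b (l * m)) ≤ yy b (l * m * NN K M) := by
  obtain ⟨C0, S0, hC0, hS0, haff⟩ := aff_q
  obtain ⟨C2, Cg, s0, hC2, hCg, hg⟩ := g_q
  have hpi := Real.pi_pos
  -- choice of K
  obtain ⟨A, hA⟩ : ∃ A : ℝ, A = 2 * Real.sqrt (2 * Real.exp B) := ⟨_, rfl⟩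
  have hA0 : 0 ≤ A := by rw [hA]; positivity
  have htend : Tendsto (fun K : ℕ => Real.exp (-((K : ℝ) / 96))) atTop (𝓝 0) := by
    have h1 : Tendsto (fun K : ℕ => (K : ℝ) / 96) atTop atTop :=
      tendsto_natCast_atTop_atTop.atTop_div_const (by norm_num)
    exact Real.tendsto_exp_neg_atTop_nhds_zero.comp h1
  have hev1 : ∀ᶠ K : ℕ in atTop, Real.exp (-((K : ℝ) / 96)) < min (1 / 10) (1 / (10 * A + 1)) :=
    htend.eventually (eventually_lt_nhds (by (clear * - hA0; positivity)))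
  have hev2 : ∀ᶠ K : ℕ in atTop, C0 ≤ Real.pi * K := by
    have h1 : Tendsto (fun K : ℕ => Real.pi * (K : ℝ)) atTop atTop :=
      tendsto_natCast_atTop_atTop.const_mul_atTop hpi
    exact h1.eventually (eventually_ge_atTop C0)
  obtain ⟨K, hK1, hK2, hK3⟩ := (hev1.and (hev2.and (eventually_ge_atTop 1))).exists
  obtain ⟨ρ, hρ⟩ : ∃ ρ, ρ = Real.exp (-((K : ℝ) / 96)) := ⟨_, rfl⟩
  rw [← hρ] at hK1
  have hρ0 : 0 < ρ := by rw [hρ]; exact Real.exp_pos _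
  have hρ1 : ρ ≤ 1 / 10 := (hK1.le).trans (min_le_left _ _)
  have hρ2 : 5 * A * ρ ≤ 1 / 2 := by
    have h1 : ρ ≤ 1 / (10 * A + 1) := (hK1.le).trans (min_le_right _ _)
    rw [le_div_iff₀ (by (clear * - hA0; positivity))] at h1
    nlinarith only [hρ0, h1]
  refine ⟨B * C2 / 2 + 1, K, by positivity, hK3, ?_⟩
  intro M hM
  have hMR : (0 : ℝ) < M := by exact_mod_cast hM
  obtain ⟨N, hN⟩ : ∃ N : ℝ, N = (NN K M : ℝ) := ⟨_, rfl⟩
  have hN1 : 1 ≤ N := by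
    rw [hN]
    have : 1 ≤ NN K M := by unfold NN; omega
    exact_mod_cast this
  have hc : 0 < (576 + 96 * C0) * N ^ 2 := by (clear * - hC0 hN1; positivity)
  -- the constants of the cells are bounded by a polynomial in the side
  obtain ⟨A1, hA11, hA1⟩ : ∃ A1 : ℝ, 1 ≤ A1 ∧ ∀ b : ℝ, 0 < b → b ≤ B → ∀ l : ℕ, 1 ≤ l →
      cC b l ≤ A1 * (l : ℝ) ^ 10 ∧ 1 / cY b l ≤ A1 * (l : ℝ) ^ 10 ∧
      2 * (Sb b l + 2 * Sb b l ^ 2) ≤ A1 * (l : ℝ) ^ 10 := poly_const hB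
  obtain ⟨AA, hAA⟩ : ∃ AA : ℝ, AA = S0 + |s0| + C0 * A1 + 2 * N ^ 2 * A1 * Cg ^ 2 +
      24 * N ^ 2 * (A1 * (C0 + C0 ^ 2)) * (32 * (M : ℝ) ^ 4) := ⟨_, rfl⟩
  have t1 : 0 ≤ |s0| := abs_nonneg _
  have t2 : 0 ≤ C0 * A1 := by positivity
  have t3 : 0 ≤ 2 * N ^ 2 * A1 * Cg ^ 2 := by positivity
  have t4 : 0 ≤ 24 * N ^ 2 * (A1 * (C0 + C0 ^ 2)) * (32 * (M : ℝ) ^ 4) := by positivity
  refine ⟨1 / (32 * (M : ℝ) ^ 4 * ((576 + 96 * C0) * N ^ 2)), AA,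
    by (clear * - hM hC0 hN1; positivity), by linarith only [hAA, t1, t2, t3, t4, hS0], ?_⟩
  intro b hb hbB l m hl hst hm hδ'
  obtain ⟨q1, q2, q3⟩ := hA1 b hb hbB l hl
  have hcC := cC_nonneg hb.le l
  have hcY := cY_pos hb.le l
  have hlR : (1 : ℝ) ≤ l := by exact_mod_cast hl
  have hl11 : (1 : ℝ) ≤ (l : ℝ) ^ 11 := one_le_pow₀ hlR
  have hl10 : (l : ℝ) ^ 10 ≤ (l : ℝ) ^ 11 := pow_le_pow_right₀ hlR (by norm_num)
  have key : ∀ x : ℝ, 0 ≤ x → x ≤ AA → x * (l : ℝ) ^ 11 ≤ ((l * m : ℕ) : ℝ) := fun x _ hx =>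
    (mul_le_mul_of_nonneg_right hx (by positivity)).trans hm
  have hS0' : S0 ≤ ((l * m : ℕ) : ℝ) := by
    have := key S0 (by linarith only [hS0]) (by linarith only [hAA, t1, t2, t3, t4])
    have h2 : S0 * 1 ≤ S0 * (l : ℝ) ^ 11 := mul_le_mul_of_nonneg_left hl11 (by linarith only [hS0])
    linarith only [this, h2]
  have hs0' : s0 ≤ ((l * m : ℕ) : ℝ) := by
    have := key |s0| t1 (by linarith only [hAA, hS0, t2, t3, t4])
    have h2 : |s0| * 1 ≤ |s0| * (l : ℝ) ^ 11 := mul_le_mul_of_nonneg_left hl11 t1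
    linarith only [this, h2, le_abs_self s0]
  have hY' : C0 / cY b l ≤ ((l * m : ℕ) : ℝ) := by
    have := key (C0 * A1) t2 (by linarith only [hAA, hS0, t1, t3, t4])
    refine le_trans ?_ this
    rw [div_eq_mul_one_div, mul_assoc]
    refine mul_le_mul_of_nonneg_left (q2.trans ?_) (by linarith only [hC0])
    exact mul_le_mul_of_nonneg_left hl10 (by linarith only [hA11])
  have hG' : 2 * (NN K M : ℝ) ^ 2 * (2 * (Sb b l + 2 * Sb b l ^ 2)) * Cg ^ 2 ≤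
      ((l * m : ℕ) : ℝ) := by
    have := key (2 * N ^ 2 * A1 * Cg ^ 2) t3 (by linarith only [hAA, hS0, t1, t2, t4])
    refine le_trans ?_ this
    rw [← hN]
    have e1 : 2 * (Sb b l + 2 * Sb b l ^ 2) ≤ A1 * (l : ℝ) ^ 11 :=
      q3.trans (mul_le_mul_of_nonneg_left hl10 (by linarith only [hA11]))
    have e2 : 0 ≤ 2 * N ^ 2 * Cg ^ 2 := by positivity
    calc 2 * N ^ 2 * (2 * (Sb b l + 2 * Sb b l ^ 2)) * Cg ^ 2
        = 2 * N ^ 2 * Cg ^ 2 * (2 * (Sb b l + 2 * Sb b l ^ 2)) := by ring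
      _ ≤ 2 * N ^ 2 * Cg ^ 2 * (A1 * (l : ℝ) ^ 11) := mul_le_mul_of_nonneg_left e1 e2
      _ = _ := by ring
  have hA2 := haff b hb l hl hst (cC b l) (cY b l) hcC hcY (cell_q hb hl)
  have hg2 := hg b hb l K M hl hK3
  obtain ⟨Cl, hCldef⟩ : ∃ Cl : ℝ, Cl = cC b l * (C0 * l + C0 ^ 2) := ⟨_, rfl⟩
  have hCl : 0 ≤ Cl := by rw [hCldef]; positivity
  rw [← hCldef] at hA2
  have hm1 : max S0 (C0 / cY b l) ≤ ((l * m : ℕ) : ℝ) := max_le hS0' hY'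
  have hm2 : max s0 (2 * (NN K M : ℝ) ^ 2 * (2 * (Sb b l + 2 * Sb b l ^ 2)) * Cg ^ 2) ≤
      ((l * m : ℕ) : ℝ) := max_le hs0' hG'
  have hm3 : 24 * N ^ 2 * Cl * (32 * (M : ℝ) ^ 4) ≤ ((l * m : ℕ) : ℝ) := by
    have := key _ t4 (by linarith only [hAA, hS0, t1, t2, t3])
    refine le_trans ?_ this
    have e1 : Cl ≤ A1 * (C0 + C0 ^ 2) * (l : ℝ) ^ 11 := by
      rw [hCldef]
      have f1 : C0 * l + C0 ^ 2 ≤ (C0 + C0 ^ 2) * l := by nlinarith only [hlR, hC0, sq_nonneg C0]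
      calc cC b l * (C0 * l + C0 ^ 2) ≤ (A1 * (l : ℝ) ^ 10) * ((C0 + C0 ^ 2) * l) :=
            mul_le_mul q1 f1 (by positivity) (by positivity)
        _ = _ := by ring
    have e2 : 0 ≤ 24 * N ^ 2 * (32 * (M : ℝ) ^ 4) := by positivity
    calc 24 * N ^ 2 * Cl * (32 * (M : ℝ) ^ 4) = 24 * N ^ 2 * (32 * (M : ℝ) ^ 4) * Cl := by ring
      _ ≤ 24 * N ^ 2 * (32 * (M : ℝ) ^ 4) * (A1 * (C0 + C0 ^ 2) * (l : ℝ) ^ 11) :=
        mul_le_mul_of_nonneg_left e1 e2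
      _ = _ := by ring
  have hBb : 2 * Real.sqrt (2 * Real.exp b) ≤ A := by
    rw [hA]
    have := Real.sqrt_le_sqrt (mul_le_mul_of_nonneg_left (Real.exp_le_exp.2 hbB)
      (by norm_num : (0 : ℝ) ≤ 2))
    linarith only [this]
  have hyy0' : 0 ≤ yy b (l * m) := yy_nonneg b _
  have hexp : Real.exp (-(Real.pi * stiff l b * Real.log (NN K M)) - (B * C2 / 2 + 1)) ≤
      Real.exp (-(Real.pi * stiff l b * Real.log (NN K M)) - (b * C2 / 2 + 1)) := by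
    rw [Real.exp_le_exp]
    have : b * C2 ≤ B * C2 := mul_le_mul_of_nonneg_right hbB (by linarith only [hC2])
    linarith only [this]
  have hSl : (4 : ℝ) ≤ S0 := hS0
  have hs0 : (0 : ℝ) < ((l * m : ℕ) : ℝ) := by linarith only [hSl, hS0']
  have hs4n : 4 ≤ l * m := by
    have : (4 : ℝ) ≤ ((l * m : ℕ) : ℝ) := hSl.trans hS0'
    exact_mod_cast this
  have hmpos : 1 ≤ m := by
    rcases Nat.eq_zero_or_pos m with h0 | h0
    · rw [h0, mul_zero] at hs4n; omega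
    · exact h0
  have hNNpos : 1 ≤ NN K M := by unfold NN; omega
  -- the small term
  have hε : Real.sqrt ((576 + 96 * C0) * (NN K M : ℝ) ^ 2 *
      (1 / (32 * (M : ℝ) ^ 4 * ((576 + 96 * C0) * N ^ 2))) +
      24 * (NN K M : ℝ) ^ 2 * Cl / ((l * m : ℕ) : ℝ)) ≤ 1 / (4 * (M : ℝ) ^ 2) := by
    rw [← hN]
    have e1 : (576 + 96 * C0) * N ^ 2 * (1 / (32 * (M : ℝ) ^ 4 * ((576 + 96 * C0) * N ^ 2))) =
        1 / (32 * (M : ℝ) ^ 4) := by
      (clear * - hC0 hN1 hM; field_simp)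
    have e2 : 24 * N ^ 2 * Cl / ((l * m : ℕ) : ℝ) ≤ 1 / (32 * (M : ℝ) ^ 4) := by
      rw [div_le_div_iff₀ hs0 (by positivity)]
      linarith only [hm3]
    rw [e1]
    apply Real.sqrt_le_iff.2
    refine ⟨by positivity, ?_⟩
    have e3 : (1 / (4 * (M : ℝ) ^ 2)) ^ 2 = 1 / (32 * (M : ℝ) ^ 4) + 1 / (32 * (M : ℝ) ^ 4) := by
      field_simp; ring
    rw [e3]
    linarith only [e2]
  set F : ℕ × ℕ → Ginf → ℝ := fun p θ => Real.sqrt (Dn b l m K M p.1 p.2 θ) with hF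
  have cF : ∀ p, Continuous (F p) := fun p =>
    Real.continuous_sqrt.comp (Dn_cont b l m K M p.1 p.2)
  have hlow : ∀ p ∈ posn M, Real.sqrt (Real.exp (-(Real.pi * stiff l b *
      Real.log (NN K M)) - (B * C2 / 2 + 1)) * yy b (l * m)) ≤
      Ev b (l * m * NN K M) (ang (l * m * NN K M) 0) (F p) := by
    intro p hp
    obtain ⟨h1, h2⟩ := mem_posn.1 hp
    refine le_trans (Real.sqrt_le_sqrt ((mul_le_mul_of_nonneg_right hexp hyy0').trans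
      (hg2 m p.1 p.2 h1 h2 hm2))) ?_
    exact sqrt_lower hb.le hl hs4n hK3 h1 h2
  have hdiag : ∀ p ∈ posn M, Ev b (l * m * NN K M) (ang (l * m * NN K M) 0)
      (fun θ => F p θ * F p θ) ≤ 1 := by
    intro p hp
    obtain ⟨h1, h2⟩ := mem_posn.1 hp
    have e1 : (fun θ => F p θ * F p θ) = fun θ => Dn b l m K M p.1 p.2 θ := by
      ext θ
      exact Real.mul_self_sqrt (Dn_pos b l m K M p.1 p.2 θ).le
    rw [e1, Ev_Dn_one hl hs4n hK3 h1 h2]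
  have hoff : ∀ p ∈ posn M, ∀ q ∈ posn M, p ≠ q →
      Ev b (l * m * NN K M) (ang (l * m * NN K M) 0) (fun θ => F p θ * F q θ) ≤
      1 / (2 * (M : ℝ) ^ 2) + A * (ρ ^ ((p.1 : ℤ) - q.1).natAbs *
        ρ ^ ((p.2 : ℤ) - q.2).natAbs) := by
    intro p hp q hq hpq
    obtain ⟨h1, h2⟩ := mem_posn.1 hp
    obtain ⟨h3, h4⟩ := mem_posn.1 hq
    obtain ⟨n1, hn1⟩ : ∃ n1, n1 = ((p.1 : ℤ) - q.1).natAbs := ⟨_, rfl⟩
    obtain ⟨n2, hn2⟩ : ∃ n2, n2 = ((p.2 : ℤ) - q.2).natAbs := ⟨_, rfl⟩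
    have a1 : (n1 : ℝ) = |(p.1 : ℝ) - q.1| := by rw [hn1]; exact natAbs_cast_abs _ _
    have a2 : (n2 : ℝ) = |(p.2 : ℝ) - q.2| := by rw [hn2]; exact natAbs_cast_abs _ _
    have hpos : 1 ≤ n1 ∨ 1 ≤ n2 := by
      by_contra hcon
      push Not at hcon
      apply hpq
      ext <;> omega
    rw [← hn1, ← hn2]
    have fin : ∀ ν : ℕ, n1 ≤ ν → n2 ≤ ν →
        Real.exp (-((K : ℝ) * ν) / 48) ≤ ρ ^ n1 * ρ ^ n2 := by
      intro ν b1 b2
      rw [hρ, ← Real.exp_nat_mul, ← Real.exp_nat_mul, ← Real.exp_add, Real.exp_le_exp]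
      have c1 : (n1 : ℝ) ≤ ν := by exact_mod_cast b1
      have c2 : (n2 : ℝ) ≤ ν := by exact_mod_cast b2
      have c3 : (0 : ℝ) ≤ K := Nat.cast_nonneg K
      nlinarith only [c1, c2, c3]
    have comb : ∀ ν : ℕ, n1 ≤ ν → n2 ≤ ν → Ev b (l * m * NN K M) (ang (l * m * NN K M) 0)
        (fun θ => F p θ * F q θ) ≤ 2 * Real.sqrt ((576 + 96 * C0) * (NN K M : ℝ) ^ 2 *
          (1 / (32 * (M : ℝ) ^ 4 * ((576 + 96 * C0) * N ^ 2))) +
          24 * (NN K M : ℝ) ^ 2 * Cl / ((l * m : ℕ) : ℝ)) +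
        2 * Real.sqrt (2 * Real.exp b) * Real.exp (-((K : ℝ) * ν) / 48) →
        Ev b (l * m * NN K M) (ang (l * m * NN K M) 0) (fun θ => F p θ * F q θ) ≤
        1 / (2 * (M : ℝ) ^ 2) + A * (ρ ^ n1 * ρ ^ n2) := by
      intro ν b1 b2 hh'
      refine (hh'.trans (add_le_add le_rfl
        (mul_le_mul_of_nonneg_right hBb (Real.exp_pos _).le))).trans ?_
      have d1 := mul_le_mul_of_nonneg_left (fin ν b1 b2) hA0
      have d2 : 1 / (2 * (M : ℝ) ^ 2) = 2 * (1 / (4 * (M : ℝ) ^ 2)) := by field_simp; ring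
      rw [d2]
      linarith only [hε, d1]
    rcases le_total n1 n2 with h12 | h12
    · refine comb n2 h12 le_rfl ?_
      exact hA2 K M m hK3 hK2 hm1 _ hδ' p.1 p.2 q.1 q.2 h1 h2 h3 h4 hh n2
        (Or.inl ⟨rfl, a2⟩) (by
          have : 1 ≤ n2 := by omega
          exact_mod_cast this)
    · refine comb n1 le_rfl h12 ?_
      exact hA2 K M m hK3 hK2 hm1 _ hδ' p.1 p.2 q.1 q.2 h1 h2 h3 h4 vv n1
        (Or.inr ⟨rfl, a1⟩) (by
          have : 1 ≤ n1 := by (clear * - hn1 hn2 hpos h12; omega)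
          exact_mod_cast this)
  have hrow : ∀ p ∈ posn M, ∑ q ∈ posn M, Ev b (l * m * NN K M) (ang (l * m * NN K M) 0)
      (fun θ => F p θ * F q θ) ≤ 2 := by
    intro p hp
    have := row_sum (M := M) (A := A) (A0 := 1 / (2 * (M : ℝ) ^ 2)) (ρ := ρ) hρ0.le hρ1 hA0
      (by positivity) (H := fun p q => Ev b (l * m * NN K M) (ang (l * m * NN K M) 0)
      (fun θ => F p θ * F q θ)) hdiag hoff hp
    have e1 : (M : ℝ) ^ 2 * (1 / (2 * (M : ℝ) ^ 2)) = 1 / 2 := by field_simp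
    rw [e1] at this
    linarith only [hρ2, this]
  have hfin := cs_vortex F cF (Real.sqrt_nonneg _) hlow hrow hM
  have hyy : WB b (l * m * NN K M) 0 (ang (l * m * NN K M) 0) / WB b (l * m * NN K M) 0 0 =
      yy b (l * m * NN K M) := rfl
  have hyy0 : 0 ≤ yy b (l * m) := div_nonneg (WB_pos b _ 0 _).le (WB_pos b _ 0 0).le
  rw [hyy, Real.sq_sqrt (by (clear * - hyy0; positivity))] at hfin
  linarith only [hfin]

end Vale.Agent.P159.UJ.H664
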