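import Vale.Agent.P159.T1.NC.H664.CellU
import Vale.Agent.P159.T1.NC.H664.StepQ

/-!
The energy of a vortex, uniformly in the size of the cells; one step of the recursion with one
vortex position, without any flatness assumption.
-/

set_option linter.all false

open MeasureTheory Filter Topology
open scoped BigOperators

namespace Vale.Agent.P159.UJ.H664

theorem CE_Psi_zero {b : ℝ} (hb : 0 ≤ b) {l : ℕ} (hl : 1 ≤ l)
    (p q : ℝ) (a1 a2 : BI l → ℝ) {c : ℝ} (h1 : p ^ 2 / 2 * ∑ e : BI l, b / 2 * a1 e ^ 2 ≤ c)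
    (h2 : q ^ 2 / 2 * ∑ e : BI l, b / 2 * a2 e ^ 2 ≤ c) :
    var_CE b l 0 (Psi b l 0 p q a1 a2) 0 ≤ 4 * Real.exp c := by
  have hk : (0 : ℤ × ℤ) ∈ cells 1 := by
    unfold cells
    rw [Finset.mem_product, Finset.mem_Ico, Finset.mem_Ico]
    norm_num
  have h := Ev_Psi hb hl hk p q a1 a2 h1 h2
  have hcor : cor l 0 = 0 := by unfold cor; ext <;> simp
  have hc := var_CE_cont (b := b) (l := l) 0 (Psi_cont b l 0 p q a1 a2)
  have e1 : Ev b (l * 1) 0 (var_CE b l 0 (Psi b l 0 p q a1 a2)) =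
      var_CE b l 0 (Psi b l 0 p q a1 a2) 0 := by
    rw [var_Ev_eq b (l * 1) hc]
    unfold CE av
    have e2 : ∀ y : Ginf, var_CE b l 0 (Psi b l 0 p q a1 a2) (0 + PB (l * 1) 0 y) =
        var_CE b l 0 (Psi b l 0 p q a1 a2) 0 := by
      intro y
      have := var_CE_inv (b := b) (l := l) 0 (Psi b l 0 p q a1 a2) 0 y
      rw [hcor] at this
      rw [mul_one]
      exact this
    simp only [e2]
    rw [integral_const_mul]
    have hpos := WB_pos b (l * 1) 0 0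
    unfold WB av at hpos
    rw [mul_div_assoc, div_self hpos.ne', mul_one]
  rw [e1] at h
  exact h

/-- the stiffness form at zero shift in a small direction -/
theorem QQ0_uni {b B : ℝ} (hb : 0 < b) (hbB : b ≤ B) {l : ℕ} (hl : 1 ≤ l) {r h : BI l → ℝ} {R : ℝ}
    (hR : 0 < R) (hr : ∀ e, |r e| ≤ R) (hh' : h = hh ∨ h = vv) :
    |QQ muInf (fun _ => b / 2) (chi0 l) 0 h r| ≤
      (6 * B + 2) * (4 * Real.exp (1024 * B)) * ((l : ℝ) ^ 2 * R) := by
  have hJ : ∀ _ : BI l, 0 ≤ b / 2 := fun _ => by positivity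
  have hB : 0 < B := hb.trans_le hbB
  have hlR : (1 : ℝ) ≤ l := by exact_mod_cast hl
  have hl0 : (0 : ℝ) < l := by linarith only [hlR]
  obtain ⟨τ, hτ⟩ : ∃ τ : ℝ, τ = l * R := ⟨_, rfl⟩
  have hτ0 : 0 < τ := by rw [hτ]; positivity
  have hhle : ∀ e, |h e| ≤ 1 := by
    rcases hh' with rfl | rfl
    · exact abs_hh_le
    · exact abs_vv_le
  have hSR : (∑ _e : BI l, b / 2) * R ≤ (6 * B) * (l * τ) := by
    rw [sum_J b l, hτ]
    have : 2 * b * (l : ℝ) ^ 2 * R = 2 * b * ((l : ℝ) * (l * R)) := by ring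
    rw [this]
    exact mul_le_mul_of_nonneg_right (by linarith only [hbB, hB]) (by positivity)
  have ht : ∀ e : BI l, (((0 : BI l → ℝ) e : ℝ) : T) = (0 : Ginf) (cor l 0 + bu e) -
      (0 : Ginf) (cor l 0 + bv e) := by
    intro e
    simp
  have v3 := CE_Psi (b := b) ht hτ0 hl0 r h
  have hBb : 1024 * b ≤ 1024 * B := by linarith only [hbB]
  have m2 : (32 / τ) ^ 2 / 2 * ∑ e : BI l, b / 2 * r e ^ 2 ≤ 1024 * B := by
    have h3 := sum_sq_le hb.le hr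
    have h4 : (32 / τ) ^ 2 / 2 * (2 * b * (l : ℝ) ^ 2 * R ^ 2) = 1024 * b := by
      rw [hτ]; field_simp; norm_num
    have h5 := mul_le_mul_of_nonneg_left h3 (show 0 ≤ (32 / τ) ^ 2 / 2 by positivity)
    linarith only [h4, h5, hBb]
  have m3 : (32 / (l : ℝ)) ^ 2 / 2 * ∑ e : BI l, b / 2 * h e ^ 2 ≤ 1024 * B := by
    have hs : ∑ e : BI l, b / 2 * h e ^ 2 = b * (l : ℝ) ^ 2 := by
      rcases hh' with rfl | rfl
      · exact sum_hh_sq b l
      · exact sum_vv_sq b l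
    rw [hs]
    have h4 : (32 / (l : ℝ)) ^ 2 / 2 * (b * (l : ℝ) ^ 2) = 512 * b := by
      field_simp; norm_num
    linarith only [h4, hBb, hb]
  have w3 := QQ_uni muInf (fun _ => b / 2) (chi0 l) hJ (t := 0) (r := r) (h := h) (R := R)
    (ρ := τ) (lam := l) (c := 6 * B) hhle hr hτ0 hlR (by positivity) hSR
  have hz := CE_Psi_zero hb.le hl (32 / τ) (32 / (l : ℝ)) r h m2 m3
  refine w3.trans ?_
  have h5 := mul_le_mul_of_nonneg_left (v3.trans hz) (show 0 ≤ (6 * B + 2) * (l * τ) by positivity)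
  refine h5.trans (le_of_eq ?_)
  rw [hτ]
  ring

/-- the weight of a cell -/
theorem weight_U {b B : ℝ} (hb : 0 < b) (hbB : b ≤ B) {l : ℕ} (hl : 1 ≤ l) :
    ∀ (c : ℤ × ℤ) (α : Ginf) (a : BI l → ℝ) (Y R : ℝ), 0 ≤ Y → 0 < R →
      (∀ e, ((a e : ℝ) : T) = α (c + bu e) - α (c + bv e)) → (∀ e, |a e| ≤ Y) →
      (∀ e e', hh e = hh e' → |a e - a e'| ≤ R) →
      Real.exp (-(stiff l b / 4 * ∑ e, a e ^ 2) -
        (2 * ((6 * B + 2) * (4 * Real.exp (1024 * B))) + B) * ((l : ℝ) ^ 2 * (Y * R + R ^ 2))) ≤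
        WB b l c α / WB b l c 0 := by
  have hJ : ∀ _ : BI l, 0 ≤ b / 2 := fun _ => by positivity
  have hB : 0 < B := hb.trans_le hbB
  obtain ⟨S, hS⟩ : ∃ S, S = (6 * B + 2) * (4 * Real.exp (1024 * B)) := ⟨_, rfl⟩
  have hS0 : 0 ≤ S := by rw [hS]; positivity
  intro c α a Y R hY hR haα ha hRa
  rw [← hS]
  have h0 : ∀ e : BI l, (((0 : BI l → ℝ) e : ℝ) : T) = (0 : Ginf) (c + bu e) -
      (0 : Ginf) (c + bv e) := by
    intro e
    simp
  rw [WB_eq haα, WB_eq h0]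
  refine le_trans ?_ (lowerZ muInf (fun _ => b / 2) (chi0 l) pi_div2 hJ a)
  rw [Real.exp_le_exp]
  obtain ⟨xi1, xi2, r, hdec, h1, h2, hr, hs1, hs2, hsq⟩ := decomp hl ha hRa
  have hst := stiff_nonneg' hb.le hl
  have r1 := QQ0_uni hb hbB hl hR hr (h := hh) (Or.inl rfl)
  have r2 := QQ0_uni hb hbB hl hR hr (h := vv) (Or.inr rfl)
  rw [← hS] at r1 r2
  have r3 : QQ muInf (fun _ => b / 2) (chi0 l) 0 r r ≤ 2 * B * ((l : ℝ) ^ 2 * R ^ 2) := by
    unfold QQ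
    rw [jm_zero, mul_zero, add_zero]
    have c1 := cont_Jt (fun _ => b / 2) (chi0 l) (0 : BI l → ℝ) r
    have f1 : 0 ≤ ex muInf (fun _ => b / 2) (chi0 l) 0 (fun x =>
        Jt (fun _ => b / 2) (chi0 l) 0 r x * Jt (fun _ => b / 2) (chi0 l) 0 r x) := by
      have := ex_mono muInf (fun _ => b / 2) (chi0 l) (t := 0) (f := fun _ => (0 : ℝ))
        (g := fun x => Jt (fun _ => b / 2) (chi0 l) 0 r x * Jt (fun _ => b / 2) (chi0 l) 0 r x)
        continuous_const (c1.mul c1) fun x => mul_self_nonneg _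
      rwa [ex_const] at this
    have f2 := ex_abs_le muInf (fun _ => b / 2) (chi0 l) (t := 0)
      (cont_Bt (fun _ => b / 2) (chi0 l) 0 r r) (abs_Bt_le (fun _ => b / 2) (chi0 l) hJ hr hr)
    rw [sum_J b l] at f2
    have f3 := (le_abs_self _).trans f2
    have f4 : 2 * b * (l : ℝ) ^ 2 * (R * R) ≤ 2 * B * ((l : ℝ) ^ 2 * R ^ 2) := by
      have : 2 * b * (l : ℝ) ^ 2 * (R * R) = 2 * b * ((l : ℝ) ^ 2 * R ^ 2) := by ring
      rw [this]
      exact mul_le_mul_of_nonneg_right (by linarith only [hbB]) (by positivity)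
    linarith only [f1, f3, f4]
  have bil : ∀ (h k : BI l → ℝ), QQ muInf (fun _ => b / 2) (chi0 l) 0 (h + k) (h + k) =
      QQ muInf (fun _ => b / 2) (chi0 l) 0 h h + 2 * QQ muInf (fun _ => b / 2) (chi0 l) 0 h k +
        QQ muInf (fun _ => b / 2) (chi0 l) 0 k k := by
    intro h k
    rw [QQ_add, QQ_symm muInf _ _ 0 (h + k) h, QQ_symm muInf _ _ 0 (h + k) k, QQ_add, QQ_add,
      QQ_symm muInf _ _ 0 k h]
    ring
  have hQ : QQ muInf (fun _ => b / 2) (chi0 l) 0 a a = (l : ℝ) ^ 2 * stiff l b *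
      (xi1 ^ 2 + xi2 ^ 2) + 2 * xi1 * QQ muInf (fun _ => b / 2) (chi0 l) 0 hh r +
      2 * xi2 * QQ muInf (fun _ => b / 2) (chi0 l) 0 vv r +
      QQ muInf (fun _ => b / 2) (chi0 l) 0 r r := by
    conv_lhs => rw [hdec]
    rw [bil, bil, QQ_smul2, QQ_smul2, QQ_add, QQ_smul, QQ_symm muInf _ _ 0 (xi1 • hh) vv,
      QQ_smul, QQ_symm muInf _ _ 0 (xi1 • hh) r, QQ_smul, QQ_symm muInf _ _ 0 (xi2 • vv) r,
      QQ_smul, QQ_symm muInf _ _ 0 vv hh, Q0_hv, Q0_h l b hl, Q0_v l b hl,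
      QQ_symm muInf _ _ 0 r hh, QQ_symm muInf _ _ 0 r vv]
    ring
  rw [hQ]
  have t1 : xi1 * QQ muInf (fun _ => b / 2) (chi0 l) 0 hh r ≤ Y * (S * ((l : ℝ) ^ 2 * R)) := by
    refine (le_abs_self _).trans ?_
    rw [abs_mul]
    exact mul_le_mul h1 r1 (abs_nonneg _) hY
  have t2 : xi2 * QQ muInf (fun _ => b / 2) (chi0 l) 0 vv r ≤ Y * (S * ((l : ℝ) ^ 2 * R)) := by
    refine (le_abs_self _).trans ?_
    rw [abs_mul]
    exact mul_le_mul h2 r2 (abs_nonneg _) hY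
  have t4 := mul_le_mul_of_nonneg_left hsq hst
  have t5 : 0 ≤ S * ((l : ℝ) ^ 2 * R ^ 2) := by positivity
  have t6 : 0 ≤ B * ((l : ℝ) ^ 2 * (Y * R)) := by positivity
  have e1 : (2 * S + B) * ((l : ℝ) ^ 2 * (Y * R + R ^ 2)) =
      2 * (Y * (S * ((l : ℝ) ^ 2 * R))) + 2 * (S * ((l : ℝ) ^ 2 * R ^ 2)) +
        B * ((l : ℝ) ^ 2 * (Y * R)) + B * ((l : ℝ) ^ 2 * R ^ 2) := by ring
  rw [e1]
  nlinarith only [t1, t2, t4, t5, t6, r3]

/-- energy of the vortex, uniformly in the size of the cells -/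
theorem g_U (B : ℝ) (hB : 0 < B) : ∃ C2 CG : ℝ, 1 ≤ C2 ∧ 1 ≤ CG ∧ ∀ b : ℝ, 0 < b → b ≤ B →
    ∀ l K M : ℕ, 1 ≤ l → 1 ≤ K → ∀ m i j : ℕ, i < M → j < M →
      CG * (NN K M : ℝ) ^ 2 ≤ (m : ℝ) →
      Real.exp (-(Real.pi * stiff l b * Real.log (NN K M)) - (B * C2 / 2 + 1)) * yy b (l * m) ≤
      (∏ k ∈ outer m K M i j, WB b l (cor l k) (alp l m K M i j) / WB b l (cor l k) 0) *
      (WB b (l * m) (cnr l m K M i j) (alp l m K M i j) / WB b (l * m) (cnr l m K M i j) 0) := by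
  obtain ⟨C1, s1, hC1, hs1, hinc⟩ := geo_inc
  obtain ⟨C2, s2, hC2, hs2, hen⟩ := geo_energy
  obtain ⟨C, hCdef⟩ : ∃ C : ℝ, C = 2 * ((6 * B + 2) * (4 * Real.exp (1024 * B))) + B := ⟨_, rfl⟩
  have hC : 0 ≤ C := by rw [hCdef]; positivity
  refine ⟨C2, max (max s1 s2) (max 2 (2 * C * C1 ^ 2)), hC2,
    le_trans (by norm_num) ((le_max_left (2 : ℝ) _).trans (le_max_right _ _)),
    fun b hb hbB l K M hl hK m i j hi hj hm => ?_⟩
  have hcell := weight_U hb hbB hl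
  rw [← hCdef] at hcell
  obtain ⟨N, hN⟩ : ∃ N : ℝ, N = ((NN K M : ℕ) : ℝ) := ⟨_, rfl⟩
  have hN1 : 1 ≤ N := by
    rw [hN]
    have : 1 ≤ NN K M := by unfold NN; omega
    exact_mod_cast this
  have hN2 : 1 ≤ N ^ 2 := one_le_pow₀ hN1
  rw [← hN] at hm
  have hlR : (1 : ℝ) ≤ l := by exact_mod_cast hl
  have hG0 : 0 ≤ max (max s1 s2) (max 2 (2 * C * C1 ^ 2)) :=
    le_trans (by norm_num) ((le_max_left (2 : ℝ) _).trans (le_max_right _ _))
  have hmG : max (max s1 s2) (max 2 (2 * C * C1 ^ 2)) ≤ (m : ℝ) := by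
    refine le_trans ?_ hm
    exact le_mul_of_one_le_right hG0 hN2
  have hm2 : (2 : ℝ) ≤ m := ((le_max_left _ _).trans (le_max_right _ _)).trans hmG
  have hlm : (m : ℝ) ≤ ((l * m : ℕ) : ℝ) := by
    push_cast
    exact le_mul_of_one_le_left (by linarith only [hm2]) hlR
  have hsa : s1 ≤ ((l * m : ℕ) : ℝ) :=
    (((le_max_left _ _).trans (le_max_left _ _)).trans hmG).trans hlm
  have hsb : s2 ≤ ((l * m : ℕ) : ℝ) :=
    (((le_max_right _ _).trans (le_max_left _ _)).trans hmG).trans hlm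
  have hs2r : (2 : ℝ) ≤ ((l * m : ℕ) : ℝ) := hm2.trans hlm
  have hs2' : 2 ≤ l * m := by exact_mod_cast hs2r
  have hmd : 2 * C * C1 ^ 2 * N ^ 2 ≤ (m : ℝ) :=
    (mul_le_mul_of_nonneg_right ((le_max_right _ _).trans (le_max_right _ _))
      (by positivity)).trans hm
  rw [h3_core hs2' hK hi hj]
  refine mul_le_mul_of_nonneg_right ?_ (yy_nonneg b _)
  obtain ⟨s, hsdef⟩ : ∃ s : ℝ, s = ((l * m : ℕ) : ℝ) := ⟨_, rfl⟩
  rw [← hsdef] at hsa hsb hs2r
  have hs0 : 0 < s := by linarith only [hs2r]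
  have hl0 : (0 : ℝ) < l := by linarith only [hlR]
  have hm0 : (0 : ℝ) < m := by linarith only [hm2]
  have ht0 := h3_stiff_nonneg hb hl
  have htb := h3_stiff_le hb hl
  obtain ⟨t, ht⟩ : ∃ t : ℝ, t = stiff l b := ⟨_, rfl⟩
  rw [← ht] at ht0 htb ⊢
  have hfac : ∀ k ∈ outer m K M i j,
      Real.exp (-(t / 4 * ∑ e, ainc l m K M i j k e ^ 2) -
        C * ((l : ℝ) ^ 2 * (C1 / s * (C1 * l / s ^ 2) + (C1 * l / s ^ 2) ^ 2))) ≤
      WB b l (cor l k) (alp l m K M i j) / WB b l (cor l k) 0 := by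
    intro k hk
    have hI := hinc l m K M i j hl hK hi hj (by rw [← hsdef]; exact hsa) k hk
    rw [← hsdef] at hI
    rw [ht]
    exact hcell (cor l k) (alp l m K M i j) (ainc l m K M i j k) (C1 / s) (C1 * l / s ^ 2)
      (by positivity) (by positivity) (fun e => h3_coe hs2' hK hi hj hk e)
      (fun e => (hI e).1) (fun e e' he => (hI e).2 e' he)
  have hprod : ∏ k ∈ outer m K M i j, Real.exp (-(t / 4 * ∑ e, ainc l m K M i j k e ^ 2) -
        C * ((l : ℝ) ^ 2 * (C1 / s * (C1 * l / s ^ 2) + (C1 * l / s ^ 2) ^ 2))) ≤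
      ∏ k ∈ outer m K M i j, WB b l (cor l k) (alp l m K M i j) / WB b l (cor l k) 0 :=
    Finset.prod_le_prod (fun k _ => (Real.exp_pos _).le) hfac
  refine le_trans ?_ hprod
  rw [← Real.exp_sum, Real.exp_le_exp, Finset.sum_sub_distrib, Finset.sum_neg_distrib,
    ← Finset.mul_sum, Finset.sum_const, nsmul_eq_mul]
  have hE := hen l m K M i j hl hK hi hj (by rw [← hsdef]; exact hsb)
  have hE2 : t / 4 * ∑ k ∈ outer m K M i j, ∑ e, ainc l m K M i j k e ^ 2 ≤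
      Real.pi * t * Real.log (NN K M) + B * C2 / 2 := by
    have h1 : t / 4 * ∑ k ∈ outer m K M i j, ∑ e, ainc l m K M i j k e ^ 2 =
        t / 2 * (1 / 2 * ∑ k ∈ outer m K M i j, ∑ e, ainc l m K M i j k e ^ 2) := by ring
    rw [h1]
    have h2 : t / 2 * (1 / 2 * ∑ k ∈ outer m K M i j, ∑ e, ainc l m K M i j k e ^ 2) ≤
        t / 2 * (2 * Real.pi * Real.log (NN K M) + C2) :=
      mul_le_mul_of_nonneg_left hE (by linarith only [ht0])
    have h3 : t / 2 * C2 ≤ B / 2 * C2 :=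
      mul_le_mul_of_nonneg_right (by linarith only [htb, hbB]) (by linarith only [hC2])
    nlinarith only [h2, h3]
  have hcard : ((outer m K M i j).card : ℝ) *
      (C * ((l : ℝ) ^ 2 * (C1 / s * (C1 * l / s ^ 2) + (C1 * l / s ^ 2) ^ 2))) ≤ 1 := by
    have h1 := h3_card (m := m) (K := K) (M := M) (i := i) (j := j)
    have hnn : 0 ≤ C * ((l : ℝ) ^ 2 * (C1 / s * (C1 * l / s ^ 2) + (C1 * l / s ^ 2) ^ 2)) := by
      positivity
    refine (mul_le_mul_of_nonneg_right h1 hnn).trans ?_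
    rw [← hN]
    have hsm : s = l * m := by rw [hsdef]; push_cast; ring
    have h2 : ((m : ℝ) * N) ^ 2 * (C * ((l : ℝ) ^ 2 * (C1 / s * (C1 * l / s ^ 2) +
        (C1 * l / s ^ 2) ^ 2))) = N ^ 2 * C * C1 ^ 2 * (1 / m + 1 / (m : ℝ) ^ 2) := by
      rw [hsm]
      field_simp
    rw [h2]
    have h4 : 1 / (m : ℝ) ^ 2 ≤ 1 / m := by
      apply one_div_le_one_div_of_le hm0
      nlinarith only [hm2]
    have h5 : 0 ≤ N ^ 2 * C * C1 ^ 2 := by positivity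
    calc N ^ 2 * C * C1 ^ 2 * (1 / m + 1 / (m : ℝ) ^ 2)
        ≤ N ^ 2 * C * C1 ^ 2 * (1 / m + 1 / m) :=
          mul_le_mul_of_nonneg_left (add_le_add le_rfl h4) h5
      _ = (2 * C * C1 ^ 2 * N ^ 2) / m := by ring
      _ ≤ 1 := by
          rw [div_le_one hm0]
          exact hmd
  linarith only [hE2, hcard]

/-- **one step with one vortex position**, no flatness -/
theorem stepOne (B : ℝ) (hB : 0 < B) : ∃ C2 CG : ℝ, 1 ≤ C2 ∧ 1 ≤ CG ∧ ∀ b : ℝ, 0 < b → b ≤ B →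
    ∀ l K M : ℕ, 1 ≤ l → 1 ≤ K → 1 ≤ M → ∀ m : ℕ, CG * (NN K M : ℝ) ^ 2 ≤ (m : ℝ) → 4 ≤ m →
      Real.exp (-(Real.pi * stiff l b * Real.log (NN K M)) - (B * C2 / 2 + 1)) * yy b (l * m) ≤
        yy b (l * m * NN K M) := by
  obtain ⟨C2, CG, hC2, hCG, hg⟩ := g_U B hB
  refine ⟨C2, CG, hC2, hCG, fun b hb hbB l K M hl hK hM m hm hm4 => ?_⟩
  have h1 := hg b hb hbB l K M hl hK m 0 0 hM hM hm
  have hs4n : 4 ≤ l * m := by nlinarith only [hl, hm4]
  have h2 := sqrt_lower (b := b) (l := l) (m := m) (K := K) (M := M) (i := 0) (j := 0)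
    hb.le hl hs4n hK hM hM
  have h3 := Real.sqrt_le_sqrt h1
  have h4 := h3.trans h2
  have hyy : WB b (l * m * NN K M) 0 (ang (l * m * NN K M) 0) / WB b (l * m * NN K M) 0 0 =
      yy b (l * m * NN K M) := rfl
  have cF : Continuous fun θ => Real.sqrt (Dn b l m K M 0 0 θ) :=
    Real.continuous_sqrt.comp (Dn_cont b l m K M 0 0)
  have hcs := Ev_cs (b := b) (L := l * m * NN K M) (v := ang (l * m * NN K M) 0)
    (F := fun θ => Real.sqrt (Dn b l m K M 0 0 θ)) (G := fun _ => (1 : ℝ)) cF continuous_const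
  simp only [mul_one, one_pow] at hcs
  have e1 : (fun θ => Real.sqrt (Dn b l m K M 0 0 θ) ^ 2) = fun θ => Dn b l m K M 0 0 θ := by
    ext θ
    exact Real.sq_sqrt (Dn_pos b l m K M 0 0 θ).le
  rw [e1, Ev_Dn_one hl hs4n hK hM hM, Ev_one, hyy, one_mul] at hcs
  have hpos : 0 ≤ Real.exp (-(Real.pi * stiff l b * Real.log (NN K M)) - (B * C2 / 2 + 1)) *
      yy b (l * m) := mul_nonneg (Real.exp_pos _).le (yy_nonneg b _)
  have h5 := pow_le_pow_left₀ (Real.sqrt_nonneg _) h4 2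
  rw [Real.sq_sqrt hpos] at h5
  exact h5.trans hcs

end Vale.Agent.P159.UJ.H664
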