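import Vale.Agent.P159.Bdl.B9

/-!
P159, near-critical regime: the stiffness of a block in terms of the correlation length:
`stiff l b ≤ 10000 b (1 + b) (1 + ξ)^3 / l` in the massive phase.
-/

open scoped BigOperators

namespace Vale.Agent.P159.UJ.H664

open Vale.Agent.P159

theorem abs_snd_le_nm (y : ℤ × ℤ) : |(y.2 : ℝ)| ≤ XY.nm y := by
  have h : y.2.natAbs ≤ XY.nm y := le_max_right _ _
  have h2 : |(y.2 : ℝ)| = (y.2.natAbs : ℝ) := by
    rw [← Int.cast_abs, Int.abs_eq_natAbs]; simp only [Nat.cast_natAbs, Int.cast_abs, Int.cast_eq]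
  rw [h2]
  exact_mod_cast h

theorem geo_int {c : ℝ} (hc : 0 < c) :
    Summable (fun n : ℤ => Real.exp (-(c * |(n : ℝ)|))) ∧
      ∑' n : ℤ, Real.exp (-(c * |(n : ℝ)|)) ≤ 2 * (1 + 1 / c) := by
  obtain ⟨r, hr⟩ : ∃ r : ℝ, r = Real.exp (-c) := ⟨_, rfl⟩
  have hr0 : 0 < r := by rw [hr]; exact Real.exp_pos _
  have hr1 : r < 1 := by rw [hr, Real.exp_lt_one_iff]; linarith
  have hr2 : r ≤ 1 / (1 + c) := by
    rw [hr, Real.exp_neg, ← one_div]
    exact one_div_le_one_div_of_le (by linarith) (by linarith [Real.add_one_le_exp c])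
  have h1 := hasSum_geometric_of_lt_one hr0.le hr1
  have h2 : HasSum (fun n : ℕ => Real.exp (-(c * |(((n : ℕ) : ℤ) : ℝ)|))) (1 - r)⁻¹ := by
    refine h1.congr_fun ?_ |> fun h => h
    intro n
    have e1 : |(((n : ℕ) : ℤ) : ℝ)| = n := by
      rw [Int.cast_natCast, abs_of_nonneg (Nat.cast_nonneg n)]
    rw [e1, hr, ← Real.exp_nat_mul]
    congr 1
    ring
  have h3 : HasSum (fun n : ℕ => Real.exp (-(c * |((-((n : ℤ) + 1) : ℤ) : ℝ)|)))
      (r * (1 - r)⁻¹) := by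
    refine (h1.mul_left r).congr_fun ?_ |> fun h => h
    intro n
    have e1 : |((-((n : ℤ) + 1) : ℤ) : ℝ)| = n + 1 := by
      push_cast
      rw [abs_neg, abs_of_nonneg (by positivity)]
    rw [e1, hr, ← Real.exp_nat_mul, ← Real.exp_add]
    congr 1
    ring
  have h4 := HasSum.of_nat_of_neg_add_one (f := fun n : ℤ => Real.exp (-(c * |(n : ℝ)|))) h2 h3
  refine ⟨h4.summable, ?_⟩
  rw [h4.tsum_eq]
  have h5 : (1 - r)⁻¹ ≤ 1 + 1 / c := by
    have h6 : c / (1 + c) ≤ 1 - r := by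
      have : c / (1 + c) = 1 - 1 / (1 + c) := by field_simp; ring
      linarith
    have h7 : (1 - r)⁻¹ ≤ (c / (1 + c))⁻¹ := inv_anti₀ (by positivity) h6
    have h8 : (c / (1 + c))⁻¹ = 1 + 1 / c := by field_simp; ring
    linarith
  have h6 : 0 < (1 - r)⁻¹ := by
    have : 0 < 1 - r := by linarith
    positivity
  nlinarith

theorem geo_fin (l : ℕ) {c : ℝ} (hc : 0 < c) (a : ℤ) :
    ∑ i : Fin l, Real.exp (-(c * |((i : ℕ) : ℝ) - a|)) ≤ 2 * (1 + 1 / c) := by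
  obtain ⟨hs, ht⟩ := geo_int hc
  have h := hs.sum_le_tsum (Finset.univ.map ⟨fun i : Fin l => (((i : ℕ) : ℤ) - a), by
    intro i j h
    simp only at h
    exact Fin.ext (by omega)⟩) (fun z _ => (Real.exp_pos _).le)
  rw [Finset.sum_map] at h
  refine le_trans (le_of_eq ?_) (h.trans ht)
  refine Finset.sum_congr rfl fun i _ => ?_
  change _ = Real.exp (-(c * |((((i : ℕ) : ℤ) - a : ℤ) : ℝ)|))
  push_cast
  rfl

theorem phiw_le {m : ℝ} (hm : 0 < m) (hm1 : m ≤ 1) (z : ℤ × ℤ) :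
    phiw m z ≤ 48 / m ^ 2 * Real.exp (-(m / 2 * XY.nm z)) := by
  unfold phiw
  obtain ⟨n, hn⟩ : ∃ n : ℝ, n = (XY.nm z : ℝ) := ⟨_, rfl⟩
  rw [← hn]
  have hn0 : 0 ≤ n := by rw [hn]; exact Nat.cast_nonneg _
  have h2 : m / 4 * (n + 2) ≤ Real.exp (m / 4 * (n + 2)) :=
    (by linarith [Real.add_one_le_exp (m / 4 * (n + 2))])
  have h3 : (m / 4 * (n + 2)) ^ 2 ≤ Real.exp (m / 4 * (n + 2)) ^ 2 :=
    pow_le_pow_left₀ (by positivity) h2 2
  have h4 : Real.exp (m / 4 * (n + 2)) ^ 2 = Real.exp m * Real.exp (m / 2 * n) := by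
    rw [← Real.exp_nat_mul, ← Real.exp_add]
    congr 1
    push_cast
    ring
  rw [h4] at h3
  have he : Real.exp m ≤ 3 := by
    have h6 : Real.exp m ≤ Real.exp 1 := Real.exp_le_exp.2 hm1
    linarith [Real.exp_one_lt_d9]
  have h5 : (n + 2) ^ 2 ≤ 48 / m ^ 2 * Real.exp (m / 2 * n) := by
    have h6 : (n + 2) ^ 2 = 16 / m ^ 2 * (m / 4 * (n + 2)) ^ 2 := by field_simp; ring
    rw [h6]
    have h7 : (m / 4 * (n + 2)) ^ 2 ≤ 3 * Real.exp (m / 2 * n) :=
      h3.trans (mul_le_mul_of_nonneg_right he (Real.exp_pos _).le)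
    have h8 := mul_le_mul_of_nonneg_left h7 (show 0 ≤ 16 / m ^ 2 by positivity)
    refine h8.trans (le_of_eq ?_)
    ring
  calc (n + 2) ^ 2 * Real.exp (-(m * n))
      ≤ (48 / m ^ 2 * Real.exp (m / 2 * n)) * Real.exp (-(m * n)) :=
        mul_le_mul_of_nonneg_right h5 (Real.exp_pos _).le
    _ = 48 / m ^ 2 * (Real.exp (m / 2 * n) * Real.exp (-(m * n))) := by ring
    _ = 48 / m ^ 2 * Real.exp (-(m / 2 * n)) := by
        rw [← Real.exp_add]
        congr 2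
        ring

theorem xin_fst (l : ℕ) (e : BI l) : |((xin l e).1 : ℝ) - ((e.1.1 : ℕ) : ℝ)| ≤ 1 := by
  have h : (xin l e).1 = ((e.1.1 : ℕ) : ℤ) ∨ (xin l e).1 = ((e.1.1 : ℕ) : ℤ) + 1 := by
    rcases e with ⟨⟨i, j⟩, ⟨o, s⟩⟩
    unfold xin bv bu
    cases o <;> cases s <;> simp <;> split_ifs <;> simp
  rcases h with h | h <;> rw [h] <;> push_cast <;> norm_num

theorem xin_snd (l : ℕ) (e : BI l) : |((xin l e).2 : ℝ) - ((e.1.2 : ℕ) : ℝ)| ≤ 1 := by
  have h : (xin l e).2 = ((e.1.2 : ℕ) : ℤ) ∨ (xin l e).2 = ((e.1.2 : ℕ) : ℤ) + 1 := by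
    rcases e with ⟨⟨i, j⟩, ⟨o, s⟩⟩
    unfold xin bv bu
    cases o <;> cases s <;> simp <;> split_ifs <;> simp
  rcases h with h | h <;> rw [h] <;> push_cast <;> norm_num

theorem shift_le {m n u v a : ℝ} (hm : 0 < m) (hm1 : m ≤ 1) (h1 : |u - a| ≤ n)
    (h2 : |u - v| ≤ 1) :
    48 / m ^ 2 * Real.exp (-(m / 2 * n)) ≤ 96 / m ^ 2 * Real.exp (-(m / 2 * |v - a|)) := by
  have h3 : |v - a| ≤ n + 1 := by
    rw [abs_le] at h1 h2 ⊢
    constructor <;> linarith [h1.1, h1.2, h2.1, h2.2]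
  have h4 : Real.exp (-(m / 2 * n)) ≤ 2 * Real.exp (-(m / 2 * |v - a|)) := by
    have h5 : -(m / 2 * n) ≤ 1 / 2 + -(m / 2 * |v - a|) := by nlinarith
    have h6 : Real.exp (1 / 2) ≤ 2 := by
      have h7 : Real.exp (1 / 2) ^ 2 = Real.exp 1 := by
        rw [← Real.exp_nat_mul]; norm_num
      have h8 := Real.exp_one_lt_d9
      nlinarith [Real.exp_pos (1 / 2)]
    calc Real.exp (-(m / 2 * n)) ≤ Real.exp (1 / 2 + -(m / 2 * |v - a|)) := Real.exp_le_exp.2 h5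
      _ = Real.exp (1 / 2) * Real.exp (-(m / 2 * |v - a|)) := Real.exp_add _ _
      _ ≤ _ := mul_le_mul_of_nonneg_right h6 (Real.exp_pos _).le
  have h5 := mul_le_mul_of_nonneg_left h4 (show 0 ≤ 48 / m ^ 2 by positivity)
  refine h5.trans (le_of_eq ?_)
  ring

theorem phi_fst {m : ℝ} (hm : 0 < m) (hm1 : m ≤ 1) (l : ℕ) (e : BI l) (x : ℤ × ℤ) :
    phiw m (xin l e - x) ≤ 96 / m ^ 2 * Real.exp (-(m / 2 * |((e.1.1 : ℕ) : ℝ) - x.1|)) := by
  refine (phiw_le hm hm1 _).trans (shift_le hm hm1 (u := ((xin l e).1 : ℝ)) ?_ (xin_fst l e))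
  have h := XY.abs_fst_le_nm (xin l e - x)
  rw [Prod.fst_sub] at h
  push_cast at h
  exact h

theorem phi_snd {m : ℝ} (hm : 0 < m) (hm1 : m ≤ 1) (l : ℕ) (e : BI l) (x : ℤ × ℤ) :
    phiw m (xin l e - x) ≤ 96 / m ^ 2 * Real.exp (-(m / 2 * |((e.1.2 : ℕ) : ℝ) - x.2|)) := by
  refine (phiw_le hm hm1 _).trans (shift_le hm hm1 (u := ((xin l e).2 : ℝ)) ?_ (xin_snd l e))
  have h := abs_snd_le_nm (xin l e - x)
  rw [Prod.snd_sub] at h
  push_cast at h
  exact h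

theorem sum_BI (l : ℕ) (F G : Fin l → ℝ) :
    ∑ e : BI l, F e.1.1 * G e.1.2 = 4 * ((∑ i, F i) * ∑ j, G j) := by
  have h1 : ∑ e : BI l, F e.1.1 * G e.1.2 = ∑ c : Fin l × Fin l, 4 * (F c.1 * G c.2) := by
    rw [Fintype.sum_prod_type]
    refine Finset.sum_congr rfl fun c _ => ?_
    change ∑ _y : Bool × Bool, F c.1 * G c.2 = 4 * (F c.1 * G c.2)
    rw [Finset.sum_const, nsmul_eq_mul]
    norm_num
  rw [h1, ← Finset.mul_sum, Fintype.sum_prod_type, Finset.sum_mul_sum]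

theorem sum_line {m : ℝ} (hm : 0 < m) (hm1 : m ≤ 1) (l : ℕ) (x : ℤ × ℤ) :
    ∑ e : BI l, bcell l e * phiw m (xin l e - x) ≤ 9216 / m ^ 3 := by
  obtain ⟨G1, hG1⟩ : ∃ G : Fin l → ℝ, ∀ i, G i = Real.exp (-(m / 2 * |((i : ℕ) : ℝ) - x.1|)) :=
    ⟨_, fun _ => rfl⟩
  obtain ⟨G2, hG2⟩ : ∃ G : Fin l → ℝ, ∀ i, G i = Real.exp (-(m / 2 * |((i : ℕ) : ℝ) - x.2|)) :=
    ⟨_, fun _ => rfl⟩
  obtain ⟨I, hI⟩ : ∃ I : Fin l → ℝ, ∀ i : Fin l,
      I i = (if (i : ℕ) = 0 then 1 else 0) + (if (i : ℕ) = l - 1 then 1 else 0) :=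
    ⟨_, fun _ => rfl⟩
  have hI0 : ∀ i, 0 ≤ I i := by
    intro i; rw [hI]
    refine add_nonneg ?_ ?_ <;> split_ifs <;> norm_num
  have hIs : ∑ i, I i ≤ 2 := by
    simp only [hI]
    rw [Finset.sum_add_distrib]
    linarith [sum_fin_eq_le l 0, sum_fin_eq_le l (l - 1)]
  have hIs0 : 0 ≤ ∑ i, I i := Finset.sum_nonneg fun i _ => hI0 i
  have hgeo : 2 * (1 + 1 / (m / 2)) ≤ 6 / m := by
    rw [show 2 * (1 + 1 / (m / 2)) = 2 + 4 / m by field_simp; ring, show 6 / m = 2 / m + 4 / m by ring]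
    have : 2 ≤ 2 / m := by rw [le_div_iff₀ hm]; linarith
    linarith
  have hG1s : ∑ i, G1 i ≤ 6 / m := by
    simp only [hG1]
    exact (geo_fin l (by positivity) x.1).trans hgeo
  have hG2s : ∑ i, G2 i ≤ 6 / m := by
    simp only [hG2]
    exact (geo_fin l (by positivity) x.2).trans hgeo
  have hG10 : 0 ≤ ∑ i, G1 i := Finset.sum_nonneg fun i _ => by rw [hG1]; exact (Real.exp_pos _).le
  have hG20 : 0 ≤ ∑ i, G2 i := Finset.sum_nonneg fun i _ => by rw [hG2]; exact (Real.exp_pos _).le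
  have h1 : ∀ e : BI l, bcell l e * phiw m (xin l e - x) ≤
      96 / m ^ 2 * (I e.1.1 * G2 e.1.2) + 96 / m ^ 2 * (G1 e.1.1 * I e.1.2) := by
    intro e
    have e1 : bcell l e = I e.1.1 + I e.1.2 := by rw [hI, hI]; rfl
    have e2 := phi_fst hm hm1 l e x
    have e3 := phi_snd hm hm1 l e x
    rw [← hG1] at e2
    rw [← hG2] at e3
    have e4 := mul_le_mul_of_nonneg_left e3 (hI0 e.1.1)
    have e5 := mul_le_mul_of_nonneg_left e2 (hI0 e.1.2)
    rw [e1, add_mul]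
    refine (add_le_add e4 e5).trans (le_of_eq ?_)
    ring
  have h2 := Finset.sum_le_sum fun e (_ : e ∈ (Finset.univ : Finset (BI l))) => h1 e
  rw [Finset.sum_add_distrib, ← Finset.mul_sum, ← Finset.mul_sum, sum_BI l I G2,
    sum_BI l G1 I] at h2
  have h3 : (∑ i, I i) * ∑ j, G2 j ≤ 2 * (6 / m) := mul_le_mul hIs hG2s hG20 (by norm_num)
  have h4 : (∑ i, G1 i) * ∑ j, I j ≤ 6 / m * 2 := mul_le_mul hG1s hIs hIs0 (by positivity)
  have h5 := mul_le_mul_of_nonneg_left h3 (show 0 ≤ 96 / m ^ 2 * 4 by positivity)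
  have h6 := mul_le_mul_of_nonneg_left h4 (show 0 ≤ 96 / m ^ 2 * 4 by positivity)
  have h7 : 96 / m ^ 2 * 4 * (2 * (6 / m)) + 96 / m ^ 2 * 4 * (6 / m * 2) = 9216 / m ^ 3 := by
    field_simp; norm_num
  linarith

theorem phiw_anti {m m' : ℝ} (h : m ≤ m') (z : ℤ × ℤ) : phiw m' z ≤ phiw m z := by
  unfold phiw
  refine mul_le_mul_of_nonneg_left (Real.exp_le_exp.2 ?_) (by positivity)
  have : (0 : ℝ) ≤ XY.nm z := Nat.cast_nonneg _
  nlinarith

theorem pair_le2 (l : ℕ) {b m : ℝ} (hb : 0 < b) (hm : m ≤ mass b) (e e' : BI l) :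
    1 / 2 * (b / 2) ^ 2 * (pe l e - pe l e') ^ 2 *
        gibbs muInf (fun _ => b / 2) (chi0 l) (fun θ => tw l e θ * tw l e' θ) ≤
      b ^ 2 / 16 * (bcell l e * (bcell l e' * phiw m (xin l e' - xin l e))) := by
  rcases sg_cases l e' with h | ⟨h1', h2', h3', h4', h5'⟩
  · have : (fun θ => tw l e θ * tw l e' θ) = fun _ => (0 : ℝ) := by
      funext θ; unfold tw; rw [h]; ring
    rw [this, gibbs_const, mul_zero]
    exact mul_nonneg (by positivity) (mul_nonneg (bcell_nonneg l e)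
      (mul_nonneg (bcell_nonneg l e') (phiw_nonneg _ _)))
  · refine (pair_le l hb e e').trans ?_
    have hb1 := one_le_bcell h5'
    have e3 : phiw (mass b) (xin l e' - xin l e) ≤
        bcell l e' * phiw m (xin l e' - xin l e) :=
      (phiw_anti hm _).trans (le_mul_of_one_le_left (phiw_nonneg _ _) hb1)
    exact mul_le_mul_of_nonneg_left (mul_le_mul_of_nonneg_left e3 (bcell_nonneg l e))
      (by positivity)

/-- The stiffness in terms of the correlation length. -/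
theorem stiff_le_xi {b : ℝ} (hb : 0 < b) (hm : 0 < mass b) (l : ℕ) (hl : 1 ≤ l) :
    stiff l b ≤ 10000 * (b * (1 + b)) * (1 + corrLength b) ^ 3 / l := by
  obtain ⟨m, hmm⟩ : ∃ m : ℝ, m = min (mass b) 1 := ⟨_, rfl⟩
  have hm0 : 0 < m := by rw [hmm]; exact lt_min hm one_pos
  have hm1 : m ≤ 1 := by rw [hmm]; exact min_le_right _ _
  have hm2 : m ≤ mass b := by rw [hmm]; exact min_le_left _ _
  have hl0 : (0 : ℝ) < l := by exact_mod_cast hl
  have h1 := stiff_boundary l b hl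
  have h2 : ∑ e : BI l, b / 2 * tau l e ≤ b / 2 * (16 * l) := by
    rw [← Finset.mul_sum]
    refine mul_le_mul_of_nonneg_left ?_ (by positivity)
    exact (Finset.sum_le_sum fun e _ => tau_le l e).trans (sum_bcell l)
  have h3 : ∑ e : BI l, ∑ e' : BI l, 1 / 2 * (b / 2) ^ 2 * (pe l e - pe l e') ^ 2 *
        gibbs muInf (fun _ => b / 2) (chi0 l) (fun θ => tw l e θ * tw l e' θ) ≤
      b ^ 2 / 16 * ((16 * l) * (9216 / m ^ 3)) := by
    calc ∑ e : BI l, ∑ e' : BI l, 1 / 2 * (b / 2) ^ 2 * (pe l e - pe l e') ^ 2 *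
        gibbs muInf (fun _ => b / 2) (chi0 l) (fun θ => tw l e θ * tw l e' θ)
        ≤ ∑ e : BI l, ∑ e' : BI l, b ^ 2 / 16 * (bcell l e * (bcell l e' *
          phiw m (xin l e' - xin l e))) :=
          Finset.sum_le_sum fun e _ => Finset.sum_le_sum fun e' _ => pair_le2 l hb hm2 e e'
      _ = b ^ 2 / 16 * ∑ e : BI l, bcell l e * ∑ e' : BI l, bcell l e' *
          phiw m (xin l e' - xin l e) := by
          rw [Finset.mul_sum]
          refine Finset.sum_congr rfl fun e _ => ?_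
          rw [Finset.mul_sum, Finset.mul_sum]
      _ ≤ b ^ 2 / 16 * ∑ e : BI l, bcell l e * (9216 / m ^ 3) := by
          refine mul_le_mul_of_nonneg_left (Finset.sum_le_sum fun e _ => ?_) (by positivity)
          exact mul_le_mul_of_nonneg_left (sum_line hm0 hm1 l (xin l e)) (bcell_nonneg l e)
      _ ≤ b ^ 2 / 16 * ((16 * l) * (9216 / m ^ 3)) := by
          rw [← Finset.sum_mul]
          refine mul_le_mul_of_nonneg_left ?_ (by positivity)
          exact mul_le_mul_of_nonneg_right (sum_bcell l) (by positivity)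
  have hxi : 1 / m ≤ 1 + corrLength b := by
    unfold corrLength
    have h0 : 0 < 1 / mass b := by positivity
    rcases le_total (mass b) 1 with h | h
    · rw [hmm, min_eq_left h]; linarith
    · rw [hmm, min_eq_right h]; linarith
  have hxi3 : 1 / m ^ 3 ≤ (1 + corrLength b) ^ 3 := by
    have := pow_le_pow_left₀ (by positivity) hxi 3
    rw [div_pow, one_pow] at this
    exact this
  have hm3 : 1 ≤ 1 / m ^ 3 := by
    rw [le_div_iff₀ (by positivity), one_mul]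
    exact pow_le_one₀ hm0.le hm1
  have h4 : (l : ℝ) ^ 2 * stiff l b ≤ (8 * b + 9216 * b ^ 2 * (1 / m ^ 3)) * l := by
    rw [h1]
    have e1 : b ^ 2 / 16 * ((16 * l) * (9216 / m ^ 3)) = 9216 * b ^ 2 * (1 / m ^ 3) * l := by
      ring
    rw [e1] at h3
    linarith only [h2, h3]
  have h5 : 8 * b + 9216 * b ^ 2 * (1 / m ^ 3) ≤ 10000 * (b * (1 + b)) * (1 + corrLength b) ^ 3 := by
    have e1 : 8 * b ≤ 8 * b * (1 / m ^ 3) := le_mul_of_one_le_right (by positivity) hm3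
    have e2 : 8 * b + 9216 * b ^ 2 * (1 / m ^ 3) ≤ 10000 * (b * (1 + b)) * (1 / m ^ 3) := by
      have e3 : 0 ≤ b * (1 / m ^ 3) := by positivity
      have e4 : 0 ≤ b ^ 2 * (1 / m ^ 3) := by positivity
      nlinarith
    exact e2.trans (mul_le_mul_of_nonneg_left hxi3 (by positivity))
  rw [le_div_iff₀ hl0]
  have h6 : (stiff l b * l) * l ≤ (10000 * (b * (1 + b)) * (1 + corrLength b) ^ 3) * l := by
    calc (stiff l b * l) * l = (l : ℝ) ^ 2 * stiff l b := by ring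
      _ ≤ _ := h4
      _ ≤ _ := mul_le_mul_of_nonneg_right h5 hl0.le
  exact le_of_mul_le_mul_right h6 hl0

end Vale.Agent.P159.UJ.H664
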